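import Crest.Agent.R299.Defs

/-!
Row 299 (S0453): basic API for the averaging operators `avg r` (conditional expectations on a
finite uniform space) and the inner product `ip`.
-/

set_option autoImplicit false
open Finset

namespace Crest.Agent.R299

section ipsec
variable {α : Type*} [Fintype α]

theorem ip_comm (f g : α → ℝ) : ip f g = ip g f := by
  unfold ip; exact Finset.sum_congr rfl fun x _ => mul_comm _ _

theorem ip_add_left (f g h : α → ℝ) : ip (fun x => f x + g x) h = ip f h + ip g h := by
  unfold ip; rw [← Finset.sum_add_distrib]; exact Finset.sum_congr rfl fun x _ => by ring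

theorem ip_sub_left (f g h : α → ℝ) : ip (fun x => f x - g x) h = ip f h - ip g h := by
  unfold ip; rw [← Finset.sum_sub_distrib]; exact Finset.sum_congr rfl fun x _ => by ring

theorem ip_add_right (f g h : α → ℝ) : ip f (fun x => g x + h x) = ip f g + ip f h := by
  unfold ip; rw [← Finset.sum_add_distrib]; exact Finset.sum_congr rfl fun x _ => by ring

theorem ip_sub_right (f g h : α → ℝ) : ip f (fun x => g x - h x) = ip f g - ip f h := by
  unfold ip; rw [← Finset.sum_sub_distrib]; exact Finset.sum_congr rfl fun x _ => by ring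

theorem ip_smul_left (c : ℝ) (f g : α → ℝ) : ip (fun x => c * f x) g = c * ip f g := by
  unfold ip; rw [Finset.mul_sum]; exact Finset.sum_congr rfl fun x _ => by ring

theorem ip_smul_right (c : ℝ) (f g : α → ℝ) : ip f (fun x => c * g x) = c * ip f g := by
  unfold ip; rw [Finset.mul_sum]; exact Finset.sum_congr rfl fun x _ => by ring

theorem ip_sum_left {ι : Type*} (s : Finset ι) (f : ι → α → ℝ) (g : α → ℝ) :
    ip (fun x => ∑ i ∈ s, f i x) g = ∑ i ∈ s, ip (f i) g := by
  unfold ip; rw [Finset.sum_comm]; exact Finset.sum_congr rfl fun x _ => by rw [Finset.sum_mul]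

theorem ip_sum_right {ι : Type*} (s : Finset ι) (f : ι → α → ℝ) (g : α → ℝ) :
    ip g (fun x => ∑ i ∈ s, f i x) = ∑ i ∈ s, ip g (f i) := by
  unfold ip; rw [Finset.sum_comm]; exact Finset.sum_congr rfl fun x _ => by rw [Finset.mul_sum]

theorem ip_self_nonneg (f : α → ℝ) : 0 ≤ ip f f :=
  Finset.sum_nonneg fun x _ => mul_self_nonneg (f x)

theorem ip_self (f : α → ℝ) : ip f f = ∑ x, f x ^ 2 := by
  unfold ip; exact Finset.sum_congr rfl fun x _ => by ring

theorem ip_self_eq_zero {f : α → ℝ} (h : ip f f = 0) (x : α) : f x = 0 := by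
  have := (Finset.sum_eq_zero_iff_of_nonneg (fun x _ => mul_self_nonneg (f x))).1 h x (mem_univ x)
  exact mul_self_eq_zero.1 this

theorem ip_sq_le (f g : α → ℝ) : ip f g ^ 2 ≤ ip f f * ip g g := by
  rw [ip_self, ip_self]
  exact Finset.sum_mul_sq_le_sq_mul_sq univ f g

/-- test functions separate -/
theorem eq_of_ip_eq {f g : α → ℝ} (h : ∀ k, ip k f = ip k g) : f = g := by
  funext x
  have h1 := h (fun y => f y - g y)
  have h2 : ip (fun y => f y - g y) (fun y => f y - g y) = 0 := by
    rw [ip_sub_right, h1, sub_self]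
  have h3 : f x - g x = 0 := ip_self_eq_zero h2 x
  linarith

end ipsec

section avgsec
variable {α : Type*} [Fintype α] {r s : α → α → Prop}

theorem cls_eq_of_rel (hr : Equivalence r) {x y : α} (h : r x y) : cls r x = cls r y := by
  ext z
  simp only [mem_cls]
  exact ⟨fun hz => hr.trans (hr.symm h) hz, fun hz => hr.trans h hz⟩

theorem self_mem_cls (hr : Equivalence r) (x : α) : x ∈ cls r x := by
  simp [hr.refl]

theorem cls_card_pos (hr : Equivalence r) (x : α) : 0 < (cls r x).card :=
  Finset.card_pos.2 ⟨x, self_mem_cls hr x⟩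

theorem cls_card_pos' (hr : Equivalence r) (x : α) : (0 : ℝ) < ((cls r x).card : ℝ) := by
  exact_mod_cast cls_card_pos hr x

theorem avg_eq_of_rel (hr : Equivalence r) (f : α → ℝ) {x y : α} (h : r x y) :
    avg r f x = avg r f y := by
  unfold avg; rw [cls_eq_of_rel hr h]

theorem avg_of_invariant (hr : Equivalence r) {f : α → ℝ} (hf : ∀ x y, r x y → f x = f y) :
    avg r f = f := by
  funext x
  unfold avg
  rw [Finset.sum_congr rfl (g := fun _ => f x)
    (fun y hy => (hf x y ((mem_cls r x y).1 hy)).symm)]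
  rw [Finset.sum_const, nsmul_eq_mul]
  have := cls_card_pos' hr x
  field_simp

theorem avg_avg (hr : Equivalence r) (f : α → ℝ) : avg r (avg r f) = avg r f :=
  avg_of_invariant hr fun _ _ h => avg_eq_of_rel hr f h

theorem avg_add (f g : α → ℝ) : avg r (fun x => f x + g x) = fun x => avg r f x + avg r g x := by
  funext x
  simp only [avg, Finset.sum_add_distrib, add_div]

theorem avg_sub (f g : α → ℝ) : avg r (fun x => f x - g x) = fun x => avg r f x - avg r g x := by
  funext x
  simp only [avg, Finset.sum_sub_distrib, sub_div]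

theorem avg_smul (c : ℝ) (f : α → ℝ) : avg r (fun x => c * f x) = fun x => c * avg r f x := by
  funext x
  simp only [avg, ← Finset.mul_sum, mul_div_assoc]

theorem avg_neg (f : α → ℝ) : avg r (fun x => - f x) = fun x => - avg r f x := by
  funext x
  simp only [avg, Finset.sum_neg_distrib, neg_div]

theorem avg_sum {ι : Type*} (t : Finset ι) (f : ι → α → ℝ) :
    avg r (fun x => ∑ i ∈ t, f i x) = fun x => ∑ i ∈ t, avg r (f i) x := by
  funext x
  simp only [avg]
  rw [Finset.sum_comm, Finset.sum_div]

/-- `avg r` as a linear map -/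
noncomputable def avgL (r : α → α → Prop) : (α → ℝ) →ₗ[ℝ] (α → ℝ) where
  toFun := avg r
  map_add' f g := avg_add f g
  map_smul' c f := avg_smul c f

@[simp] theorem avgL_apply (r : α → α → Prop) (f : α → ℝ) : avgL r f = avg r f := rfl

/-- self-adjointness -/
theorem ip_avg_left (hr : Equivalence r) (f g : α → ℝ) : ip (avg r f) g = ip f (avg r g) := by
  classical
  unfold ip avg
  simp only [div_eq_mul_inv, Finset.sum_mul, Finset.mul_sum]
  have key : ∀ (F : α → α → ℝ), ∑ x, ∑ y ∈ cls r x, F x y = ∑ y, ∑ x ∈ cls r y, F x y := by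
    intro F
    simp only [cls, Finset.sum_filter]
    rw [Finset.sum_comm]
    refine Finset.sum_congr rfl fun y _ => Finset.sum_congr rfl fun x _ => ?_
    by_cases h : r x y
    · rw [if_pos h, if_pos (hr.symm h)]
    · rw [if_neg h, if_neg (fun h' => h (hr.symm h'))]
  rw [key]
  refine Finset.sum_congr rfl fun y _ => Finset.sum_congr rfl fun x hx => ?_
  rw [cls_eq_of_rel hr ((mem_cls r y x).1 hx)]
  ring

theorem ip_avg_right (hr : Equivalence r) (f g : α → ℝ) : ip f (avg r g) = ip (avg r f) g :=
  (ip_avg_left hr f g).symm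

theorem ip_avg_self (hr : Equivalence r) (f : α → ℝ) :
    ip f (avg r f) = ip (avg r f) (avg r f) := by
  rw [ip_avg_left hr, avg_avg hr]

theorem sum_avg (hr : Equivalence r) (f : α → ℝ) : ∑ x, avg r f x = ∑ x, f x := by
  have h := ip_avg_left hr f (fun _ => 1)
  have h1 : avg r (fun _ : α => (1 : ℝ)) = fun _ => 1 := avg_of_invariant hr (fun _ _ _ => rfl)
  rw [h1] at h
  simpa [ip] using h

/-- sums over the space as averages of sums over classes -/
theorem sum_nonneg_of_cls (hr : Equivalence r) (f : α → ℝ)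
    (h : ∀ x, 0 ≤ ∑ y ∈ cls r x, f y) : 0 ≤ ∑ x, f x := by
  rw [← sum_avg hr f]
  exact Finset.sum_nonneg fun x _ => div_nonneg (h x) (Nat.cast_nonneg _)

theorem sum_le_sum_of_cls (hr : Equivalence r) (f g : α → ℝ)
    (h : ∀ x, ∑ y ∈ cls r x, f y ≤ ∑ y ∈ cls r x, g y) : ∑ x, f x ≤ ∑ x, g x := by
  have := sum_nonneg_of_cls hr (fun x => g x - f x) (fun x => by
    rw [Finset.sum_sub_distrib]; linarith [h x])
  rw [Finset.sum_sub_distrib] at this
  linarith

theorem ip_avg_avg_le (hr : Equivalence r) (f : α → ℝ) : ip (avg r f) (avg r f) ≤ ip f f := by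
  have h := ip_self_nonneg (fun x => f x - avg r f x)
  rw [ip_sub_left, ip_sub_right, ip_sub_right, ip_avg_self hr, ip_comm (avg r f) f,
    ip_avg_self hr] at h
  linarith

/-- the complementary projection -/
theorem ip_sub_avg_self (hr : Equivalence r) (f : α → ℝ) :
    ip f (fun x => f x - avg r f x) = ip (fun x => f x - avg r f x) (fun x => f x - avg r f x) := by
  rw [ip_sub_left f (avg r f), ip_sub_right, ip_sub_right, ip_avg_self hr, ip_comm (avg r f) f,
    ip_avg_self hr]
  ring

/-- if `r` refines `s` -/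
theorem avg_avg_of_le (hr : Equivalence r) (hs : Equivalence s) (h : ∀ x y, r x y → s x y)
    (f : α → ℝ) : avg r (avg s f) = avg s f :=
  avg_of_invariant hr fun x y hxy => avg_eq_of_rel hs f (h x y hxy)

theorem avg_avg_of_le' (hr : Equivalence r) (hs : Equivalence s) (h : ∀ x y, r x y → s x y)
    (f : α → ℝ) : avg s (avg r f) = avg s f := by
  apply eq_of_ip_eq
  intro k
  rw [ip_avg_right hs, ip_avg_right hr, avg_avg_of_le hr hs h, ip_avg_right hs]

/-- commutation criterion: `avg s` preserves `r`-invariant functions -/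
theorem avg_comm_of_preserve (hr : Equivalence r) (hs : Equivalence s)
    (H : ∀ f : α → ℝ, (∀ x y, r x y → f x = f y) → ∀ x y, r x y → avg s f x = avg s f y)
    (f : α → ℝ) : avg r (avg s f) = avg s (avg r f) := by
  have h1 : ∀ f : α → ℝ, avg r (avg s (avg r f)) = avg s (avg r f) := fun f =>
    avg_of_invariant hr (H _ fun x y h => avg_eq_of_rel hr f h)
  rw [← h1]
  apply eq_of_ip_eq
  intro k
  rw [ip_avg_right hr k, ip_avg_right hs, ip_avg_right hr k, ip_avg_right hs,
    ip_avg_right hr (avg s (avg r k)), h1]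

/-- transfer along an injection whose image is saturated -/
theorem avg_transfer {β : Type*} [Fintype β] {q : β → β → Prop} (e : β → α)
    (he : Function.Injective e) (h : ∀ b a, r (e b) a ↔ ∃ b', a = e b' ∧ q b b')
    (f : α → ℝ) (b : β) : avg r f (e b) = avg q (fun b' => f (e b')) b := by
  classical
  have hcls : cls r (e b) = (cls q b).map ⟨e, he⟩ := by
    ext a
    simp only [mem_cls, Finset.mem_map, Function.Embedding.coeFn_mk, h]
    constructor
    · rintro ⟨b', rfl, hq⟩; exact ⟨b', hq, rfl⟩
    · rintro ⟨b', hq, rfl⟩; exact ⟨b', rfl, hq⟩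
  unfold avg
  rw [hcls, Finset.sum_map, Finset.card_map]
  rfl

/-- transfer of class sums along an injection whose image is saturated -/
theorem sum_cls_transfer {β : Type*} [Fintype β] {q : β → β → Prop} (e : β → α)
    (he : Function.Injective e) (h : ∀ b a, r (e b) a ↔ ∃ b', a = e b' ∧ q b b')
    (f : α → ℝ) (b : β) : ∑ a ∈ cls r (e b), f a = ∑ b' ∈ cls q b, f (e b') := by
  classical
  have hcls : cls r (e b) = (cls q b).map ⟨e, he⟩ := by
    ext a
    simp only [mem_cls, Finset.mem_map, Function.Embedding.coeFn_mk, h]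
    constructor
    · rintro ⟨b', rfl, hq⟩; exact ⟨b', hq, rfl⟩
    · rintro ⟨b', hq, rfl⟩; exact ⟨b', rfl, hq⟩
  rw [hcls, Finset.sum_map]
  rfl

/-- an involution `t` mapping each class to itself does not change averages -/
theorem avg_comp_of_mem (hr : Equivalence r) (t : α → α) (ht : Function.Involutive t)
    (htr : ∀ x, r x (t x)) (f : α → ℝ) : avg r (fun x => f (t x)) = avg r f := by
  funext x
  unfold avg
  congr 1
  refine Finset.sum_nbij' t t ?_ ?_ ?_ ?_ ?_
  · intro y hy; simp only [mem_cls] at *; exact hr.trans hy (htr y)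
  · intro y hy; simp only [mem_cls] at *; exact hr.trans hy (htr y)
  · intro y _; exact ht y
  · intro y _; exact ht y
  · intro y _; rfl

/-- an involution `t` preserving the relation commutes with averaging -/
theorem avg_comp_of_map (t : α → α) (ht : Function.Involutive t)
    (htr : ∀ x y, r x y → r (t x) (t y)) (f : α → ℝ) :
    avg r (fun x => f (t x)) = fun x => avg r f (t x) := by
  funext x
  have hmem : ∀ y, y ∈ cls r x → t y ∈ cls r (t x) := by
    intro y hy; simp only [mem_cls] at *; exact htr _ _ hy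
  have hmem' : ∀ y, y ∈ cls r (t x) → t y ∈ cls r x := by
    intro y hy; simp only [mem_cls] at *; have := htr _ _ hy; rwa [ht x] at this
  unfold avg
  congr 1
  · refine Finset.sum_nbij' t t hmem hmem' (fun y _ => ht y) (fun y _ => ht y) ?_
    intro y _; rfl
  · congr 1
    exact Finset.card_nbij' t t hmem hmem' (fun y _ => ht y) (fun y _ => ht y)

/-- the sum of the squares of `f - avg` over a class -/
theorem sum_sub_avg_cls (hr : Equivalence r) (f : α → ℝ) (x : α) :
    ∑ y ∈ cls r x, (f y - avg r f y) = 0 := by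
  have h1 : ∑ y ∈ cls r x, avg r f y = ∑ y ∈ cls r x, avg r f x :=
    Finset.sum_congr rfl fun y hy => (avg_eq_of_rel hr f ((mem_cls r x y).1 hy)).symm
  rw [Finset.sum_sub_distrib, h1, Finset.sum_const, nsmul_eq_mul, avg]
  have := cls_card_pos' hr x
  field_simp
  ring

end avgsec

end Crest.Agent.R299
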