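import Crest.Agent.R299.Defs

/-!
Row 299, piece E: the averaging operators of the two opposite pairs of a 4-set commute (after the
refinement `rel2`), and the resulting lower bound for `ip (P u v f) (P w x f)`.
-/

set_option autoImplicit false
set_option linter.unusedSectionVars false
set_option linter.unusedVariables false
open Finset

namespace Crest.Agent.R299

namespace CommAux

section general
variable {α : Type*} [Fintype α]

theorem ip_comm (f g : α → ℝ) : ip f g = ip g f := by
  unfold ip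
  exact Finset.sum_congr rfl fun x _ => mul_comm _ _

theorem ip_sub_left (f g h : α → ℝ) : ip (fun x => f x - g x) h = ip f h - ip g h := by
  unfold ip
  rw [← Finset.sum_sub_distrib]
  exact Finset.sum_congr rfl fun x _ => by ring

theorem ip_sub_right (f g h : α → ℝ) : ip f (fun x => g x - h x) = ip f g - ip f h := by
  unfold ip
  rw [← Finset.sum_sub_distrib]
  exact Finset.sum_congr rfl fun x _ => by ring

theorem ip_self_nonneg (f : α → ℝ) : 0 ≤ ip f f := by
  unfold ip
  exact Finset.sum_nonneg fun x _ => mul_self_nonneg _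

theorem ip_ext (f g : α → ℝ) (h : ∀ k, ip f k = ip g k) : f = g := by
  have h1 : ip (fun x => f x - g x) (fun x => f x - g x) = 0 := by
    rw [ip_sub_left, h]
    ring
  unfold ip at h1
  funext x
  have h2 := (Finset.sum_eq_zero_iff_of_nonneg (fun x _ => mul_self_nonneg (f x - g x))).1 h1 x
    (Finset.mem_univ x)
  have h3 : f x - g x = 0 := by simpa using h2
  linarith

theorem cls_eq {r : α → α → Prop} (hr : Equivalence r) {x y : α} (h : r x y) :
    cls r x = cls r y := by
  ext z
  simp only [mem_cls]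
  exact ⟨fun h' => hr.trans (hr.symm h) h', fun h' => hr.trans h h'⟩

theorem card_cls_pos {r : α → α → Prop} (hr : Equivalence r) (x : α) :
    0 < ((cls r x).card : ℝ) := by
  have : 0 < (cls r x).card := Finset.card_pos.2 ⟨x, by simp [hr.refl x]⟩
  exact_mod_cast this

theorem avg_inv {r : α → α → Prop} (hr : Equivalence r) (f : α → ℝ) {x y : α} (h : r x y) :
    avg r f x = avg r f y := by
  unfold avg
  rw [cls_eq hr h]

theorem avg_of_inv {r : α → α → Prop} (hr : Equivalence r) (f : α → ℝ)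
    (hf : ∀ x y, r x y → f x = f y) : avg r f = f := by
  funext x
  unfold avg
  have h1 : ∑ y ∈ cls r x, f y = ∑ y ∈ cls r x, f x :=
    Finset.sum_congr rfl fun y hy => (hf x y (by simpa using hy)).symm
  rw [h1, Finset.sum_const, nsmul_eq_mul]
  have := card_cls_pos hr x
  field_simp

theorem avg_sub (r : α → α → Prop) (f g : α → ℝ) :
    avg r (fun x => f x - g x) = fun x => avg r f x - avg r g x := by
  funext x
  unfold avg
  rw [Finset.sum_sub_distrib, sub_div]

theorem avg_self_adj {r : α → α → Prop} (hr : Equivalence r) (f g : α → ℝ) :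
    ip (avg r f) g = ip f (avg r g) := by
  classical
  unfold ip avg
  have h1 : ∀ x, (∑ y ∈ cls r x, f y) / ((cls r x).card : ℝ) * g x
      = ∑ y, if r x y then f y * g x / ((cls r x).card : ℝ) else 0 := by
    intro x
    rw [← Finset.sum_filter]
    have : (univ.filter fun y => r x y) = cls r x := by
      ext z; simp
    rw [this, Finset.sum_div, Finset.sum_mul]
    exact Finset.sum_congr rfl fun y _ => by ring
  have h2 : ∀ x, f x * ((∑ y ∈ cls r x, g y) / ((cls r x).card : ℝ))
      = ∑ y, if r x y then f x * g y / ((cls r x).card : ℝ) else 0 := by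
    intro x
    rw [← Finset.sum_filter]
    have : (univ.filter fun y => r x y) = cls r x := by
      ext z; simp
    rw [this, Finset.sum_div, Finset.mul_sum]
    exact Finset.sum_congr rfl fun y _ => by ring
  rw [Finset.sum_congr rfl fun x _ => h1 x, Finset.sum_congr rfl fun x _ => h2 x,
    Finset.sum_comm]
  refine Finset.sum_congr rfl fun x _ => Finset.sum_congr rfl fun y _ => ?_
  by_cases h : r x y
  · rw [if_pos h, if_pos (hr.symm h), cls_eq hr h]
  · rw [if_neg h, if_neg (fun h' => h (hr.symm h'))]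

/-- if `avg s` preserves `r`-invariant functions then the two averages commute -/
theorem avg_comm {r s : α → α → Prop} (hr : Equivalence r) (hs : Equivalence s)
    (h : ∀ f : α → ℝ, (∀ x y, r x y → f x = f y) →
      ∀ x y, r x y → avg s f x = avg s f y) (f : α → ℝ) :
    avg r (avg s f) = avg s (avg r f) := by
  have key : ∀ g : α → ℝ, avg r (avg s (avg r g)) = avg s (avg r g) := fun g =>
    avg_of_inv hr _ (h _ fun x y hxy => avg_inv hr g hxy)
  rw [← key f]
  refine ip_ext _ _ fun k => ?_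
  rw [avg_self_adj hr, avg_self_adj hs, avg_self_adj hr (avg s (avg r f)) k,
    avg_self_adj hs (avg r f), avg_self_adj hr f, key k]

theorem avg_idem {r : α → α → Prop} (hr : Equivalence r) (f : α → ℝ) :
    avg r (avg r f) = avg r f :=
  avg_of_inv hr _ fun _ _ h => avg_inv hr f h

/-- a finer relation: `avg s ∘ avg r = avg r` if `s ≤ r` -/
theorem avg_fine {r s : α → α → Prop} (hr : Equivalence r) (hs : Equivalence s)
    (hsr : ∀ x y, s x y → r x y) (f : α → ℝ) : avg s (avg r f) = avg r f :=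
  avg_of_inv hs _ fun _ _ h => avg_inv hr f (hsr _ _ h)

theorem avg_fine' {r s : α → α → Prop} (hr : Equivalence r) (hs : Equivalence s)
    (hsr : ∀ x y, s x y → r x y) (f : α → ℝ) : avg r (avg s f) = avg r f := by
  refine ip_ext _ _ fun k => ?_
  rw [avg_self_adj hr, avg_self_adj hs, avg_fine hr hs hsr, ← avg_self_adj hr]

/-- transport of averages along mutually inverse maps of classes -/
theorem avg_transport {s : α → α → Prop} (f : α → ℝ) {x y : α} (θ η : α → α)
    (h1 : ∀ z, s x z → s y (θ z)) (h2 : ∀ z, s y z → s x (η z))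
    (h3 : ∀ z, s x z → η (θ z) = z) (h4 : ∀ z, s y z → θ (η z) = z)
    (h5 : ∀ z, s x z → f z = f (θ z)) : avg s f x = avg s f y := by
  unfold avg
  have e1 : ∑ z ∈ cls s x, f z = ∑ z ∈ cls s y, f z :=
    Finset.sum_bij' (fun z _ => θ z) (fun z _ => η z)
      (fun z hz => by simpa using h1 z (by simpa using hz))
      (fun z hz => by simpa using h2 z (by simpa using hz))
      (fun z hz => h3 z (by simpa using hz))
      (fun z hz => h4 z (by simpa using hz))
      (fun z hz => h5 z (by simpa using hz))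
  have e2 : (cls s x).card = (cls s y).card :=
    Finset.card_bij' (fun z _ => θ z) (fun z _ => η z)
      (fun z hz => by simpa using h1 z (by simpa using hz))
      (fun z hz => by simpa using h2 z (by simpa using hz))
      (fun z hz => h3 z (by simpa using hz))
      (fun z hz => h4 z (by simpa using hz))
  rw [e1, e2]


theorem ip_sub_l (f g h : α → ℝ) : ip (f - g) h = ip f h - ip g h := ip_sub_left f g h
theorem ip_sub_r (f g h : α → ℝ) : ip f (g - h) = ip f g - ip f h := ip_sub_right f g h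
theorem ip_zero_r (f : α → ℝ) : ip f (0 : α → ℝ) = 0 := by simp [ip]

/-- the Hilbert space computation -/
theorem abstract_lower (B C E F : (α → ℝ) → (α → ℝ))
    (Bs : ∀ f g, B (f - g) = B f - B g) (Cs : ∀ f g, C (f - g) = C f - C g)
    (Ba : ∀ f g, ip (B f) g = ip f (B g)) (Ca : ∀ f g, ip (C f) g = ip f (C g))
    (Ea : ∀ f g, ip (E f) g = ip f (E g)) (Fa : ∀ f g, ip (F f) g = ip f (F g))
    (BB : ∀ f, B (B f) = B f) (CC : ∀ f, C (C f) = C f)
    (EE : ∀ f, E (E f) = E f) (FF : ∀ f, F (F f) = F f)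
    (BE : ∀ f, B (E f) = E f) (EB : ∀ f, E (B f) = E f)
    (CF : ∀ f, C (F f) = F f) (FC : ∀ f, F (C f) = F f)
    (CB : ∀ f, C (B f) = B (C f)) (FB : ∀ f, F (B f) = B (F f)) (EC : ∀ f, E (C f) = C (E f))
    (f r : α → ℝ) (Br : B r = 0) (Cr : C r = 0) (hr : ip r r = ip f r) :
    ip r r + ip (B f - E f) (C f - F f) ≤ ip (f - E f) (f - F f) := by
  have Y : ip (f - B f) (C f - F f) =
      ip ((C f - F f) - B (C f - F f)) ((C f - F f) - B (C f - F f)) := by
    simp only [Bs, ip_sub_l, ip_sub_r, Ba, Ca, Fa, BB, CC, FF, CF, FC, CB, FB]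
    ring
  have Z : ip (B f - E f) (f - C f) =
      ip ((B f - E f) - C (B f - E f)) ((B f - E f) - C (B f - E f)) := by
    simp only [Cs, ip_sub_l, ip_sub_r, Ba, Ca, Ea, BB, CC, EE, BE, EB, CB, EC]
    have e1 : ∀ g, B (C (E g)) = C (E g) := fun g => by rw [← CB, BE]
    simp only [e1]
    ring
  have X : ip (f - B f) (f - C f) = ip (f - B f - C f + B (C f)) (f - B f - C f + B (C f)) := by
    have e0 : f - B f - C f + B (C f) = (f - B f) - (C f - B (C f)) := by abel
    rw [e0]
    simp only [ip_sub_l, ip_sub_r, Ba, Ca, BB, CC, CB]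
    ring
  have W : ip r r ≤ ip (f - B f) (f - C f) := by
    rw [X]
    set q := f - B f - C f + B (C f) with hq
    have h0 := ip_self_nonneg (q - r)
    have h1 : ip q r = ip f r := by
      have e0 : q = (f - B f) - (C f - B (C f)) := by rw [hq]; abel
      rw [e0]
      have C0 : C 0 = 0 := by simpa using Cs 0 0
      simp only [ip_sub_l, Ba, Ca, Br, Cr, C0, ip_zero_r]
      ring
    simp only [ip_sub_l, ip_sub_r] at h0
    rw [ip_comm r q, h1] at h0
    linarith
  have D1 : f - E f = (f - B f) + (B f - E f) := by abel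
  have D2 : f - F f = (f - C f) - (F f - C f) := by abel
  have T : ip (f - E f) (f - F f) = ip (f - B f) (f - C f) + ip (f - B f) (C f - F f) +
      ip (B f - E f) (f - C f) + ip (B f - E f) (C f - F f) := by
    simp only [ip_sub_l, ip_sub_r]
    ring
  have Yp : 0 ≤ ip (f - B f) (C f - F f) := by rw [Y]; exact ip_self_nonneg _
  have Zp : 0 ≤ ip (B f - E f) (f - C f) := by rw [Z]; exact ip_self_nonneg _
  rw [T]
  linarith

end general

section graphs
variable {V : Type*} [Fintype V] [DecidableEq V]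

theorem rel_equiv (u v : V) : Equivalence (rel u v : Gr V → Gr V → Prop) where
  refl G := ⟨fun _ _ _ _ _ _ => rfl, rfl, fun _ _ _ => rfl, rfl⟩
  symm := fun {G H} h => ⟨fun x y h1 h2 h3 h4 => (h.1 x y h1 h2 h3 h4).symm, h.2.1.symm,
    fun y h1 h2 => (h.2.2.1 y h1 h2).symm, h.2.2.2.symm⟩
  trans := fun {G H K} h k => ⟨fun x y h1 h2 h3 h4 => (h.1 x y h1 h2 h3 h4).trans
      (k.1 x y h1 h2 h3 h4), h.2.1.trans k.2.1,
    fun y h1 h2 => (h.2.2.1 y h1 h2).trans (k.2.2.1 y h1 h2), h.2.2.2.trans k.2.2.2⟩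

theorem bool_ne_iff (a b c d : Bool) (h : a.toNat + b.toNat = c.toNat + d.toNat) :
    a ≠ b ↔ c ≠ d := by
  revert a b c d; decide

theorem rel2_equiv (u v w x : V) (hQ : Q4 u v w x) :
    Equivalence (rel2 u v w x : Gr V → Gr V → Prop) where
  refl G := ⟨(rel_equiv u v).refl G, fun _ _ => rfl⟩
  symm := fun {G H} h => ⟨(rel_equiv u v).symm h.1, fun h1 h2 => by
    obtain ⟨huv, huw, hux, hvw, hvx, hwx⟩ := hQ
    have e1 := bool_ne_iff _ _ _ _ (h.1.2.2.1 w huw.symm hvw.symm)
    have e2 := bool_ne_iff _ _ _ _ (h.1.2.2.1 x hux.symm hvx.symm)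
    exact (h.2 (e1.2 h1) (e2.2 h2)).symm⟩
  trans := fun {G H K} h k => ⟨(rel_equiv u v).trans h.1 k.1, fun h1 h2 => by
    obtain ⟨huv, huw, hux, hvw, hvx, hwx⟩ := hQ
    have e1 := bool_ne_iff _ _ _ _ (h.1.2.2.1 w huw.symm hvw.symm)
    have e2 := bool_ne_iff _ _ _ _ (h.1.2.2.1 x hux.symm hvx.symm)
    exact (h.2 h1 h2).trans (k.2 (e1.1 h1) (e2.1 h2))⟩

theorem Q4.swap {u v w x : V} (h : Q4 u v w x) : Q4 w x u v := by
  obtain ⟨huv, huw, hux, hvw, hvx, hwx⟩ := h
  exact ⟨hwx, huw.symm, hvw.symm, hux.symm, hvx.symm, huv⟩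

/-- all degrees agree along `rel` -/
theorem rel_deg {u v : V} (huv : u ≠ v) {G H : Gr V} (h : rel u v G H) (y : V) :
    deg G y = deg H y := by
  obtain ⟨h1, h2, h3, h4⟩ := h
  by_cases hyu : y = u
  · rw [hyu]; exact h4
  by_cases hyv : y = v
  · subst hyv
    -- total of the column sums
    have e : ∑ z, ((G u z).toNat + (G y z).toNat) = ∑ z, ((H u z).toNat + (H y z).toNat) := by
      refine Finset.sum_congr rfl fun z _ => ?_
      by_cases hzu : z = u
      · subst hzu
        rw [G.irr, H.irr, G.symm, H.symm, h2]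
      by_cases hzv : z = y
      · subst hzv
        rw [G.irr, H.irr, h2]
      exact h3 z hzu hzv
    rw [Finset.sum_add_distrib, Finset.sum_add_distrib] at e
    unfold deg at h4 ⊢
    omega
  · unfold deg
    have hG : ∀ K : Gr V, ∑ z, (K y z).toNat = (K y u).toNat + (K y v).toNat
        + ∑ z ∈ (univ.erase u).erase v, (K y z).toNat := by
      intro K
      rw [← Finset.add_sum_erase univ (fun z => (K y z).toNat) (Finset.mem_univ u),
        ← Finset.add_sum_erase (univ.erase u) (fun z => (K y z).toNat)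
          (Finset.mem_erase.2 ⟨huv.symm, Finset.mem_univ v⟩), add_assoc]
    rw [hG G, hG H]
    have e1 : (G y u).toNat + (G y v).toNat = (H y u).toNat + (H y v).toNat := by
      rw [G.symm y u, G.symm y v, H.symm y u, H.symm y v]
      exact h3 y hyu hyv
    rw [e1]
    congr 1
    refine Finset.sum_congr rfl fun z hz => ?_
    have hz1 : z ≠ v := Finset.ne_of_mem_erase hz
    have hz2 : z ≠ u := Finset.ne_of_mem_erase (Finset.mem_of_mem_erase hz)
    rw [h1 y z hyu hyv hz2 hz1]

/-- the pair `p q` has one endpoint in `{u,v}` and the other outside `{u,v,w,x}` -/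
def bO (u v w x p q : V) : Prop :=
  ((p = u ∨ p = v) ∧ q ≠ u ∧ q ≠ v ∧ q ≠ w ∧ q ≠ x) ∨
  ((q = u ∨ q = v) ∧ p ≠ u ∧ p ≠ v ∧ p ≠ w ∧ p ≠ x)

instance (u v w x p q : V) : Decidable (bO u v w x p q) := by unfold bO; infer_instance

theorem bO_comm (u v w x p q : V) : bO u v w x p q ↔ bO u v w x q p := by
  unfold bO; tauto

/-- the permutation: swap `u v` if flagged -/
def sg (u v : V) (b : Bool) : Equiv.Perm V := if b then Equiv.swap u v else 1

theorem sg_sg (u v : V) (b : Bool) (p : V) : sg u v b (sg u v b p) = p := by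
  unfold sg; cases b <;> simp

theorem sg_of_ne (u v : V) (b : Bool) (p : V) (h1 : p ≠ u) (h2 : p ≠ v) : sg u v b p = p := by
  unfold sg
  cases b
  · simp
  · simp [Equiv.swap_apply_of_ne_of_ne h1 h2]

theorem sg_cases (u v : V) (b : Bool) :
    (sg u v b u = u ∧ sg u v b v = v) ∨ (sg u v b u = v ∧ sg u v b v = u) := by
  unfold sg
  cases b <;> simp

theorem bO_sg (u v w x : V) (b : Bool) (p q : V) :
    bO u v w x (sg u v b p) (sg u v b q) ↔ bO u v w x p q := by
  by_cases hb : b = true
  · subst hb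
    have e : ∀ p, (sg u v true p = u ∨ sg u v true p = v) ↔ (p = u ∨ p = v) := by
      intro p
      simp only [sg, if_true]
      constructor
      · intro h
        by_contra hc
        push Not at hc
        rw [Equiv.swap_apply_of_ne_of_ne hc.1 hc.2] at h
        tauto
      · rintro (rfl | rfl) <;> simp
    have e2 : ∀ p, (sg u v true p ≠ u ∧ sg u v true p ≠ v ∧ sg u v true p ≠ w ∧
        sg u v true p ≠ x) ↔ (p ≠ u ∧ p ≠ v ∧ p ≠ w ∧ p ≠ x) := by
      intro p
      constructor
      · rintro ⟨h1, h2, h3, h4⟩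
        have : p ≠ u ∧ p ≠ v := by
          have := e p
          tauto
        rw [sg_of_ne u v _ p this.1 this.2] at h1 h2 h3 h4
        exact ⟨h1, h2, h3, h4⟩
      · rintro ⟨h1, h2, h3, h4⟩
        rw [sg_of_ne u v _ p h1 h2]
        exact ⟨h1, h2, h3, h4⟩
    unfold bO
    rw [e, e, e2, e2]
  · have : b = false := by simpa using hb
    subst this
    simp [sg]

/-- the transport map -/
def th (u v w x : V) (G' : Gr V) (b : Bool) (K : Gr V) : Gr V where
  adj p q := if bO u v w x p q then G' p q else K (sg u v b p) (sg u v b q)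
  symm p q := by
    simp only [bO_comm u v w x q p, G'.symm q p, K.symm (sg u v b q) (sg u v b p)]
  irr p := by
    have : ¬ bO u v w x p p := by unfold bO; tauto
    simp [this, K.irr]

theorem th_apply (u v w x : V) (G' : Gr V) (b : Bool) (K : Gr V) (p q : V) :
    th u v w x G' b K p q = if bO u v w x p q then G' p q else K (sg u v b p) (sg u v b q) := rfl

/-- inverse property -/
theorem th_th (u v w x : V) (hQ : Q4 u v w x) (G G' K : Gr V) (b : Bool)
    (hK : ∀ p q, p ≠ w → p ≠ x → q ≠ w → q ≠ x → G p q = K p q) :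
    th u v w x G b (th u v w x G' b K) = K := by
  obtain ⟨huv, huw, hux, hvw, hvx, hwx⟩ := hQ
  ext p q
  rw [th_apply]
  split_ifs with h
  · refine hK p q ?_ ?_ ?_ ?_ <;>
    · rintro rfl
      rcases h with ⟨h | h, h'⟩ | ⟨h | h, h'⟩ <;> simp_all
  · rw [th_apply, if_neg (by rwa [bO_sg]), sg_sg, sg_sg]

/-- the flag -/
def flg (u v w x : V) (G G' : Gr V) : Bool :=
  decide ((G u w).toNat + (G u x).toNat ≠ (G' u w).toNat + (G' u x).toNat)

theorem bit1 : ∀ g1 g2 g3 g4 h1 h2 h3 h4 : Bool, g1.toNat + g3.toNat = h1.toNat + h3.toNat →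
    g2.toNat + g4.toNat = h2.toNat + h4.toNat →
    (g1 ≠ g3 → g2 ≠ g4 → g1.toNat + g2.toNat = h1.toNat + h2.toNat) →
    g1.toNat + g2.toNat ≠ h1.toNat + h2.toNat →
    g1.toNat + g2.toNat = h3.toNat + h4.toNat ∧ g3.toNat + g4.toNat = h1.toNat + h2.toNat := by
  decide

theorem bit2 : ∀ g1 g2 g3 g4 k1 k2 k3 k4 : Bool, g1.toNat + g2.toNat = k1.toNat + k2.toNat →
    g3.toNat + g4.toNat = k3.toNat + k4.toNat → k1 ≠ k3 → k2 ≠ k4 →
    k1.toNat + k2.toNat ≠ k3.toNat + k4.toNat → g1 ≠ g3 ∧ g2 ≠ g4 := by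
  decide

/-- block entries of `th` -/
theorem th_block (u v w x : V) (hQ : Q4 u v w x) (G' K : Gr V) (b : Bool) :
    th u v w x G' b K u w = (if b then K v w else K u w) ∧
    th u v w x G' b K u x = (if b then K v x else K u x) ∧
    th u v w x G' b K v w = (if b then K u w else K v w) ∧
    th u v w x G' b K v x = (if b then K u x else K v x) := by
  obtain ⟨huv, huw, hux, hvw, hvx, hwx⟩ := hQ
  have n1 : ¬ bO u v w x u w := by unfold bO; tauto
  have n2 : ¬ bO u v w x u x := by unfold bO; tauto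
  have n3 : ¬ bO u v w x v w := by unfold bO; tauto
  have n4 : ¬ bO u v w x v x := by unfold bO; tauto
  rw [th_apply, th_apply, th_apply, th_apply, if_neg n1, if_neg n2, if_neg n3, if_neg n4,
    sg_of_ne u v b w huw.symm hvw.symm, sg_of_ne u v b x hux.symm hvx.symm]
  cases b <;> simp [sg]

/-- the rows `w` and `x` of `th` -/
theorem th_w (u v w x : V) (hQ : Q4 u v w x) (G' K : Gr V) (b : Bool) (y : V) :
    th u v w x G' b K w y = K w (sg u v b y) := by
  obtain ⟨huv, huw, hux, hvw, hvx, hwx⟩ := hQ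
  have n1 : ¬ bO u v w x w y := by unfold bO; tauto
  rw [th_apply, if_neg n1, sg_of_ne u v b w huw.symm hvw.symm]

theorem th_x (u v w x : V) (hQ : Q4 u v w x) (G' K : Gr V) (b : Bool) (y : V) :
    th u v w x G' b K x y = K x (sg u v b y) := by
  obtain ⟨huv, huw, hux, hvw, hvx, hwx⟩ := hQ
  have n1 : ¬ bO u v w x x y := by unfold bO; tauto
  rw [th_apply, if_neg n1, sg_of_ne u v b x hux.symm hvx.symm]

/-- rows outside of `u,v` of `th` -/
theorem th_out (u v w x : V) (G' K : Gr V) (b : Bool) (p q : V)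
    (hpu : p ≠ u) (hpv : p ≠ v) (hqu : q ≠ u) (hqv : q ≠ v) :
    th u v w x G' b K p q = K p q := by
  have n1 : ¬ bO u v w x p q := by unfold bO; tauto
  rw [th_apply, if_neg n1, sg_of_ne u v b p hpu hpv, sg_of_ne u v b q hqu hqv]

theorem th_uv (u v w x : V) (G' K : Gr V) (b : Bool) :
    th u v w x G' b K u v = K u v := by
  have n1 : ¬ bO u v w x u v := by unfold bO; tauto
  rw [th_apply, if_neg n1]
  rcases sg_cases u v b with h | h
  · rw [h.1, h.2]
  · rw [h.1, h.2, K.symm]

theorem th_bO (u v w x : V) (G' K : Gr V) (b : Bool) (p q : V) (h : bO u v w x p q) :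
    th u v w x G' b K p q = G' p q := by
  rw [th_apply, if_pos h]

theorem th_deg_w (u v w x : V) (hQ : Q4 u v w x) (G' K : Gr V) (b : Bool) :
    deg (th u v w x G' b K) w = deg K w := by
  unfold deg
  rw [Finset.sum_congr rfl fun y _ => by rw [th_w u v w x hQ G' K b y]]
  exact Equiv.sum_comp (sg u v b) (fun y => (K w y).toNat)

theorem block_sums {u v w x : V} (hQ : Q4 u v w x) {G G' K : Gr V}
    (hr : rel2 u v w x G G') (hs : rel w x G K) :
    (G' u w).toNat + (G' u x).toNat =
      (th u v w x G' (flg u v w x G G') K u w).toNat +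
      (th u v w x G' (flg u v w x G G') K u x).toNat ∧
    (G' v w).toNat + (G' v x).toNat =
      (th u v w x G' (flg u v w x G G') K v w).toNat +
      (th u v w x G' (flg u v w x G G') K v x).toNat := by
  obtain ⟨t1, t2, t3, t4⟩ := th_block u v w x hQ G' K (flg u v w x G G')
  rw [t1, t2, t3, t4]
  obtain ⟨huv, huw, hux, hvw, hvx, hwx⟩ := hQ
  have r3w := hr.1.2.2.1 w huw.symm hvw.symm
  have r3x := hr.1.2.2.1 x hux.symm hvx.symm
  have r2 := hr.2
  have s3u := hs.2.2.1 u huw hux
  have s3v := hs.2.2.1 v hvw hvx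
  rw [G.symm w u, G.symm x u, K.symm w u, K.symm x u] at s3u
  rw [G.symm w v, G.symm x v, K.symm w v, K.symm x v] at s3v
  by_cases hf : (G u w).toNat + (G u x).toNat = (G' u w).toNat + (G' u x).toNat
  · have : flg u v w x G G' = false := by simp [flg, hf]
    rw [this]
    simp only [Bool.false_eq_true, if_false]
    omega
  · have : flg u v w x G G' = true := by simp [flg, hf]
    rw [this]
    simp only [if_true]
    have := bit1 _ _ _ _ _ _ _ _ r3w r3x r2 hf
    omega

theorem th_rel {u v w x : V} (hQ : Q4 u v w x) {G G' K : Gr V}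
    (hr : rel2 u v w x G G') (hs : rel w x G K) :
    rel w x G' (th u v w x G' (flg u v w x G G') K) := by
  have hbs := block_sums hQ hr hs
  have hQ' := hQ
  obtain ⟨huv, huw, hux, hvw, hvx, hwx⟩ := hQ'
  set b := flg u v w x G G' with hb
  refine ⟨?_, ?_, ?_, ?_⟩
  · intro p q hpw hpx hqw hqx
    by_cases h : bO u v w x p q
    · rw [th_bO _ _ _ _ _ _ _ _ _ h]
    · by_cases hpb : p = u ∨ p = v
      · have hqb : q = u ∨ q = v := by
          unfold bO at h; tauto
        by_cases hpq : p = q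
        · rw [hpq, Gr.irr, Gr.irr]
        · rcases hpb with rfl | rfl <;> rcases hqb with rfl | rfl
          · exact absurd rfl hpq
          · rw [th_uv, ← hs.1 p q hpw hpx hqw hqx, hr.1.2.1]
          · rw [(th q p w x G' b K).symm p q, th_uv, ← hs.1 q p hqw hqx hpw hpx, G'.symm p q,
              hr.1.2.1]
          · exact absurd rfl hpq
      · push Not at hpb
        have hqb : q ≠ u ∧ q ≠ v := by
          unfold bO at h; tauto
        rw [th_out _ _ _ _ _ _ _ _ _ hpb.1 hpb.2 hqb.1 hqb.2, ← hs.1 p q hpw hpx hqw hqx,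
          hr.1.1 p q hpb.1 hpb.2 hqb.1 hqb.2]
  · rw [th_out _ _ _ _ _ _ _ _ _ huw.symm hvw.symm hux.symm hvx.symm, ← hs.2.1,
      hr.1.1 w x huw.symm hvw.symm hux.symm hvx.symm]
  · intro y hyw hyx
    by_cases hyu : y = u
    · subst hyu
      rw [G'.symm w y, G'.symm x y, (th y v w x G' b K).symm w y, (th y v w x G' b K).symm x y]
      exact hbs.1
    by_cases hyv : y = v
    · subst hyv
      rw [G'.symm w y, G'.symm x y, (th u y w x G' b K).symm w y, (th u y w x G' b K).symm x y]
      exact hbs.2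
    rw [th_out _ _ _ _ _ _ _ _ _ huw.symm hvw.symm hyu hyv,
      th_out _ _ _ _ _ _ _ _ _ hux.symm hvx.symm hyu hyv, ← hs.2.2.1 y hyw hyx,
      hr.1.1 w y huw.symm hvw.symm hyu hyv, hr.1.1 x y hux.symm hvx.symm hyu hyv]
  · rw [th_deg_w u v w x hQ, ← hs.2.2.2, rel_deg huv hr.1 w]

theorem th_rel2_self {u v w x : V} (hQ : Q4 u v w x) {G G' K : Gr V}
    (hr : rel2 u v w x G G') (hs : rel w x G K) :
    rel2 u v w x K (th u v w x G' (flg u v w x G G') K) := by
  have hbs := block_sums hQ hr hs
  have hth := th_rel hQ hr hs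
  have hQ' := hQ
  obtain ⟨huv, huw, hux, hvw, hvx, hwx⟩ := hQ'
  obtain ⟨t1, t2, t3, t4⟩ := th_block u v w x hQ G' K (flg u v w x G G')
  have s3u := hs.2.2.1 u huw hux
  have s3v := hs.2.2.1 v hvw hvx
  rw [G.symm w u, G.symm x u, K.symm w u, K.symm x u] at s3u
  rw [G.symm w v, G.symm x v, K.symm w v, K.symm x v] at s3v
  refine ⟨⟨?_, ?_, ?_, ?_⟩, ?_⟩
  · intro p q hpu hpv hqu hqv
    rw [th_out _ _ _ _ _ _ _ _ _ hpu hpv hqu hqv]
  · rw [th_uv]
  · intro y hyu hyv
    by_cases hyw : y = w
    · subst hyw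
      rw [t1, t3]
      cases flg u v y x G G' <;> simp [add_comm]
    by_cases hyx : y = x
    · subst hyx
      rw [t2, t4]
      cases flg u v w y G G' <;> simp [add_comm]
    have b1 : bO u v w x u y := by unfold bO; tauto
    have b2 : bO u v w x v y := by unfold bO; tauto
    rw [th_bO _ _ _ _ _ _ _ _ _ b1, th_bO _ _ _ _ _ _ _ _ _ b2, ← hr.1.2.2.1 y hyu hyv,
      hs.1 u y huw hux hyw hyx, hs.1 v y hvw hvx hyw hyx]
  · rw [← rel_deg hwx hs u, rel_deg huv hr.1 u, rel_deg hwx hth u]
  · intro n1 n2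
    rw [t1, t2]
    by_cases hf : flg u v w x G G' = true
    · rw [hf]
      simp only [if_true]
      by_contra hne
      have := bit2 _ _ _ _ _ _ _ _ s3u s3v n1 n2 hne
      have e := hr.2 this.1 this.2
      simp [flg, e] at hf
    · have hf' : flg u v w x G G' = false := by simpa using hf
      rw [hf']
      simp

theorem th_rel2_other {u v w x : V} (hQ : Q4 u v w x) {G G' K : Gr V}
    (hr : rel2 u v w x G G') (hs : rel2 w x u v G K) :
    rel2 w x u v G' (th u v w x G' (flg u v w x G G') K) := by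
  refine ⟨th_rel hQ hr hs.1, ?_⟩
  obtain ⟨t1, t2, t3, t4⟩ := th_block u v w x hQ G' K (flg u v w x G G')
  have hQ' := hQ
  obtain ⟨huv, huw, hux, hvw, hvx, hwx⟩ := hQ'
  intro n1 n2
  rw [(th u v w x G' (flg u v w x G G') K).symm w u,
    (th u v w x G' (flg u v w x G G') K).symm w v, t1, t3]
  have e1 : (G w u).toNat + (G w v).toNat = (G' w u).toNat + (G' w v).toNat := by
    have := hr.1.2.2.1 w huw.symm hvw.symm
    rwa [G.symm w u, G.symm w v, G'.symm w u, G'.symm w v]
  have r3w := hr.1.2.2.1 w huw.symm hvw.symm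
  have r3x := hr.1.2.2.1 x hux.symm hvx.symm
  -- block row sums of `G'` are one
  have n1' : G' u w ≠ G' u x := by rwa [G'.symm u w, G'.symm u x]
  have n2' : G' v w ≠ G' v x := by rwa [G'.symm v w, G'.symm v x]
  have one : ∀ a b : Bool, a ≠ b ↔ a.toNat + b.toNat = 1 := by decide
  have m1 : (G u w).toNat + (G u x).toNat = 1 ∧ (G v w).toNat + (G v x).toNat = 1 := by
    have o1 := (one _ _).1 n1'
    have o2 := (one _ _).1 n2'
    by_cases hf : (G u w).toNat + (G u x).toNat = (G' u w).toNat + (G' u x).toNat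
    · omega
    · have := bit1 _ _ _ _ _ _ _ _ r3w r3x hr.2 hf
      omega
  have c1 : G w u ≠ G x u := by
    rw [G.symm w u, G.symm x u]; exact (one _ _).2 m1.1
  have c2 : G w v ≠ G x v := by
    rw [G.symm w v, G.symm x v]; exact (one _ _).2 m1.2
  have e2 := hs.2 c1 c2
  rw [← e1, e2, K.symm w u, K.symm w v]
  cases flg u v w x G G' <;> simp [add_comm]

theorem flg_symm (u v w x : V) (G G' : Gr V) : flg u v w x G G' = flg u v w x G' G := by
  unfold flg
  rw [decide_eq_decide]
  exact ne_comm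

/-- `avg (rel w x)` preserves `rel2 u v w x`-invariant functions -/
theorem comm_rel {u v w x : V} (hQ : Q4 u v w x) (f : Gr V → ℝ)
    (hf : ∀ G H, rel2 u v w x G H → f G = f H) (G G' : Gr V) (h : rel2 u v w x G G') :
    avg (rel w x) f G = avg (rel w x) f G' := by
  have h' := (rel2_equiv u v w x hQ).symm h
  refine avg_transport f (th u v w x G' (flg u v w x G G')) (th u v w x G (flg u v w x G' G))
    (fun K hK => th_rel hQ h hK) (fun K hK => th_rel hQ h' hK) (fun K hK => ?_)
    (fun K hK => ?_) (fun K hK => hf _ _ (th_rel2_self hQ h hK))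
  · rw [flg_symm u v w x G' G]
    exact th_th u v w x hQ G G' K _ fun p q h1 h2 h3 h4 => hK.1 p q h1 h2 h3 h4
  · rw [flg_symm u v w x G' G]
    exact th_th u v w x hQ G' G K _ fun p q h1 h2 h3 h4 => hK.1 p q h1 h2 h3 h4

/-- `avg (rel2 w x u v)` preserves `rel2 u v w x`-invariant functions -/
theorem comm_rel2 {u v w x : V} (hQ : Q4 u v w x) (f : Gr V → ℝ)
    (hf : ∀ G H, rel2 u v w x G H → f G = f H) (G G' : Gr V) (h : rel2 u v w x G G') :
    avg (rel2 w x u v) f G = avg (rel2 w x u v) f G' := by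
  have h' := (rel2_equiv u v w x hQ).symm h
  refine avg_transport f (th u v w x G' (flg u v w x G G')) (th u v w x G (flg u v w x G' G))
    (fun K hK => th_rel2_other hQ h hK) (fun K hK => th_rel2_other hQ h' hK) (fun K hK => ?_)
    (fun K hK => ?_) (fun K hK => hf _ _ (th_rel2_self hQ h hK.1))
  · rw [flg_symm u v w x G' G]
    exact th_th u v w x hQ G G' K _ fun p q h1 h2 h3 h4 => hK.1.1 p q h1 h2 h3 h4
  · rw [flg_symm u v w x G' G]
    exact th_th u v w x hQ G' G K _ fun p q h1 h2 h3 h4 => hK.1.1 p q h1 h2 h3 h4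

/-! ### the switch -/

theorem flip4_apply (u v w x : V) (G : Gr V) (p q : V) :
    flip4 u v w x G p q = xor (G p q) (decide (inBlock u v w x p q)) := rfl

theorem flip4_block (u v w x : V) (hQ : Q4 u v w x) (G : Gr V) :
    flip4 u v w x G u w = !G u w ∧ flip4 u v w x G u x = !G u x ∧
    flip4 u v w x G v w = !G v w ∧ flip4 u v w x G v x = !G v x := by
  obtain ⟨huv, huw, hux, hvw, hvx, hwx⟩ := hQ
  have n1 : inBlock u v w x u w := by unfold inBlock; tauto
  have n2 : inBlock u v w x u x := by unfold inBlock; tauto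
  have n3 : inBlock u v w x v w := by unfold inBlock; tauto
  have n4 : inBlock u v w x v x := by unfold inBlock; tauto
  simp [flip4_apply, n1, n2, n3, n4]

theorem flip4_of_not (u v w x : V) (G : Gr V) (p q : V) (h : ¬ inBlock u v w x p q) :
    flip4 u v w x G p q = G p q := by
  simp [flip4_apply, h]

theorem alt_iff_bits : ∀ a b c d : Bool, (a ≠ c ∧ b ≠ d ∧ a ≠ b) ↔
    ((!a) ≠ (!c) ∧ (!b) ≠ (!d) ∧ (!a) ≠ (!b)) := by decide

theorem alt_flip4 (u v w x : V) (G : Gr V) (h : alt u v w x G) :
    alt u v w x (flip4 u v w x G) := by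
  obtain ⟨hQ, h1, h2, h3⟩ := h
  obtain ⟨t1, t2, t3, t4⟩ := flip4_block u v w x hQ G
  refine ⟨hQ, ?_⟩
  rw [t1, t2, t3, t4]
  exact (alt_iff_bits _ _ _ _).1 ⟨h1, h2, h3⟩

theorem flip4_flip4 (u v w x : V) (G : Gr V) : flip4 u v w x (flip4 u v w x G) = G := by
  ext p q
  rw [flip4_apply, flip4_apply]
  simp

theorem sw_sw (u v w x : V) (G : Gr V) : sw u v w x (sw u v w x G) = G := by
  unfold sw
  by_cases h : alt u v w x G
  · rw [if_pos h, if_pos (alt_flip4 u v w x G h), flip4_flip4]
  · rw [if_neg h, if_neg h]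

theorem flip4_rel2 (u v w x : V) (G : Gr V) (h : alt u v w x G) :
    rel2 u v w x G (flip4 u v w x G) := by
  obtain ⟨hQ, h1, h2, h3⟩ := h
  obtain ⟨t1, t2, t3, t4⟩ := flip4_block u v w x hQ G
  obtain ⟨huv, huw, hux, hvw, hvx, hwx⟩ := hQ
  have b1 : ∀ a b : Bool, a ≠ b → a.toNat + b.toNat = (!a).toNat + (!b).toNat := by decide
  refine ⟨⟨?_, ?_, ?_, ?_⟩, ?_⟩
  · intro p q hpu hpv hqu hqv
    rw [flip4_of_not _ _ _ _ _ _ _ (by unfold inBlock; tauto)]
  · rw [flip4_of_not _ _ _ _ _ _ _ (by unfold inBlock; tauto)]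
  · intro y hyu hyv
    by_cases hyw : y = w
    · subst hyw
      rw [t1, t3]
      exact b1 _ _ h1
    by_cases hyx : y = x
    · subst hyx
      rw [t2, t4]
      exact b1 _ _ h2
    rw [flip4_of_not _ _ _ _ _ _ _ (by unfold inBlock; tauto),
      flip4_of_not _ _ _ _ _ _ _ (by unfold inBlock; tauto)]
  · unfold deg
    have hG : ∀ K : Gr V, ∑ z, (K u z).toNat = ((K u w).toNat + (K u x).toNat)
        + ∑ z ∈ (univ.erase w).erase x, (K u z).toNat := by
      intro K
      rw [← Finset.add_sum_erase univ (fun z => (K u z).toNat) (Finset.mem_univ w),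
        ← Finset.add_sum_erase (univ.erase w) (fun z => (K u z).toNat)
          (Finset.mem_erase.2 ⟨hwx.symm, Finset.mem_univ x⟩), add_assoc]
    rw [hG G, hG (flip4 u v w x G), t1, t2, b1 _ _ h3]
    congr 1
    refine Finset.sum_congr rfl fun z hz => ?_
    have hz1 : z ≠ x := Finset.ne_of_mem_erase hz
    have hz2 : z ≠ w := Finset.ne_of_mem_erase (Finset.mem_of_mem_erase hz)
    rw [flip4_of_not _ _ _ _ _ _ _ (by unfold inBlock; tauto)]
  · intro _ _
    rw [t1, t2]
    exact b1 _ _ h3

theorem inBlock_swap (u v w x p q : V) : inBlock u v w x p q ↔ inBlock w x u v p q := by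
  unfold inBlock; tauto

theorem flip4_swap (u v w x : V) (G : Gr V) : flip4 u v w x G = flip4 w x u v G := by
  ext p q
  rw [flip4_apply, flip4_apply]
  congr 1
  rw [decide_eq_decide]
  exact inBlock_swap u v w x p q

theorem alt_bits_swap : ∀ a b c d : Bool, (a ≠ c ∧ b ≠ d ∧ a ≠ b) ↔
    (a ≠ b ∧ c ≠ d ∧ a ≠ c) := by decide

theorem alt_swap (u v w x : V) (G : Gr V) : alt u v w x G ↔ alt w x u v G := by
  unfold alt
  rw [G.symm w u, G.symm x u, G.symm w v, G.symm x v]
  have := alt_bits_swap (G u w) (G u x) (G v w) (G v x)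
  constructor
  · rintro ⟨hQ, h⟩
    exact ⟨Q4.swap hQ, this.1 h⟩
  · rintro ⟨hQ, h⟩
    exact ⟨Q4.swap hQ, this.2 h⟩

theorem sw_swap (u v w x : V) (G : Gr V) : sw u v w x G = sw w x u v G := by
  unfold sw
  by_cases h : alt u v w x G
  · rw [if_pos h, if_pos ((alt_swap u v w x G).1 h), flip4_swap]
  · rw [if_neg h, if_neg (fun h' => h ((alt_swap u v w x G).2 h'))]

theorem sw_rel2 (u v w x : V) (hQ : Q4 u v w x) (G : Gr V) : rel2 u v w x G (sw u v w x G) := by
  unfold sw
  by_cases h : alt u v w x G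
  · rw [if_pos h]; exact flip4_rel2 u v w x G h
  · rw [if_neg h]; exact (rel2_equiv u v w x hQ).refl G

/-- averaging kills the antisymmetric part -/
theorem avg_sw (u v w x : V) (hQ : Q4 u v w x) (f : Gr V → ℝ) :
    avg (rel2 u v w x) (fun G => f (sw u v w x G)) = avg (rel2 u v w x) f := by
  have he := rel2_equiv u v w x hQ (V := V)
  funext G
  unfold avg
  congr 1
  refine Finset.sum_bij' (fun z _ => sw u v w x z) (fun z _ => sw u v w x z) ?_ ?_ ?_ ?_ ?_
  · intro z hz
    simp only [mem_cls] at hz ⊢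
    exact he.trans hz (sw_rel2 u v w x hQ z)
  · intro z hz
    simp only [mem_cls] at hz ⊢
    exact he.trans hz (sw_rel2 u v w x hQ z)
  · intro z _; exact sw_sw u v w x z
  · intro z _; exact sw_sw u v w x z
  · intro z _; rfl

/-- antisymmetric part -/
noncomputable def Rf (u v w x : V) (f : Gr V → ℝ) : Gr V → ℝ :=
  fun G => (f G - f (sw u v w x G)) / 2

theorem avg_Rf (u v w x : V) (hQ : Q4 u v w x) (f : Gr V → ℝ) :
    avg (rel2 u v w x) (Rf u v w x f) = fun _ => 0 := by
  have h1 : Rf u v w x f = fun G => (f G / 2) - (fun G => f G / 2) (sw u v w x G) := by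
    funext G; unfold Rf; ring
  rw [h1, avg_sub, avg_sw u v w x hQ (fun G => f G / 2)]
  funext G; ring

theorem Rf_swap (u v w x : V) (f : Gr V → ℝ) : Rf u v w x f = Rf w x u v f := by
  funext G; unfold Rf; rw [sw_swap]

theorem ip_sw (u v w x : V) (f g : Gr V → ℝ) :
    ip (fun G => f (sw u v w x G)) g = ip f (fun G => g (sw u v w x G)) := by
  unfold ip
  refine Finset.sum_bij' (fun z _ => sw u v w x z) (fun z _ => sw u v w x z) ?_ ?_ ?_ ?_ ?_
  · intro z hz; exact Finset.mem_univ _
  · intro z hz; exact Finset.mem_univ _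
  · intro z _; exact sw_sw u v w x z
  · intro z _; exact sw_sw u v w x z
  · intro z _
    simp only [sw_sw]

theorem ip_Rf (u v w x : V) (f g : Gr V → ℝ) : ip (Rf u v w x f) g = ip f (Rf u v w x g) := by
  have h := ip_sw u v w x f g
  have e1 : ip (Rf u v w x f) g = (ip f g - ip (fun G => f (sw u v w x G)) g) / 2 := by
    unfold ip Rf
    rw [← Finset.sum_sub_distrib, Finset.sum_div]
    exact Finset.sum_congr rfl fun x _ => by ring
  have e2 : ip f (Rf u v w x g) = (ip f g - ip f (fun G => g (sw u v w x G))) / 2 := by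
    unfold ip Rf
    rw [← Finset.sum_sub_distrib, Finset.sum_div]
    exact Finset.sum_congr rfl fun x _ => by ring
  rw [e1, e2, h]

theorem Rf_Rf (u v w x : V) (f : Gr V → ℝ) : Rf u v w x (Rf u v w x f) = Rf u v w x f := by
  funext G
  unfold Rf
  rw [sw_sw]
  ring

end graphs

end CommAux

open CommAux

variable {V : Type*} [Fintype V] [DecidableEq V]

theorem T2_quad (u v w x : V) (h : Q4 u v w x) (f : Gr V → ℝ) :
    (1 / 4) * ∑ G, (f G - f (sw u v w x G)) ^ 2 - (1 / 2) * ∑ G, gam u v w x f G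
      - (1 / 2) * ∑ G, gam w x u v f G ≤ ip (P u v f) (P w x f) := by
  have h' : Q4 w x u v := Q4.swap h
  have eB := rel2_equiv u v w x h (V := V)
  have eC := rel2_equiv w x u v h' (V := V)
  have eE := rel_equiv u v (V := V)
  have eF := rel_equiv w x (V := V)
  -- commutations
  have cBF : ∀ g, avg (rel2 u v w x) (avg (rel w x) g) = avg (rel w x) (avg (rel2 u v w x) g) :=
    fun g => CommAux.avg_comm eB eF (fun f hf => comm_rel h f hf) g
  have cBC : ∀ g, avg (rel2 u v w x) (avg (rel2 w x u v) g) =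
      avg (rel2 w x u v) (avg (rel2 u v w x) g) :=
    fun g => CommAux.avg_comm eB eC (fun f hf => comm_rel2 h f hf) g
  have cCE : ∀ g, avg (rel2 w x u v) (avg (rel u v) g) = avg (rel u v) (avg (rel2 w x u v) g) :=
    fun g => CommAux.avg_comm eC eE (fun f hf => comm_rel h' f hf) g
  have hRR : ip (Rf u v w x f) (Rf u v w x f) = ip f (Rf u v w x f) := by
    rw [ip_Rf, Rf_Rf]
  have key := abstract_lower (avg (rel2 u v w x)) (avg (rel2 w x u v)) (avg (rel u v))
    (avg (rel w x)) (fun f g => avg_sub _ f g) (fun f g => avg_sub _ f g)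
    (avg_self_adj eB) (avg_self_adj eC) (avg_self_adj eE) (avg_self_adj eF)
    (avg_idem eB) (avg_idem eC) (avg_idem eE) (avg_idem eF)
    (avg_fine eE eB fun _ _ h => h.1) (avg_fine' eE eB fun _ _ h => h.1)
    (avg_fine eF eC fun _ _ h => h.1) (avg_fine' eF eC fun _ _ h => h.1)
    (fun g => (cBC g).symm) (fun g => (cBF g).symm) (fun g => (cCE g).symm)
    f (Rf u v w x f) (avg_Rf u v w x h f)
    (by rw [Rf_swap]; exact avg_Rf w x u v h' f) hRR
  have e1 : ip (Rf u v w x f) (Rf u v w x f) = (1 / 4) * ∑ G, (f G - f (sw u v w x G)) ^ 2 := by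
    unfold ip Rf
    rw [Finset.mul_sum]
    exact Finset.sum_congr rfl fun G _ => by ring
  have e2 : - (1 / 2) * ∑ G, gam u v w x f G - (1 / 2) * ∑ G, gam w x u v f G ≤
      ip (avg (rel2 u v w x) f - avg (rel u v) f) (avg (rel2 w x u v) f - avg (rel w x) f) := by
    unfold ip
    rw [Finset.mul_sum, Finset.mul_sum, ← Finset.sum_sub_distrib]
    refine Finset.sum_le_sum fun G _ => ?_
    simp only [Pi.sub_apply]
    by_cases ha : alt u v w x G
    · have ha' : alt w x u v G := (alt_swap u v w x G).1 ha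
      unfold gam
      rw [if_pos ha, if_pos ha']
      nlinarith [sq_nonneg ((avg (rel2 u v w x) f G - avg (rel u v) f G) +
        (avg (rel2 w x u v) f G - avg (rel w x) f G))]
    · have ha' : ¬ alt w x u v G := fun h => ha ((alt_swap u v w x G).2 h)
      unfold gam
      rw [if_neg ha, if_neg ha']
      have hz : avg (rel2 u v w x) f G = avg (rel u v) f G ∨
          avg (rel2 w x u v) f G = avg (rel w x) f G := by
        by_cases hc : G u w ≠ G v w ∧ G u x ≠ G v x
        · right
          have hc' : ¬ (G w u ≠ G x u ∧ G w v ≠ G x v) := by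
            intro hc'
            refine ha ⟨h, hc.1, hc.2, ?_⟩
            rw [G.symm u w, G.symm u x]
            exact hc'.1
          have : cls (rel2 w x u v) G = cls (rel w x) G := by
            ext K
            simp only [mem_cls]
            refine ⟨fun h => h.1, fun h => ⟨h, fun n1 n2 => absurd ⟨n1, n2⟩ hc'⟩⟩
          unfold avg
          rw [this]
        · left
          have : cls (rel2 u v w x) G = cls (rel u v) G := by
            ext K
            simp only [mem_cls]
            refine ⟨fun h => h.1, fun h => ⟨h, fun n1 n2 => absurd ⟨n1, n2⟩ hc⟩⟩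
          unfold avg
          rw [this]
      rcases hz with hz | hz
      · rw [hz]; simp
      · rw [hz]; simp
  have e3 : ip (P u v f) (P w x f) = ip (f - avg (rel u v) f) (f - avg (rel w x) f) := rfl
  rw [e3]
  rw [e1] at key
  linarith

end Crest.Agent.R299
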