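import Crest.Agent.R299.Rel

/-!
Row 299 (S0453), piece F: realizations of a degree sequence are connected under switches.
-/

set_option autoImplicit false
set_option linter.unusedSectionVars false
open Finset

namespace Crest.Agent.R299

section conn
variable {V : Type*} [Fintype V] [DecidableEq V]

/-- degree outside `W` -/
def connRdeg (W : Finset V) (G : Gr V) (y : V) : ℕ := ∑ z ∈ univ \ W, (G y z).toNat

/-- `G` and `H` connAgree on the pairs touching `W` -/
def connAgree (W : Finset V) (G H : Gr V) : Prop := ∀ y z, y ∈ W → G y z = H y z

theorem connRdeg_eq (W : Finset V) {G H : Gr V} (hd : ∀ y, deg G y = deg H y)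
    (ha : connAgree W G H) (y : V) : connRdeg W G y = connRdeg W H y := by
  have h := hd y
  unfold deg at h
  have e1 : ∑ z, (G y z).toNat = connRdeg W G y + ∑ z ∈ W, (G y z).toNat := by
    unfold connRdeg
    exact (Finset.sum_sdiff (Finset.subset_univ W)).symm
  have e2 : ∑ z, (H y z).toNat = connRdeg W H y + ∑ z ∈ W, (H y z).toNat := by
    unfold connRdeg
    exact (Finset.sum_sdiff (Finset.subset_univ W)).symm
  have e3 : ∑ z ∈ W, (G y z).toNat = ∑ z ∈ W, (H y z).toNat := by
    refine Finset.sum_congr rfl fun z hz => ?_
    rw [G.symm y z, H.symm y z, ha z y hz]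
  omega

/-- existence of the fourth vertex of the switch -/
theorem conn_exists_fourth (G : Gr V) (W : Finset V) {v a b : V} (hv : v ∉ W) (haW : a ∉ W)
    (hbW : b ∉ W) (hvb' : b ≠ v) (hva : G v a = true) (hvb : G v b = false)
    (hd : connRdeg W G a ≤ connRdeg W G b) :
    ∃ c, c ∉ W ∧ c ≠ v ∧ c ≠ a ∧ c ≠ b ∧ G b c = true ∧ G a c = false := by
  by_contra hcon
  push Not at hcon
  have hva' : a ≠ v := by
    rintro rfl
    rw [G.irr] at hva
    exact absurd hva (by decide)
  have hab : a ≠ b := by
    rintro rfl
    rw [hva] at hvb
    exact absurd hvb (by decide)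
  have key : ∀ (x : V), connRdeg W G x = (G x v).toNat + ((G x a).toNat + ((G x b).toNat +
      ∑ z ∈ (((univ \ W).erase v).erase a).erase b, (G x z).toNat)) := by
    intro x
    unfold connRdeg
    rw [← Finset.add_sum_erase (univ \ W) _ (a := v) (by simp [hv]),
      ← Finset.add_sum_erase ((univ \ W).erase v) _ (a := a) (by simp [haW, hva']),
      ← Finset.add_sum_erase (((univ \ W).erase v).erase a) _ (a := b)
        (by simp [hbW, hvb', hab.symm])]
  have hle : ∑ z ∈ (((univ \ W).erase v).erase a).erase b, (G b z).toNat ≤
      ∑ z ∈ (((univ \ W).erase v).erase a).erase b, (G a z).toNat := by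
    refine Finset.sum_le_sum fun z hz => ?_
    simp only [Finset.mem_erase, Finset.mem_sdiff, Finset.mem_univ, true_and] at hz
    have := hcon z hz.2.2.2 hz.2.2.1 hz.2.1 hz.1
    rcases hb : G b z with _ | _
    · simp
    · have h2 := this hb
      have h3 : G a z = true := by simpa using h2
      rw [h3]
  have k1 := key a
  have k2 := key b
  rw [G.symm a v, hva, G.irr a] at k1
  rw [G.symm b v, hvb, G.irr b, G.symm b a] at k2
  simp only [Bool.toNat_true, Bool.toNat_false] at k1 k2
  omega

/-- the difference set at `v` -/
def connDif (v : V) (G H : Gr V) : Finset V := univ.filter (fun y => G v y ≠ H v y)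

theorem connDif_comm (v : V) (G H : Gr V) : connDif v G H = connDif v H G := by
  ext y; simp [connDif, ne_comm]

/-- one switch reduces the difference at `v` -/
theorem conn_switch_step (G H : Gr V) (W : Finset V) {v a b : V} (hv : v ∉ W) (haW : a ∉ W)
    (hbW : b ∉ W) (hva : G v a = true) (hHa : H v a = false) (hvb : G v b = false)
    (hHb : H v b = true) (hd : connRdeg W G a ≤ connRdeg W G b) :
    ∃ c, (∀ y z, y ∈ W → sw v c a b G y z = G y z) ∧
      (connDif v (sw v c a b G) H).card < (connDif v G H).card := by
  have hbv : b ≠ v := by
    rintro rfl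
    rw [H.irr] at hHb
    exact absurd hHb (by decide)
  have hav : a ≠ v := by
    rintro rfl
    rw [G.irr] at hva
    exact absurd hva (by decide)
  have hab : a ≠ b := by
    rintro rfl
    rw [hva] at hvb
    exact absurd hvb (by decide)
  obtain ⟨c, hcW, hcv, hca, hcb, hbc, hac⟩ :=
    conn_exists_fourth G W hv haW hbW hbv hva hvb hd
  have hQ : Q4 v c a b := ⟨hcv.symm, hav.symm, hbv.symm, hca, hcb, hab⟩
  have halt : alt v c a b G := by
    refine ⟨hQ, ?_, ?_, ?_⟩
    · rw [hva, G.symm c a, hac]; decide
    · rw [hvb, G.symm c b, hbc]; decide
    · rw [hva, hvb]; decide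
  have hsw : sw v c a b G = flip4 v c a b G := by
    unfold sw
    rw [if_pos halt]
  obtain ⟨e1, e2, -, -⟩ := flip4_block hQ G
  refine ⟨c, ?_, ?_⟩
  · intro y z hy
    rw [hsw]
    refine flip4_off G ?_
    rintro ⟨-, (⟨h1 | h1, -⟩ | ⟨-, h1 | h1⟩)⟩ <;> subst h1 <;> contradiction
  · rw [hsw]
    refine Finset.card_lt_card ?_
    rw [Finset.ssubset_iff_of_subset]
    · refine ⟨a, ?_, ?_⟩
      · simp [connDif, hva, hHa]
      · simp [connDif, e1, hva, hHa]
    · intro y hy
      simp only [connDif, Finset.mem_filter, Finset.mem_univ, true_and] at hy ⊢
      by_cases hya : y = a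
      · subst hya; rw [hva, hHa]; decide
      by_cases hyb : y = b
      · subst hyb; rw [hvb, hHb]; decide
      · rwa [flip4_off G (p := v) (q := y) ?_] at hy
        rintro ⟨hne, (⟨-, h1 | h1⟩ | ⟨-, h1 | h1⟩)⟩
        · exact hya h1
        · exact hyb h1
        · exact hav h1.symm
        · exact hbv h1.symm

/-- main induction -/
theorem conn_aux (f : Gr V → ℝ) (hf : ∀ u v w x, ∀ G, f (sw u v w x G) = f G) :
    ∀ (n : ℕ) (W : Finset V), (univ \ W).card = n → ∀ (G H : Gr V),
      (∀ y, deg G y = deg H y) → connAgree W G H → f G = f H := by
  intro n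
  induction n with
  | zero =>
    intro W hW G H hd ha
    have hW' : ∀ y, y ∈ W := by
      intro y
      by_contra hy
      have : y ∈ univ \ W := by simp [hy]
      rw [Finset.card_eq_zero.mp hW] at this
      simp at this
    have : G = H := Gr.ext' fun u v => ha u v (hW' u)
    rw [this]
  | succ n ih =>
    intro W hW
    obtain ⟨v, hv⟩ : (univ \ W).Nonempty := by
      rw [← Finset.card_pos, hW]; omega
    have hvW : v ∉ W := by simpa using hv
    have hcard : (univ \ (insert v W)).card = n := by
      have : univ \ (insert v W) = (univ \ W).erase v := by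
        ext y; simp [not_or]
      rw [this, Finset.card_erase_of_mem hv, hW]; rfl
    -- inner induction
    suffices h : ∀ (k : ℕ) (G H : Gr V), (connDif v G H).card = k → (∀ y, deg G y = deg H y) →
        connAgree W G H → f G = f H from fun G H hd ha => h _ G H rfl hd ha
    intro k
    induction k using Nat.strong_induction_on with
    | _ k ihk =>
      intro G H hk hd ha
      by_cases h0 : ∀ y, G v y = H v y
      · refine ih (insert v W) hcard G H hd ?_
        intro y z hy
        rcases Finset.mem_insert.mp hy with rfl | hy
        · exact h0 z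
        · exact ha y z hy
      · -- there are a and b
        have hdv := hd v
        unfold deg at hdv
        have hex1 : ∃ a, G v a = true ∧ H v a = false := by
          by_contra hcon
          push Not at hcon
          have hle : ∀ y ∈ univ, (G v y).toNat ≤ (H v y).toNat := by
            intro y _
            rcases hg : G v y with _ | _
            · simp
            · have := hcon y hg
              have h3 : H v y = true := by simpa using this
              rw [h3]
          apply h0
          intro y
          have := (Finset.sum_eq_sum_iff_of_le hle).mp hdv y (mem_univ y)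
          revert this
          cases G v y <;> cases H v y <;> simp
        have hex2 : ∃ b, G v b = false ∧ H v b = true := by
          by_contra hcon
          push Not at hcon
          have hle : ∀ y ∈ univ, (H v y).toNat ≤ (G v y).toNat := by
            intro y _
            rcases hg : G v y with _ | _
            · have := hcon y hg
              have h3 : H v y = false := by simpa using this
              rw [h3]
            · cases H v y <;> simp
          apply h0
          intro y
          have := (Finset.sum_eq_sum_iff_of_le hle).mp hdv.symm y (mem_univ y)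
          revert this
          cases G v y <;> cases H v y <;> simp
        obtain ⟨a, hGa, hHa⟩ := hex1
        obtain ⟨b, hGb, hHb⟩ := hex2
        have haW : a ∉ W := by
          intro h
          have := ha a v h
          rw [G.symm a v, H.symm a v, hGa, hHa] at this
          exact absurd this (by decide)
        have hbW : b ∉ W := by
          intro h
          have := ha b v h
          rw [G.symm b v, H.symm b v, hGb, hHb] at this
          exact absurd this (by decide)
        rcases le_total (connRdeg W G a) (connRdeg W G b) with hle | hle
        · obtain ⟨c, h1, h2⟩ := conn_switch_step G H W hvW haW hbW hGa hHa hGb hHb hle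
          rw [← hf v c a b G]
          refine ihk _ (hk ▸ h2) _ H rfl (fun y => ?_) ?_
          · rw [sw_deg]; exact hd y
          · intro y z hy
            rw [h1 y z hy]; exact ha y z hy
        · have hle' : connRdeg W H b ≤ connRdeg W H a := by
            rw [← connRdeg_eq W hd ha a, ← connRdeg_eq W hd ha b]; exact hle
          obtain ⟨c, h1, h2⟩ := conn_switch_step H G W hvW hbW haW hHb hGb hHa hGa hle'
          rw [← hf v c b a H]
          rw [connDif_comm v _ G, connDif_comm v _ G] at h2
          refine ihk _ (hk ▸ h2) G _ rfl (fun y => ?_) ?_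
          · rw [sw_deg]; exact hd y
          · intro y z hy
            rw [h1 y z hy]; exact ha y z hy

/-- connectivity of the realizations of a degree sequence under switches -/
theorem conn (f : Gr V → ℝ) (hf : ∀ u v w x, ∀ G, f (sw u v w x G) = f G)
    (G H : Gr V) (h : ∀ y, deg G y = deg H y) : f G = f H :=
  conn_aux f hf _ ∅ rfl G H h (fun y z hy => by simp at hy)

end conn

end Crest.Agent.R299
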