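import Mathlib

/-!
Row 299 (S0453): basic definitions.
`avg r f` = average of `f` over `r`-classes, `Gr V` = simple graphs as Boolean matrices,
`rel u v` = same graph up to re-distributing the neighbours of `u` and `v`,
`sw u v w x` = switch on the 4-cycle with rows `u,v` and columns `w,x`.
-/

set_option autoImplicit false
open Finset

namespace Crest.Agent.R299

section avg
variable {α : Type*} [Fintype α]

open Classical in
/-- the class of `x` under `r` -/
noncomputable def cls (r : α → α → Prop) (x : α) : Finset α := univ.filter (fun y => r x y)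

@[simp] theorem mem_cls (r : α → α → Prop) (x y : α) : y ∈ cls r x ↔ r x y := by
  simp [cls]

/-- average of `f` over the `r`-class -/
noncomputable def avg (r : α → α → Prop) (f : α → ℝ) (x : α) : ℝ :=
  (∑ y ∈ cls r x, f y) / ((cls r x).card : ℝ)

/-- inner product of real functions -/
noncomputable def ip (f g : α → ℝ) : ℝ := ∑ x, f x * g x

end avg

/-- Simple graphs on `V` as symmetric irreflexive Boolean matrices. -/
structure Gr (V : Type*) where
  /-- the adjacency matrix -/
  adj : V → V → Bool
  symm : ∀ u v, adj u v = adj v u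
  irr : ∀ u, adj u u = false

namespace Gr
variable {V : Type*}

instance : CoeFun (Gr V) (fun _ => V → V → Bool) := ⟨Gr.adj⟩

@[ext] theorem ext' {G H : Gr V} (h : ∀ u v, G u v = H u v) : G = H := by
  cases G; cases H
  congr
  funext u v
  exact h u v

/-- graphs as a subtype -/
def equivSub (V : Type*) :
    Gr V ≃ {a : V → V → Bool // (∀ u v, a u v = a v u) ∧ ∀ u, a u u = false} where
  toFun G := ⟨G.adj, G.symm, G.irr⟩
  invFun a := ⟨a.1, a.2.1, a.2.2⟩
  left_inv _ := rfl
  right_inv _ := rfl

instance [Fintype V] [DecidableEq V] : Fintype (Gr V) := Fintype.ofEquiv _ (equivSub V).symm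

instance [Fintype V] [DecidableEq V] : DecidableEq (Gr V) :=
  (equivSub V).decidableEq

end Gr

section graphs
variable {V : Type*} [Fintype V] [DecidableEq V]

/-- degree -/
def deg (G : Gr V) (v : V) : ℕ := ∑ y, (G v y).toNat

/-- `G` and `H` differ only in the pairs with exactly one endpoint in `{u,v}`; they have the same
column sums and the same row sums there (equivalently all degrees are equal). -/
def rel (u v : V) (G H : Gr V) : Prop :=
  (∀ x y, x ≠ u → x ≠ v → y ≠ u → y ≠ v → G x y = H x y) ∧ G u v = H u v ∧
  (∀ y, y ≠ u → y ≠ v →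
    (G u y).toNat + (G v y).toNat = (H u y).toNat + (H v y).toNat) ∧
  deg G u = deg H u

/-- refinement of `rel u v` recording the row sum of the `{u,v} × {w,x}` block when both columns
are non-constant. -/
def rel2 (u v w x : V) (G H : Gr V) : Prop :=
  rel u v G H ∧ (G u w ≠ G v w → G u x ≠ G v x →
    (G u w).toNat + (G u x).toNat = (H u w).toNat + (H u x).toNat)

/-- four distinct vertices -/
def Q4 (u v w x : V) : Prop := u ≠ v ∧ u ≠ w ∧ u ≠ x ∧ v ≠ w ∧ v ≠ x ∧ w ≠ x

instance (u v w x : V) : Decidable (Q4 u v w x) := by unfold Q4; infer_instance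

/-- the 2x2 block `{u,v} × {w,x}` is alternating (in particular the vertices are distinct) -/
def alt (u v w x : V) (G : Gr V) : Prop :=
  Q4 u v w x ∧ G u w ≠ G v w ∧ G u x ≠ G v x ∧ G u w ≠ G u x

instance (u v w x : V) (G : Gr V) : Decidable (alt u v w x G) := by unfold alt; infer_instance

/-- the condition that the pair `p q` lies in the block `{u,v} × {w,x}` -/
def inBlock (u v w x p q : V) : Prop :=
  p ≠ q ∧ (((p = u ∨ p = v) ∧ (q = w ∨ q = x)) ∨ ((q = u ∨ q = v) ∧ (p = w ∨ p = x)))

instance (u v w x p q : V) : Decidable (inBlock u v w x p q) := by unfold inBlock; infer_instance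

/-- flip the four entries of the block -/
def flip4 (u v w x : V) (G : Gr V) : Gr V where
  adj p q := xor (G p q) (decide (inBlock u v w x p q))
  symm p q := by
    have h : decide (inBlock u v w x p q) = decide (inBlock u v w x q p) := by
      rw [decide_eq_decide]
      unfold inBlock
      rw [ne_comm]
      tauto
    simp only [G.symm p q, h]
  irr p := by simp [G.irr, inBlock]

/-- the switch: flip the block if it is alternating, otherwise do nothing -/
def sw (u v w x : V) (G : Gr V) : Gr V := if alt u v w x G then flip4 u v w x G else G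

/-- `1 - E_{uv}` -/
noncomputable def P (u v : V) (f : Gr V → ℝ) : Gr V → ℝ := fun G => f G - avg (rel u v) f G

/-- the correction term -/
noncomputable def gam (u v w x : V) (f : Gr V → ℝ) (G : Gr V) : ℝ :=
  if alt u v w x G then (avg (rel2 u v w x) f G - avg (rel u v) f G) ^ 2 else 0

end graphs

section matrices
variable {T : Type*} [Fintype T] [DecidableEq T]

/-- `T × 3` Boolean matrices -/
abbrev Mat (T : Type*) := T → Fin 3 → Bool

/-- column sum (sum over the three rows) -/
def csum (M : Mat T) (y : T) : ℕ := ∑ i, (M y i).toNat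

/-- row sum -/
def rsum (M : Mat T) (i : Fin 3) : ℕ := ∑ y, (M y i).toNat

/-- same row `i`, same column sums, same row sums -/
def mrel (i : Fin 3) (M N : Mat T) : Prop :=
  (∀ y, M y i = N y i) ∧ (∀ y, csum M y = csum N y) ∧ ∀ j, rsum M j = rsum N j

/-- `1 - E_i` on matrices -/
noncomputable def PM (i : Fin 3) (h : Mat T → ℝ) : Mat T → ℝ := fun M => h M - avg (mrel i) h M

end matrices

end Crest.Agent.R299
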