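import Crest.Agent.R299.Defs

/-!
Row 299 (S0453), piece J: two inequalities in the Johnson scheme.
-/

set_option autoImplicit false
open Finset

namespace Crest.Agent.R299

section johnson
variable {V : Type*} [DecidableEq V]

/-- exchange `w` and `x` -/
def xch (w x : V) (A : Finset V) : Finset V := A.map (Equiv.swap w x).toEmbedding

/-- the `p`-subsets of `D` containing exactly one of `w`,`x` -/
def Isep (D : Finset V) (p : ℕ) (w x : V) : Finset (Finset V) :=
  (D.powersetCard p).filter fun A => ¬ (w ∈ A ↔ x ∈ A)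

/-! ### the operators `dn` and `up` -/

/-- sum over all supersets with one more element -/
def dn (D : Finset V) (g : Finset V → ℝ) (B : Finset V) : ℝ := ∑ x ∈ D \ B, g (insert x B)

/-- sum over all subsets with one element less -/
def up (h : Finset V → ℝ) (A : Finset V) : ℝ := ∑ x ∈ A, h (A.erase x)

theorem dn_up_adj (D : Finset V) (k : ℕ) (g h : Finset V → ℝ) :
    ∑ B ∈ D.powersetCard k, dn D g B * h B = ∑ A ∈ D.powersetCard (k + 1), g A * up h A := by
  simp only [dn, up, Finset.sum_mul, Finset.mul_sum]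
  rw [Finset.sum_sigma', Finset.sum_sigma']
  refine Finset.sum_bij' (fun a _ => ⟨insert a.2 a.1, a.2⟩) (fun a _ => ⟨a.1.erase a.2, a.2⟩)
    ?_ ?_ ?_ ?_ ?_
  · rintro ⟨B, x⟩ h
    simp only [mem_sigma, mem_powersetCard, mem_sdiff] at h ⊢
    refine ⟨⟨insert_subset h.2.1 h.1.1, ?_⟩, mem_insert_self _ _⟩
    rw [card_insert_of_notMem h.2.2, h.1.2]
  · rintro ⟨A, x⟩ h
    simp only [mem_sigma, mem_powersetCard, mem_sdiff] at h ⊢
    refine ⟨⟨(erase_subset _ _).trans h.1.1, ?_⟩, h.1.1 h.2, notMem_erase _ _⟩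
    rw [card_erase_of_mem h.2, h.1.2]
    rfl
  · rintro ⟨B, x⟩ h
    simp only [mem_sigma, mem_powersetCard, mem_sdiff] at h ⊢
    simp [erase_insert h.2.2]
  · rintro ⟨A, x⟩ h
    simp only [mem_sigma, mem_powersetCard, mem_sdiff] at h ⊢
    simp [insert_erase h.2]
  · rintro ⟨B, x⟩ h
    simp only [mem_sigma, mem_powersetCard, mem_sdiff] at h ⊢
    simp [erase_insert h.2.2]

theorem dn_up_eq (D : Finset V) (h : Finset V → ℝ) (B : Finset V) :
    dn D (up h) B = ((D \ B).card : ℝ) * h B +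
      ∑ x ∈ D \ B, ∑ y ∈ B, h (insert x (B.erase y)) := by
  unfold dn up
  have : ∀ x ∈ D \ B, ∑ y ∈ insert x B, h ((insert x B).erase y) =
      h B + ∑ y ∈ B, h (insert x (B.erase y)) := by
    intro x hx
    rw [mem_sdiff] at hx
    rw [sum_insert hx.2, erase_insert hx.2]
    congr 1
    refine sum_congr rfl fun y hy => ?_
    rw [erase_insert_of_ne]
    rintro rfl
    exact hx.2 hy
  rw [sum_congr rfl this, sum_add_distrib]
  simp

theorem up_dn_eq (D : Finset V) (h : Finset V → ℝ) (B : Finset V) (hB : B ⊆ D) :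
    up (dn D h) B = (B.card : ℝ) * h B +
      ∑ y ∈ B, ∑ x ∈ D \ B, h (insert x (B.erase y)) := by
  unfold dn up
  have : ∀ y ∈ B, ∑ x ∈ D \ B.erase y, h (insert x (B.erase y)) =
      h B + ∑ x ∈ D \ B, h (insert x (B.erase y)) := by
    intro y hy
    have e : D \ B.erase y = insert y (D \ B) := by
      ext z
      simp only [mem_sdiff, mem_erase, mem_insert]
      constructor
      · rintro ⟨h1, h2⟩
        by_cases hz : z = y
        · exact Or.inl hz
        · exact Or.inr ⟨h1, fun h3 => h2 ⟨hz, h3⟩⟩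
      · rintro (rfl | ⟨h1, h2⟩)
        · exact ⟨hB hy, fun h => h.1 rfl⟩
        · exact ⟨h1, fun h3 => h2 h3.2⟩
    rw [e, sum_insert (by simp [hy]), insert_erase hy]
  rw [sum_congr rfl this, sum_add_distrib]
  simp

theorem dn_up_comm (D : Finset V) (k : ℕ) (h : Finset V → ℝ) (B : Finset V)
    (hB : B ∈ D.powersetCard k) :
    dn D (up h) B = up (dn D h) B + ((D.card : ℝ) - 2 * k) * h B := by
  rw [mem_powersetCard] at hB
  rw [dn_up_eq, up_dn_eq D h B hB.1, sum_comm, card_sdiff_of_subset hB.1,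
    Nat.cast_sub (card_le_card hB.1), hB.2]
  ring

theorem dn_sum_zero (D : Finset V) (k : ℕ) (g : Finset V → ℝ)
    (hg : ∑ A ∈ D.powersetCard (k + 1), g A = 0) :
    ∑ B ∈ D.powersetCard k, dn D g B = 0 := by
  have := dn_up_adj D k g (fun _ => 1)
  simp only [mul_one] at this
  rw [this]
  have h2 : ∀ A ∈ D.powersetCard (k + 1), g A * up (fun _ => (1 : ℝ)) A = g A * (k + 1 : ℝ) := by
    intro A hA
    rw [mem_powersetCard] at hA
    simp [up, hA.2]
  rw [sum_congr rfl h2, ← sum_mul, hg, zero_mul]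

theorem dn_norm (D : Finset V) (k : ℕ) : ∀ g : Finset V → ℝ,
    ∑ A ∈ D.powersetCard (k + 1), g A = 0 →
    ∑ B ∈ D.powersetCard k, (dn D g B) ^ 2 ≤
      (k : ℝ) * ((D.card : ℝ) - k - 1) * ∑ A ∈ D.powersetCard (k + 1), g A ^ 2 := by
  induction k with
  | zero =>
    intro g hg
    have h0 := dn_sum_zero D 0 g hg
    simp only [powersetCard_zero, sum_singleton] at h0 ⊢
    rw [h0]
    simp
  | succ k ih =>
    intro g hg
    set h : Finset V → ℝ := dn D g with hh
    have hs : ∑ B ∈ D.powersetCard (k + 1), h B = 0 := dn_sum_zero D (k + 1) g hg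
    have ih' := ih h hs
    set X := ∑ B ∈ D.powersetCard (k + 1), h B ^ 2 with hX
    set Y := ∑ A ∈ D.powersetCard (k + 1 + 1), g A ^ 2 with hY
    have hX0 : 0 ≤ X := sum_nonneg fun _ _ => sq_nonneg _
    have hY0 : 0 ≤ Y := sum_nonneg fun _ _ => sq_nonneg _
    -- norm of `up h`
    have h1 : ∑ A ∈ D.powersetCard (k + 1 + 1), (up h A) ^ 2 =
        ∑ C ∈ D.powersetCard k, (dn D h C) ^ 2 + ((D.card : ℝ) - 2 * (k + 1)) * X := by
      have e1 : ∑ A ∈ D.powersetCard (k + 1 + 1), (up h A) ^ 2 =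
          ∑ B ∈ D.powersetCard (k + 1), dn D (up h) B * h B := by
        rw [dn_up_adj]
        exact sum_congr rfl fun _ _ => sq _
      rw [e1]
      have e2 : ∀ B ∈ D.powersetCard (k + 1), dn D (up h) B * h B =
          h B * up (dn D h) B + ((D.card : ℝ) - 2 * (k + 1)) * h B ^ 2 := by
        intro B hB
        rw [dn_up_comm D (k + 1) h B hB]
        push_cast
        ring
      rw [sum_congr rfl e2, sum_add_distrib, ← mul_sum, ← dn_up_adj]
      congr 1
      exact sum_congr rfl fun _ _ => (sq _).symm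
    have h2 : X = ∑ A ∈ D.powersetCard (k + 1 + 1), g A * up h A := by
      rw [← dn_up_adj, hX]
      exact sum_congr rfl fun _ _ => sq _
    have h3 : X ^ 2 ≤ Y * ∑ A ∈ D.powersetCard (k + 1 + 1), (up h A) ^ 2 := by
      rw [h2]
      exact sum_mul_sq_le_sq_mul_sq _ _ _
    have h4 : ∑ A ∈ D.powersetCard (k + 1 + 1), (up h A) ^ 2 ≤
        (k + 1 : ℝ) * ((D.card : ℝ) - (k + 1) - 1) * X := by
      rw [h1]
      have : (k + 1 : ℝ) * ((D.card : ℝ) - (k + 1) - 1) * X =
        (k : ℝ) * ((D.card : ℝ) - k - 1) * X + ((D.card : ℝ) - 2 * (k + 1)) * X := by ring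
      rw [this]
      linarith
    have h5 : X * X ≤ ((k + 1 : ℝ) * ((D.card : ℝ) - (k + 1) - 1) * Y) * X := by
      have := mul_le_mul_of_nonneg_left h4 hY0
      nlinarith
    have h6 : 0 ≤ (k + 1 : ℝ) * ((D.card : ℝ) - (k + 1) - 1) * Y := by
      by_cases hc : k + 1 + 1 ≤ D.card
      · have : ((k + 1 + 1 : ℕ) : ℝ) ≤ D.card := by exact_mod_cast hc
        push_cast at this
        have h7 : (0 : ℝ) ≤ (D.card : ℝ) - (k + 1) - 1 := by linarith
        positivity
      · have : D.powersetCard (k + 1 + 1) = ∅ := powersetCard_eq_empty.2 (by omega)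
        rw [hY, this]
        simp
    push_cast
    rcases hX0.eq_or_lt with h7 | h7
    · rw [← h7]; exact h6
    · exact le_of_mul_le_mul_right h5 h7

/-! ### exchanges -/

theorem mem_xch (w x : V) (A : Finset V) (z : V) :
    z ∈ xch w x A ↔ Equiv.swap w x z ∈ A := by
  unfold xch
  rw [mem_map]
  constructor
  · rintro ⟨a, ha, rfl⟩
    simpa using ha
  · intro h
    exact ⟨_, h, by simp⟩

theorem xch_xch (w x : V) (A : Finset V) : xch w x (xch w x A) = A := by
  ext z
  simp [mem_xch]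

theorem xch_mem (D : Finset V) (p : ℕ) (w x : V) (hw : w ∈ D) (hx : x ∈ D) (A : Finset V)
    (hA : A ∈ D.powersetCard p) : xch w x A ∈ D.powersetCard p := by
  rw [mem_powersetCard] at hA ⊢
  refine ⟨?_, by simp [xch, hA.2]⟩
  intro z hz
  rw [mem_xch] at hz
  by_cases h1 : z = w
  · rw [h1]; exact hw
  by_cases h2 : z = x
  · rw [h2]; exact hx
  rw [Equiv.swap_apply_of_ne_of_ne h1 h2] at hz
  exact hA.1 hz

theorem xch_of_iff (w x : V) (A : Finset V) (h : w ∈ A ↔ x ∈ A) : xch w x A = A := by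
  ext z
  rw [mem_xch]
  by_cases h1 : z = w
  · subst h1; rw [Equiv.swap_apply_left]; exact h.symm
  by_cases h2 : z = x
  · subst h2; rw [Equiv.swap_apply_right]; exact h
  rw [Equiv.swap_apply_of_ne_of_ne h1 h2]

theorem xch_in_out (w x : V) (A : Finset V) (hw : w ∈ A) (hx : x ∉ A) :
    xch w x A = insert x (A.erase w) := by
  have hne : w ≠ x := by rintro rfl; exact hx hw
  ext z
  rw [mem_xch, mem_insert, mem_erase]
  by_cases h1 : z = w
  · subst h1; rw [Equiv.swap_apply_left]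
    simp [hx, hne]
  by_cases h2 : z = x
  · subst h2; rw [Equiv.swap_apply_right]
    simp [hw]
  rw [Equiv.swap_apply_of_ne_of_ne h1 h2]
  simp [h1, h2]

theorem xch_out_in (w x : V) (A : Finset V) (hw : w ∉ A) (hx : x ∈ A) :
    xch w x A = insert w (A.erase x) := by
  rw [← xch_in_out x w A hx hw]
  ext z
  rw [mem_xch, mem_xch, Equiv.swap_comm]

theorem sum_xch (D : Finset V) (p : ℕ) (w x : V) (hw : w ∈ D) (hx : x ∈ D) (f : Finset V → ℝ) :
    ∑ A ∈ D.powersetCard p, f (xch w x A) = ∑ A ∈ D.powersetCard p, f A := by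
  refine Finset.sum_nbij' (xch w x) (xch w x) ?_ ?_ ?_ ?_ ?_
  · intro A hA; exact xch_mem D p w x hw hx A hA
  · intro A hA; exact xch_mem D p w x hw hx A hA
  · intro A _; exact xch_xch w x A
  · intro A _; exact xch_xch w x A
  · intro A _; rfl

theorem sum_xch_pair (D : Finset V) (p : ℕ) (g : Finset V → ℝ) (A : Finset V)
    (hA : A ∈ D.powersetCard p) :
    ∑ w ∈ D, ∑ x ∈ D, g (xch w x A) =
      ((p : ℝ) ^ 2 + ((D.card : ℝ) - p) ^ 2 - 2 * p) * g A + 2 * up (dn D g) A := by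
  rw [mem_powersetCard] at hA
  have hc : ((D \ A).card : ℝ) = (D.card : ℝ) - p := by
    rw [card_sdiff_of_subset hA.1, Nat.cast_sub (card_le_card hA.1), hA.2]
  have key : ∀ F : V → ℝ, ∑ w ∈ D, F w = ∑ w ∈ D \ A, F w + ∑ w ∈ A, F w := fun F =>
    (sum_sdiff hA.1).symm
  have e1 : ∀ w ∈ A, ∑ x ∈ D, g (xch w x A) =
      ∑ x ∈ D \ A, g (insert x (A.erase w)) + (p : ℝ) * g A := by
    intro w hw
    rw [key]
    congr 1
    · refine sum_congr rfl fun x hx => ?_
      rw [mem_sdiff] at hx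
      rw [xch_in_out w x A hw hx.2]
    · have : ∀ x ∈ A, g (xch w x A) = g A := fun x hx => by
        rw [xch_of_iff w x A (by simp [hw, hx])]
      rw [sum_congr rfl this, sum_const, hA.2, nsmul_eq_mul]
  have e2 : ∀ w ∈ D \ A, ∑ x ∈ D, g (xch w x A) =
      ((D.card : ℝ) - p) * g A + ∑ x ∈ A, g (insert w (A.erase x)) := by
    intro w hw
    rw [mem_sdiff] at hw
    rw [key]
    congr 1
    · have : ∀ x ∈ D \ A, g (xch w x A) = g A := fun x hx => by
        rw [mem_sdiff] at hx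
        rw [xch_of_iff w x A (by simp [hw.2, hx.2])]
      rw [sum_congr rfl this, sum_const, nsmul_eq_mul, hc]
    · refine sum_congr rfl fun x hx => ?_
      rw [xch_out_in w x A hw.2 hx]
  rw [key, sum_congr rfl e1, sum_congr rfl e2, sum_add_distrib, sum_add_distrib, sum_const,
    sum_const, nsmul_eq_mul, nsmul_eq_mul, hc, hA.2, up_dn_eq D g A hA.1, hA.2, sum_comm]
  ring

theorem johnson_J2 (D : Finset V) (p : ℕ) (g : Finset V → ℝ)
    (hg : ∑ A ∈ D.powersetCard p, g A = 0) :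
    4 * (D.card : ℝ) * ∑ A ∈ D.powersetCard p, g A ^ 2 ≤
      ∑ w ∈ D, ∑ x ∈ D, ∑ A ∈ D.powersetCard p, (g A - g (xch w x A)) ^ 2 := by
  cases p with
  | zero =>
    simp only [powersetCard_zero, sum_singleton] at hg ⊢
    rw [hg]
    simp only [ne_eq, OfNat.ofNat_ne_zero, not_false_eq_true, zero_pow, mul_zero]
    exact sum_nonneg fun _ _ => sum_nonneg fun _ _ => sq_nonneg _
  | succ k =>
    set Y := ∑ A ∈ D.powersetCard (k + 1), g A ^ 2 with hY
    have h1 : ∑ w ∈ D, ∑ x ∈ D, ∑ A ∈ D.powersetCard (k + 1), (g A - g (xch w x A)) ^ 2 =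
        2 * (D.card : ℝ) ^ 2 * Y -
          2 * ∑ A ∈ D.powersetCard (k + 1), g A * ∑ w ∈ D, ∑ x ∈ D, g (xch w x A) := by
      have e1 : ∀ w ∈ D, ∀ x ∈ D, ∑ A ∈ D.powersetCard (k + 1), (g A - g (xch w x A)) ^ 2 =
          2 * Y - 2 * ∑ A ∈ D.powersetCard (k + 1), g A * g (xch w x A) := by
        intro w hw x hx
        have : ∀ A ∈ D.powersetCard (k + 1), (g A - g (xch w x A)) ^ 2 =
            g A ^ 2 + (g (xch w x A)) ^ 2 - 2 * (g A * g (xch w x A)) := fun _ _ => by ring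
        rw [sum_congr rfl this, sum_sub_distrib, sum_add_distrib,
          sum_xch D (k + 1) w x hw hx (fun A => g A ^ 2), ← mul_sum]
        ring
      rw [sum_congr rfl fun w hw => sum_congr rfl fun x hx => e1 w hw x hx]
      simp only [sum_sub_distrib, sum_const, nsmul_eq_mul, ← mul_sum]
      have e2 : ∑ A ∈ D.powersetCard (k + 1), g A * ∑ w ∈ D, ∑ x ∈ D, g (xch w x A) =
          ∑ w ∈ D, ∑ x ∈ D, ∑ A ∈ D.powersetCard (k + 1), g A * g (xch w x A) := by
        simp only [mul_sum]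
        rw [sum_comm]
        refine sum_congr rfl fun w _ => ?_
        rw [sum_comm]
      rw [e2]
      ring
    rw [h1]
    have h2 : ∑ A ∈ D.powersetCard (k + 1), g A * ∑ w ∈ D, ∑ x ∈ D, g (xch w x A) =
        (((k : ℝ) + 1) ^ 2 + ((D.card : ℝ) - (k + 1)) ^ 2 - 2 * (k + 1)) * Y +
          2 * ∑ B ∈ D.powersetCard k, (dn D g B) ^ 2 := by
      have e1 : ∀ A ∈ D.powersetCard (k + 1), g A * ∑ w ∈ D, ∑ x ∈ D, g (xch w x A) =
          (((k : ℝ) + 1) ^ 2 + ((D.card : ℝ) - (k + 1)) ^ 2 - 2 * (k + 1)) * g A ^ 2 +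
            2 * (g A * up (dn D g) A) := by
        intro A hA
        rw [sum_xch_pair D (k + 1) g A hA]
        push_cast
        ring
      rw [sum_congr rfl e1, sum_add_distrib, ← mul_sum, ← mul_sum, ← dn_up_adj]
      congr 2
      exact sum_congr rfl fun _ _ => (sq _).symm
    rw [h2]
    have h3 := dn_norm D k g hg
    rw [← hY] at h3
    nlinarith

/-! ### counting -/

theorem card_filter_subset (D K : Finset V) (p : ℕ) (hK : K ⊆ D) :
    ((D.powersetCard p).filter fun A => K ⊆ A).card =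
      if K.card ≤ p then (D.card - K.card).choose (p - K.card) else 0 := by
  split_ifs with h
  · rw [← card_sdiff_of_subset hK, ← card_powersetCard]
    refine Finset.card_bij' (fun A _ => A \ K) (fun B _ => B ∪ K) ?_ ?_ ?_ ?_
    · intro A hA
      rw [mem_filter, mem_powersetCard] at hA
      rw [mem_powersetCard]
      refine ⟨sdiff_subset_sdiff hA.1.1 (le_refl _), ?_⟩
      rw [card_sdiff_of_subset hA.2, hA.1.2]
    · intro B hB
      rw [mem_powersetCard] at hB
      rw [mem_filter, mem_powersetCard]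
      refine ⟨⟨union_subset (hB.1.trans sdiff_subset) hK, ?_⟩, subset_union_right⟩
      rw [card_union_of_disjoint, hB.2]
      · omega
      · exact disjoint_of_subset_left hB.1 sdiff_disjoint
    · intro A hA
      rw [mem_filter, mem_powersetCard] at hA
      exact sdiff_union_of_subset hA.2
    · intro B hB
      rw [mem_powersetCard] at hB
      exact union_sdiff_cancel_right (disjoint_of_subset_left hB.1 sdiff_disjoint)
  · rw [card_eq_zero, filter_eq_empty_iff]
    intro A hA hKA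
    rw [mem_powersetCard] at hA
    exact h (hA.2 ▸ card_le_card hKA)

/-- membership indicator -/
def ind (w : V) (A : Finset V) : ℝ := if w ∈ A then 1 else 0

/-- separation indicator -/
def sep (w x : V) (A : Finset V) : ℝ := ind w A + ind x A - 2 * (ind w A * ind x A)

theorem sep_comm (w x : V) (A : Finset V) : sep w x A = sep x w A := by
  unfold sep; ring

theorem sep_eq (w x : V) (A : Finset V) :
    sep w x A = if (w ∈ A ↔ x ∈ A) then 0 else 1 := by
  unfold sep ind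
  by_cases h1 : w ∈ A <;> by_cases h2 : x ∈ A <;> simp [h1, h2] <;> norm_num

theorem sep_self (w : V) (A : Finset V) : sep w w A = 0 := by
  rw [sep_eq]; simp

theorem ind_sq (w : V) (A : Finset V) : ind w A * ind w A = ind w A := by
  unfold ind
  split_ifs <;> simp

/-- number of `p`-subsets of an `m`-set containing a given `k`-set -/
def nk (m p k : ℕ) : ℝ := if k ≤ p then ((m - k).choose (p - k) : ℕ) else 0

theorem sum_filter_subset (D K : Finset V) (p : ℕ) (hK : K ⊆ D) :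
    ∑ A ∈ D.powersetCard p, (if K ⊆ A then (1 : ℝ) else 0) = nk D.card p K.card := by
  rw [← sum_filter, sum_const, nsmul_eq_mul, mul_one, card_filter_subset D K p hK]
  unfold nk
  split_ifs <;> simp

theorem sum_ind1 (D : Finset V) (p : ℕ) (w : V) (hw : w ∈ D) :
    ∑ A ∈ D.powersetCard p, ind w A = nk D.card p 1 := by
  rw [← card_singleton w, ← sum_filter_subset D {w} p (by simpa using hw)]
  refine sum_congr rfl fun A _ => ?_
  simp [ind]

theorem sum_ind2 (D : Finset V) (p : ℕ) (w x : V) (hw : w ∈ D) (hx : x ∈ D) (h1 : w ≠ x) :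
    ∑ A ∈ D.powersetCard p, ind w A * ind x A = nk D.card p 2 := by
  have hc : ({w, x} : Finset V).card = 2 := card_pair h1
  rw [← hc, ← sum_filter_subset D {w, x} p (by
    intro z hz; simp only [mem_insert, mem_singleton] at hz; rcases hz with rfl | rfl <;> assumption)]
  refine sum_congr rfl fun A _ => ?_
  unfold ind
  by_cases a1 : w ∈ A <;> by_cases a2 : x ∈ A <;> simp [a1, a2, insert_subset_iff]

theorem sum_ind3 (D : Finset V) (p : ℕ) (w x y : V) (hw : w ∈ D) (hx : x ∈ D) (hy : y ∈ D)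
    (h1 : w ≠ x) (h2 : w ≠ y) (h3 : x ≠ y) :
    ∑ A ∈ D.powersetCard p, ind w A * ind x A * ind y A = nk D.card p 3 := by
  have hc : ({w, x, y} : Finset V).card = 3 := card_eq_three.2 ⟨w, x, y, h1, h2, h3, rfl⟩
  rw [← hc, ← sum_filter_subset D {w, x, y} p (by
    intro z hz; simp only [mem_insert, mem_singleton] at hz
    rcases hz with rfl | rfl | rfl <;> assumption)]
  refine sum_congr rfl fun A _ => ?_
  unfold ind
  by_cases a1 : w ∈ A <;> by_cases a2 : x ∈ A <;> by_cases a3 : y ∈ A <;>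
    simp [a1, a2, a3, insert_subset_iff]

theorem sum_ind4 (D : Finset V) (p : ℕ) (w x y z : V) (hw : w ∈ D) (hx : x ∈ D) (hy : y ∈ D)
    (hz : z ∈ D) (h1 : w ≠ x) (h2 : w ≠ y) (h3 : w ≠ z) (h4 : x ≠ y) (h5 : x ≠ z) (h6 : y ≠ z) :
    ∑ A ∈ D.powersetCard p, ind w A * ind x A * ind y A * ind z A = nk D.card p 4 := by
  have hc : ({w, x, y, z} : Finset V).card = 4 := by
    rw [card_insert_of_notMem (by simp [h1, h2, h3]),
      card_eq_three.2 ⟨x, y, z, h4, h5, h6, rfl⟩]
  rw [← hc, ← sum_filter_subset D {w, x, y, z} p (by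
    intro z hz; simp only [mem_insert, mem_singleton] at hz
    rcases hz with rfl | rfl | rfl | rfl <;> assumption)]
  refine sum_congr rfl fun A _ => ?_
  unfold ind
  by_cases a1 : w ∈ A <;> by_cases a2 : x ∈ A <;> by_cases a3 : y ∈ A <;> by_cases a4 : z ∈ A <;>
    simp [a1, a2, a3, a4, insert_subset_iff]

/-- number of sets separating a pair -/
def ja (m p : ℕ) : ℝ := 2 * (nk m p 1 - nk m p 2)

/-- number of sets separating two disjoint pairs -/
def ja0 (m p : ℕ) : ℝ := if 4 ≤ m then 4 * (nk m p 2 - 2 * nk m p 3 + nk m p 4) else 0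

theorem sum_sep (D : Finset V) (p : ℕ) (w x : V) (hw : w ∈ D) (hx : x ∈ D) (h1 : w ≠ x) :
    ∑ A ∈ D.powersetCard p, sep w x A = ja D.card p := by
  unfold sep ja
  rw [sum_sub_distrib, sum_add_distrib, ← mul_sum, sum_ind1 D p w hw, sum_ind1 D p x hx,
    sum_ind2 D p w x hw hx h1]
  ring

theorem N_same (D : Finset V) (p : ℕ) (w x : V) (hw : w ∈ D) (hx : x ∈ D) (h1 : w ≠ x) :
    ∑ A ∈ D.powersetCard p, sep w x A * sep w x A = ja D.card p := by
  rw [← sum_sep D p w x hw hx h1]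
  refine sum_congr rfl fun A _ => ?_
  rw [sep_eq]
  split_ifs <;> simp

theorem N_share (D : Finset V) (p : ℕ) (w x y : V) (hw : w ∈ D) (hx : x ∈ D) (hy : y ∈ D)
    (h1 : w ≠ x) (h2 : w ≠ y) (h3 : x ≠ y) :
    ∑ A ∈ D.powersetCard p, sep w x A * sep w y A = ja D.card p / 2 := by
  have : ∀ A : Finset V, sep w x A * sep w y A =
      ind w A - ind w A * ind x A - ind w A * ind y A + ind x A * ind y A := by
    intro A
    have := ind_sq w A
    unfold sep
    linear_combination (1 - 2 * ind x A - 2 * ind y A + 4 * ind x A * ind y A) * this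
  rw [sum_congr rfl fun A _ => this A, sum_add_distrib, sum_sub_distrib, sum_sub_distrib,
    sum_ind1 D p w hw, sum_ind2 D p w x hw hx h1, sum_ind2 D p w y hw hy h2,
    sum_ind2 D p x y hx hy h3]
  unfold ja
  ring

theorem N_disj (D : Finset V) (p : ℕ) (w x y z : V) (hw : w ∈ D) (hx : x ∈ D) (hy : y ∈ D)
    (hz : z ∈ D) (h1 : w ≠ x) (h2 : w ≠ y) (h3 : w ≠ z) (h4 : x ≠ y) (h5 : x ≠ z) (h6 : y ≠ z) :
    ∑ A ∈ D.powersetCard p, sep w x A * sep y z A = ja0 D.card p := by
  have hc : ({w, x, y, z} : Finset V).card = 4 := by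
    rw [card_insert_of_notMem (by simp [h1, h2, h3]),
      card_eq_three.2 ⟨x, y, z, h4, h5, h6, rfl⟩]
  have hc4 : 4 ≤ D.card := by
    rw [← hc]
    refine card_le_card ?_
    intro z hz; simp only [mem_insert, mem_singleton] at hz
    rcases hz with rfl | rfl | rfl | rfl <;> assumption
  have : ∀ A : Finset V, sep w x A * sep y z A =
      ind w A * ind y A + ind w A * ind z A + ind x A * ind y A + ind x A * ind z A
      - 2 * (ind w A * ind x A * ind y A) - 2 * (ind w A * ind x A * ind z A)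
      - 2 * (ind w A * ind y A * ind z A) - 2 * (ind x A * ind y A * ind z A)
      + 4 * (ind w A * ind x A * ind y A * ind z A) := by
    intro A
    unfold sep
    ring
  rw [sum_congr rfl fun A _ => this A]
  simp only [sum_add_distrib, sum_sub_distrib, ← mul_sum]
  rw [sum_ind2 D p w y hw hy h2, sum_ind2 D p w z hw hz h3, sum_ind2 D p x y hx hy h4,
    sum_ind2 D p x z hx hz h5, sum_ind3 D p w x y hw hx hy h1 h2 h4,
    sum_ind3 D p w x z hw hx hz h1 h3 h5, sum_ind3 D p w y z hw hy hz h2 h3 h6,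
    sum_ind3 D p x y z hx hy hz h4 h5 h6, sum_ind4 D p w x y z hw hx hy hz h1 h2 h3 h4 h5 h6]
  unfold ja0
  rw [if_pos hc4]
  ring

theorem ja_nonneg (D : Finset V) (p : ℕ) (w x : V) (hw : w ∈ D) (hx : x ∈ D) (h1 : w ≠ x) :
    0 ≤ ja D.card p := by
  rw [← sum_sep D p w x hw hx h1]
  refine sum_nonneg fun A _ => ?_
  rw [sep_eq]
  split_ifs <;> simp

theorem ja0_bounds (D : Finset V) (p : ℕ) (w x : V) (hw : w ∈ D) (hx : x ∈ D) (h1 : w ≠ x) :
    0 ≤ ja0 D.card p ∧ ja0 D.card p ≤ ja D.card p := by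
  by_cases h4 : 4 ≤ D.card
  · obtain ⟨y, hy, hyw⟩ : ∃ y ∈ D \ {w, x}, True := by
      have : (D \ {w, x}).Nonempty := by
        rw [← card_pos, card_sdiff_of_subset (by
          intro z hz; simp only [mem_insert, mem_singleton] at hz
          rcases hz with rfl | rfl <;> assumption), card_pair h1]
        omega
      obtain ⟨y, hy⟩ := this
      exact ⟨y, hy, trivial⟩
    simp only [mem_sdiff, mem_insert, mem_singleton, not_or] at hy
    obtain ⟨z, hz⟩ : (D \ {w, x, y}).Nonempty := by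
      have hc : ({w, x, y} : Finset V).card = 3 :=
        card_eq_three.2 ⟨w, x, y, h1, fun h => hy.2.1 h.symm, fun h => hy.2.2 h.symm, rfl⟩
      rw [← card_pos, card_sdiff_of_subset (by
          intro z hz; simp only [mem_insert, mem_singleton] at hz
          rcases hz with rfl | rfl | rfl
          · exact hw
          · exact hx
          · exact hy.1), hc]
      omega
    simp only [mem_sdiff, mem_insert, mem_singleton, not_or] at hz
    have hN := N_disj D p w x y z hw hx hy.1 hz.1 h1 (fun h => hy.2.1 h.symm)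
      (fun h => hz.2.1 h.symm) (fun h => hy.2.2 h.symm) (fun h => hz.2.2.1 h.symm)
      (fun h => hz.2.2.2 h.symm)
    have h01 : ∀ (u v : V) (A : Finset V), 0 ≤ sep u v A ∧ sep u v A ≤ 1 := by
      intro u v A
      rw [sep_eq]
      split_ifs <;> simp
    constructor
    · rw [← hN]
      exact sum_nonneg fun A _ => mul_nonneg (h01 _ _ _).1 (h01 _ _ _).1
    · rw [← hN, ← sum_sep D p w x hw hx h1]
      refine sum_le_sum fun A _ => ?_
      exact mul_le_of_le_one_right (h01 _ _ _).1 (h01 _ _ _).2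
  · unfold ja0
    rw [if_neg h4]
    exact ⟨le_refl _, ja_nonneg D p w x hw hx h1⟩

/-- Kronecker delta -/
def dl (a b : V) : ℝ := if a = b then 1 else 0

theorem N_formula (D : Finset V) (p : ℕ) (w x y z : V) (hw : w ∈ D) (hx : x ∈ D) (hy : y ∈ D)
    (hz : z ∈ D) (h1 : w ≠ x) (h6 : y ≠ z) :
    ∑ A ∈ D.powersetCard p, sep w x A * sep y z A =
      ja0 D.card p + (ja D.card p / 2 - ja0 D.card p) * (dl w y + dl w z + dl x y + dl x z) +
        ja0 D.card p * (dl w y * dl x z + dl w z * dl x y) := by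
  unfold dl
  by_cases hwy : w = y
  · subst hwy
    by_cases hxz : x = z
    · subst hxz
      rw [N_same D p w x hw hx h1]
      simp [h1, Ne.symm h1]
      ring
    · rw [N_share D p w x z hw hx hz h1 h6 hxz]
      simp [h1, h6, Ne.symm h1, hxz]
  by_cases hwz : w = z
  · subst hwz
    have e : ∑ A ∈ D.powersetCard p, sep w x A * sep y w A =
        ∑ A ∈ D.powersetCard p, sep w x A * sep w y A :=
      sum_congr rfl fun A _ => by rw [sep_comm y w]
    rw [e]
    by_cases hxy : x = y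
    · subst hxy
      rw [N_same D p w x hw hx h1]
      simp [h1, Ne.symm h1]
      ring
    · rw [N_share D p w x y hw hx hy h1 hwy hxy]
      simp [h1, Ne.symm h1, hwy, hxy]
  by_cases hxy : x = y
  · subst hxy
    have e : ∑ A ∈ D.powersetCard p, sep w x A * sep x z A =
        ∑ A ∈ D.powersetCard p, sep x w A * sep x z A :=
      sum_congr rfl fun A _ => by rw [sep_comm w x]
    rw [e, N_share D p x w z hx hw hz (Ne.symm h1) h6 hwz]
    simp [h1, h6, hwz]
  by_cases hxz : x = z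
  · subst hxz
    have e : ∑ A ∈ D.powersetCard p, sep w x A * sep y x A =
        ∑ A ∈ D.powersetCard p, sep x w A * sep x y A :=
      sum_congr rfl fun A _ => by rw [sep_comm w x, sep_comm y x]
    rw [e, N_share D p x w y hx hw hy (Ne.symm h1) hxy hwy]
    simp [hwy, hxy, hwz]
  rw [N_disj D p w x y z hw hx hy hz h1 hwy hwz hxy hxz h6]
  simp [hwy, hwz, hxy, hxz]

theorem sum_dl_right (D : Finset V) (f : V → ℝ) (a : V) (ha : a ∈ D) :
    ∑ y ∈ D, f y * dl a y = f a := by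
  unfold dl
  simp [ha]

theorem sum_sepV (D : Finset V) (p : ℕ) (X : V → V → ℝ) (hsym : ∀ w x, X w x = X x w)
    (hdiag : ∀ w, X w w = 0) (hS : ∑ w ∈ D, ∑ x ∈ D, X w x = 0) (w x : V) (hw : w ∈ D)
    (hx : x ∈ D) (h1 : w ≠ x) :
    ∑ A ∈ D.powersetCard p, sep w x A * ∑ y ∈ D, ∑ z ∈ D, X y z * sep y z A =
      2 * (ja D.card p / 2 - ja0 D.card p) * (∑ z ∈ D, X w z + ∑ z ∈ D, X x z) +
        2 * ja0 D.card p * X w x := by
  set a := ja D.card p with ha
  set a0 := ja0 D.card p with ha0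
  have e1 : ∑ A ∈ D.powersetCard p, sep w x A * ∑ y ∈ D, ∑ z ∈ D, X y z * sep y z A =
      ∑ y ∈ D, ∑ z ∈ D, X y z * ∑ A ∈ D.powersetCard p, sep w x A * sep y z A := by
    simp only [mul_sum]
    rw [sum_comm]
    refine sum_congr rfl fun y _ => ?_
    rw [sum_comm]
    refine sum_congr rfl fun z _ => sum_congr rfl fun A _ => ?_
    ring
  have e2 : ∀ y ∈ D, ∀ z ∈ D, X y z * ∑ A ∈ D.powersetCard p, sep w x A * sep y z A =
      a0 * X y z + (a / 2 - a0) * (X y z * dl w y + X y z * dl w z + X y z * dl x y +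
        X y z * dl x z) + a0 * (X y z * dl x z * dl w y + X y z * dl w z * dl x y) := by
    intro y hy z hz
    by_cases h6 : y = z
    · subst h6
      simp [hdiag]
    · rw [N_formula D p w x y z hw hx hy hz h1 h6]
      ring
  rw [e1, sum_congr rfl fun y hy => sum_congr rfl fun z hz => e2 y hy z hz]
  simp only [sum_add_distrib, ← mul_sum, ← sum_mul]
  rw [hS]
  have r1 : ∀ a ∈ D, ∑ y ∈ D, (∑ z ∈ D, X y z) * dl a y = ∑ z ∈ D, X a z := fun a ha =>
    sum_dl_right D (fun y => ∑ z ∈ D, X y z) a ha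
  have r2 : ∀ a ∈ D, ∑ y ∈ D, ∑ z ∈ D, X y z * dl a z = ∑ z ∈ D, X a z := by
    intro a ha
    refine sum_congr rfl fun y _ => ?_
    rw [sum_dl_right D (fun z => X y z) a ha, hsym]
  have r3 : ∀ a ∈ D, ∀ b ∈ D, ∑ y ∈ D, (∑ z ∈ D, X y z * dl b z) * dl a y = X a b := by
    intro a ha b hb
    rw [sum_dl_right D (fun y => ∑ z ∈ D, X y z * dl b z) a ha,
      sum_dl_right D (fun z => X a z) b hb]
  rw [r1 w hw, r2 w hw, r1 x hx, r2 x hx, r3 w hw x hx, r3 x hx w hw, hsym x w]
  ring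

theorem sum_V_sq (D : Finset V) (p : ℕ) (X : V → V → ℝ) (hsym : ∀ w x, X w x = X x w)
    (hdiag : ∀ w, X w w = 0) (hS : ∑ w ∈ D, ∑ x ∈ D, X w x = 0) :
    ∑ A ∈ D.powersetCard p, (∑ y ∈ D, ∑ z ∈ D, X y z * sep y z A) ^ 2 =
      4 * (ja D.card p / 2 - ja0 D.card p) * ∑ w ∈ D, (∑ x ∈ D, X w x) ^ 2 +
        2 * ja0 D.card p * ∑ w ∈ D, ∑ x ∈ D, X w x ^ 2 := by
  have e1 : ∑ A ∈ D.powersetCard p, (∑ y ∈ D, ∑ z ∈ D, X y z * sep y z A) ^ 2 =
      ∑ w ∈ D, ∑ x ∈ D, X w x * ∑ A ∈ D.powersetCard p, sep w x A *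
        ∑ y ∈ D, ∑ z ∈ D, X y z * sep y z A := by
    have : ∀ A : Finset V, (∑ y ∈ D, ∑ z ∈ D, X y z * sep y z A) ^ 2 =
        ∑ w ∈ D, ∑ x ∈ D, X w x * (sep w x A * ∑ y ∈ D, ∑ z ∈ D, X y z * sep y z A) := by
      intro A
      rw [sq, sum_mul]
      refine sum_congr rfl fun w _ => ?_
      rw [sum_mul]
      refine sum_congr rfl fun x _ => ?_
      ring
    rw [sum_congr rfl fun A _ => this A, sum_comm]
    refine sum_congr rfl fun w _ => ?_
    rw [sum_comm]
    refine sum_congr rfl fun x _ => ?_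
    rw [mul_sum]
  have e2 : ∀ w ∈ D, ∀ x ∈ D, X w x * ∑ A ∈ D.powersetCard p, sep w x A *
        ∑ y ∈ D, ∑ z ∈ D, X y z * sep y z A =
      2 * (ja D.card p / 2 - ja0 D.card p) * (X w x * ∑ z ∈ D, X w z + X w x * ∑ z ∈ D, X x z) +
        2 * ja0 D.card p * X w x ^ 2 := by
    intro w hw x hx
    by_cases h1 : w = x
    · subst h1
      simp [hdiag]
    · rw [sum_sepV D p X hsym hdiag hS w x hw hx h1]
      ring
  rw [e1, sum_congr rfl fun w hw => sum_congr rfl fun x hx => e2 w hw x hx]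
  simp only [sum_add_distrib, ← mul_sum, ← sum_mul]
  have e3 : ∑ w ∈ D, ∑ x ∈ D, X w x * ∑ z ∈ D, X x z = ∑ w ∈ D, (∑ x ∈ D, X w x) ^ 2 := by
    rw [sum_comm]
    refine sum_congr rfl fun x _ => ?_
    rw [← sum_mul, sq]
    congr 1
    exact sum_congr rfl fun w _ => hsym w x
  have e4 : ∑ w ∈ D, (∑ x ∈ D, X w x) * ∑ z ∈ D, X w z = ∑ w ∈ D, (∑ x ∈ D, X w x) ^ 2 :=
    sum_congr rfl fun w _ => (sq _).symm
  rw [e3, e4]
  ring

theorem rowsum_bound (D : Finset V) (X : V → V → ℝ) (hsym : ∀ w x, X w x = X x w)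
    (hdiag : ∀ w, X w w = 0) (hS : ∑ w ∈ D, ∑ x ∈ D, X w x = 0) :
    2 * ∑ w ∈ D, (∑ x ∈ D, X w x) ^ 2 ≤
      ((D.card : ℝ) - 2) * ∑ w ∈ D, ∑ x ∈ D, X w x ^ 2 ∨ D.card < 2 := by
  by_cases hc : D.card < 2
  · exact Or.inr hc
  left
  push Not at hc
  have hm : (2 : ℝ) ≤ D.card := by exact_mod_cast hc
  set r : V → ℝ := fun w => ∑ x ∈ D, X w x with hr
  set R := ∑ w ∈ D, (r w) ^ 2 with hR
  set Q := ∑ w ∈ D, ∑ x ∈ D, X w x ^ 2 with hQ
  have hQ0 : 0 ≤ Q := sum_nonneg fun _ _ => sum_nonneg fun _ _ => sq_nonneg _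
  have hR0 : 0 ≤ R := sum_nonneg fun _ _ => sq_nonneg _
  -- the sum over `w ≠ x` of `(r w + r x)^2`
  have h1 : ∑ w ∈ D, ∑ x ∈ D, (if w = x then 0 else (r w + r x)) ^ 2 =
      (2 * (D.card : ℝ) - 4) * R := by
    have e : ∀ w ∈ D, ∑ x ∈ D, (if w = x then 0 else (r w + r x)) ^ 2 =
        ∑ x ∈ D, (r w + r x) ^ 2 - 4 * (r w) ^ 2 := by
      intro w hw
      have : ∀ x ∈ D, (if w = x then 0 else (r w + r x)) ^ 2 =
          (r w + r x) ^ 2 - (if w = x then 4 * (r w) ^ 2 else 0) := by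
        intro x _
        split_ifs with h
        · subst h; ring
        · ring
      rw [sum_congr rfl this, sum_sub_distrib]
      simp [hw]
    rw [sum_congr rfl e, sum_sub_distrib, ← mul_sum]
    have e2 : ∑ w ∈ D, ∑ x ∈ D, (r w + r x) ^ 2 = 2 * (D.card : ℝ) * R := by
      have : ∀ w ∈ D, ∑ x ∈ D, (r w + r x) ^ 2 =
          (D.card : ℝ) * (r w) ^ 2 + R + 2 * r w * ∑ x ∈ D, r x := by
        intro w _
        have : ∀ x ∈ D, (r w + r x) ^ 2 = (r w) ^ 2 + (r x) ^ 2 + 2 * r w * r x :=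
          fun _ _ => by ring
        rw [sum_congr rfl this, sum_add_distrib, sum_add_distrib, sum_const, nsmul_eq_mul,
          ← mul_sum]
      have h0 : ∑ x ∈ D, r x = 0 := hS
      rw [sum_congr rfl this, h0]
      simp only [mul_zero, add_zero, sum_add_distrib, sum_const, nsmul_eq_mul, ← mul_sum]
      ring
    rw [e2]
    ring
  have h2 : 2 * R = ∑ w ∈ D, ∑ x ∈ D, X w x * (if w = x then 0 else (r w + r x)) := by
    have e : ∀ w ∈ D, ∀ x ∈ D, X w x * (if w = x then 0 else (r w + r x)) =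
        X w x * r w + X w x * r x := by
      intro w _ x _
      split_ifs with h
      · subst h; simp [hdiag]
      · ring
    rw [sum_congr rfl fun w hw => sum_congr rfl fun x hx => e w hw x hx]
    simp only [sum_add_distrib]
    have e3 : ∑ w ∈ D, ∑ x ∈ D, X w x * r x = R := by
      rw [sum_comm]
      refine sum_congr rfl fun x _ => ?_
      rw [← sum_mul, sq]
      congr 1
      exact sum_congr rfl fun w _ => hsym w x
    have e4 : ∑ w ∈ D, ∑ x ∈ D, X w x * r w = R := by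
      refine sum_congr rfl fun w _ => ?_
      rw [← sum_mul, sq]
    rw [e3, e4]
    ring
  have h3 : (2 * R) ^ 2 ≤ Q * ((2 * (D.card : ℝ) - 4) * R) := by
    rw [← h1, h2, hQ]
    have := sum_mul_sq_le_sq_mul_sq (D ×ˢ D) (fun q => X q.1 q.2)
      (fun q => if q.1 = q.2 then 0 else (r q.1 + r q.2))
    simpa only [sum_product] using this
  rcases hR0.eq_or_lt with h7 | h7
  · rw [← h7]
    have : 0 ≤ ((D.card : ℝ) - 2) * Q := mul_nonneg (by linarith) hQ0
    linarith
  · have : (2 * R) * (2 * R) ≤ ((2 * (D.card : ℝ) - 4) * Q) * R := by nlinarith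
    have h8 : R * (4 * R) ≤ R * ((2 * (D.card : ℝ) - 4) * Q) := by nlinarith
    have := le_of_mul_le_mul_left h8 h7
    linarith

theorem V_bound (D : Finset V) (p : ℕ) (X : V → V → ℝ) (hsym : ∀ w x, X w x = X x w)
    (hdiag : ∀ w, X w w = 0) (hS : ∑ w ∈ D, ∑ x ∈ D, X w x = 0) (w₀ x₀ : V) (hw : w₀ ∈ D)
    (hx : x₀ ∈ D) (h1 : w₀ ≠ x₀) :
    ∑ A ∈ D.powersetCard p, (∑ y ∈ D, ∑ z ∈ D, X y z * sep y z A) ^ 2 ≤
      ja D.card p * D.card * ∑ w ∈ D, ∑ x ∈ D, X w x ^ 2 := by
  have hc : 2 ≤ D.card := by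
    rw [← card_pair h1]
    refine card_le_card ?_
    intro z hz; simp only [mem_insert, mem_singleton] at hz
    rcases hz with rfl | rfl <;> assumption
  have hm : (2 : ℝ) ≤ D.card := by exact_mod_cast hc
  have hb := ja0_bounds D p w₀ x₀ hw hx h1
  rw [sum_V_sq D p X hsym hdiag hS]
  have hr := (rowsum_bound D X hsym hdiag hS).resolve_right (by omega)
  have hm3 : ja0 D.card p * (D.card - 3 : ℝ) ≥ 0 := by
    by_cases h3 : 3 ≤ D.card
    · have : (3 : ℝ) ≤ D.card := by exact_mod_cast h3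
      exact mul_nonneg hb.1 (by linarith)
    · have : ja0 D.card p = 0 := by
        unfold ja0
        rw [if_neg (by omega)]
      rw [this]
      simp
  set R := ∑ w ∈ D, (∑ x ∈ D, X w x) ^ 2 with hR
  set Q := ∑ w ∈ D, ∑ x ∈ D, X w x ^ 2 with hQ
  have hQ0 : 0 ≤ Q := sum_nonneg fun _ _ => sum_nonneg fun _ _ => sq_nonneg _
  have hR0 : 0 ≤ R := sum_nonneg fun _ _ => sq_nonneg _
  set a := ja D.card p with ha
  set a0 := ja0 D.card p with ha0
  have ha' : 0 ≤ a := hb.1.trans hb.2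
  by_cases hcase : a0 ≤ a / 2
  · have k1 : (a / 2 - a0) * (2 * R) ≤ (a / 2 - a0) * (((D.card : ℝ) - 2) * Q) :=
      mul_le_mul_of_nonneg_left hr (by linarith)
    have k2 : 0 ≤ (2 * a + 2 * (a0 * (D.card - 3 : ℝ))) * Q := by positivity
    nlinarith
  · push Not at hcase
    have k1 : 0 ≤ (a0 - a / 2) * R := mul_nonneg (by linarith) hR0
    have k2 : a0 * Q ≤ a * Q := mul_le_mul_of_nonneg_right hb.2 hQ0
    have k3 : 0 ≤ a * Q := mul_nonneg ha' hQ0
    have k4 : 0 ≤ (a * Q) * ((D.card : ℝ) - 2) := mul_nonneg k3 (by linarith)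
    nlinarith

theorem sum_Isep (D : Finset V) (p : ℕ) (w x : V) (g : Finset V → ℝ) :
    ∑ A ∈ Isep D p w x, g A = ∑ A ∈ D.powersetCard p, g A * sep w x A := by
  unfold Isep
  rw [sum_filter]
  refine sum_congr rfl fun A _ => ?_
  rw [sep_eq]
  by_cases h : (w ∈ A ↔ x ∈ A)
  · simp [h]
  · simp [h]

theorem card_Isep (D : Finset V) (p : ℕ) (w x : V) (hw : w ∈ D) (hx : x ∈ D) (h1 : w ≠ x) :
    ((Isep D p w x).card : ℝ) = ja D.card p := by
  have := sum_Isep D p w x (fun _ => 1)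
  simp only [sum_const, nsmul_eq_mul, mul_one, one_mul] at this
  rw [this, sum_sep D p w x hw hx h1]

theorem Isep_self (D : Finset V) (p : ℕ) (w : V) : Isep D p w w = ∅ := by
  unfold Isep
  simp

theorem sum_sep_pairs (D : Finset V) (p : ℕ) (A : Finset V) (hA : A ∈ D.powersetCard p) :
    ∑ w ∈ D, ∑ x ∈ D, sep w x A = 2 * p * (D.card - p : ℝ) := by
  rw [mem_powersetCard] at hA
  have h1 : ∑ w ∈ D, ind w A = p := by
    unfold ind
    rw [← sum_filter, sum_const, nsmul_eq_mul, mul_one]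
    have : D.filter (fun w => w ∈ A) = A := by
      ext z
      simp only [mem_filter]
      exact ⟨fun h => h.2, fun h => ⟨hA.1 h, h⟩⟩
    rw [this, hA.2]
  unfold sep
  simp only [sum_sub_distrib, sum_add_distrib, sum_const, nsmul_eq_mul, ← mul_sum]
  rw [h1]
  simp only [mul_assoc, ← mul_sum, ← sum_mul, h1]
  ring

theorem johnson_J3 (D : Finset V) (p : ℕ) (g : Finset V → ℝ)
    (hg : ∑ A ∈ D.powersetCard p, g A = 0) :
    ∑ w ∈ D, ∑ x ∈ D, (∑ A ∈ Isep D p w x, g A) ^ 2 / ((Isep D p w x).card : ℝ) ≤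
      (D.card : ℝ) * ∑ A ∈ D.powersetCard p, g A ^ 2 := by
  set Y := ∑ A ∈ D.powersetCard p, g A ^ 2 with hY
  have hY0 : 0 ≤ Y := sum_nonneg fun _ _ => sq_nonneg _
  by_cases hex : ∃ w ∈ D, ∃ x ∈ D, w ≠ x
  swap
  · push Not at hex
    have : ∑ w ∈ D, ∑ x ∈ D, (∑ A ∈ Isep D p w x, g A) ^ 2 / ((Isep D p w x).card : ℝ) = 0 := by
      refine sum_eq_zero fun w hw => sum_eq_zero fun x hx => ?_
      rw [hex w hw x hx, Isep_self]
      simp
    rw [this]
    positivity
  obtain ⟨w₀, hw₀, x₀, hx₀, hne⟩ := hex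
  set X : V → V → ℝ := fun w x => ∑ A ∈ D.powersetCard p, g A * sep w x A with hX
  have hsym : ∀ w x, X w x = X x w := fun w x =>
    sum_congr rfl fun A _ => by rw [sep_comm]
  have hdiag : ∀ w, X w w = 0 := fun w => sum_eq_zero fun A _ => by rw [sep_self, mul_zero]
  have hS : ∑ w ∈ D, ∑ x ∈ D, X w x = 0 := by
    have : ∑ w ∈ D, ∑ x ∈ D, X w x =
        ∑ A ∈ D.powersetCard p, g A * ∑ w ∈ D, ∑ x ∈ D, sep w x A := by
      simp only [hX, mul_sum]
      symm
      rw [sum_comm]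
      refine sum_congr rfl fun w _ => ?_
      rw [sum_comm]
    rw [this]
    have e : ∀ A ∈ D.powersetCard p, g A * ∑ w ∈ D, ∑ x ∈ D, sep w x A =
        g A * (2 * p * (D.card - p : ℝ)) := fun A hA => by rw [sum_sep_pairs D p A hA]
    rw [sum_congr rfl e, ← sum_mul, hg, zero_mul]
  have hV := V_bound D p X hsym hdiag hS w₀ x₀ hw₀ hx₀ hne
  set Q := ∑ w ∈ D, ∑ x ∈ D, X w x ^ 2 with hQ
  have hQ0 : 0 ≤ Q := sum_nonneg fun _ _ => sum_nonneg fun _ _ => sq_nonneg _
  have hQ2 : Q = ∑ A ∈ D.powersetCard p, g A * ∑ y ∈ D, ∑ z ∈ D, X y z * sep y z A := by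
    simp only [mul_sum]
    rw [sum_comm, hQ]
    refine sum_congr rfl fun w _ => ?_
    rw [sum_comm]
    refine sum_congr rfl fun x _ => ?_
    rw [sq]
    nth_rw 1 [hX]
    rw [sum_mul]
    refine sum_congr rfl fun A _ => ?_
    ring
  have hQ3 : Q ^ 2 ≤ Y * ∑ A ∈ D.powersetCard p, (∑ y ∈ D, ∑ z ∈ D, X y z * sep y z A) ^ 2 := by
    rw [hQ2]
    exact sum_mul_sq_le_sq_mul_sq _ _ _
  have ha : 0 ≤ ja D.card p := ja_nonneg D p w₀ x₀ hw₀ hx₀ hne
  have hQ4 : Q ≤ ja D.card p * (D.card * Y) := by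
    rcases hQ0.eq_or_lt with h7 | h7
    · rw [← h7]; positivity
    · have : Y * ∑ A ∈ D.powersetCard p, (∑ y ∈ D, ∑ z ∈ D, X y z * sep y z A) ^ 2 ≤
          Y * (ja D.card p * D.card * Q) := mul_le_mul_of_nonneg_left hV hY0
      have h8 : Q * Q ≤ Q * (ja D.card p * (D.card * Y)) := by nlinarith
      exact le_of_mul_le_mul_left h8 h7
  have hLHS : ∑ w ∈ D, ∑ x ∈ D, (∑ A ∈ Isep D p w x, g A) ^ 2 / ((Isep D p w x).card : ℝ) =
      Q / ja D.card p := by
    rw [hQ, sum_div]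
    refine sum_congr rfl fun w hw => ?_
    rw [sum_div]
    refine sum_congr rfl fun x hx => ?_
    rw [sum_Isep]
    by_cases h : w = x
    · subst h
      rw [hdiag]
      have : ∑ A ∈ D.powersetCard p, g A * sep w w A = 0 := hdiag w
      rw [this]
      simp
    · rw [card_Isep D p w x hw hx h]
  rw [hLHS]
  rcases ha.eq_or_lt with h0 | h0
  · rw [← h0, div_zero]; positivity
  · rw [div_le_iff₀ h0]
    linarith

end johnson

end Crest.Agent.R299
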