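import Mathlib
import Crest.Prelude.Def_SwitchChain

/-!
Row 299 (S0453): basic facts about the kernel of the switch chain.
-/

set_option autoImplicit false
open Finset

namespace Crest.Agent.R299.Kern

open Crest.SwitchChain

variable {n : ℕ}

/-- the matching `{ab, cd}` -/
def pr (a b c d : Fin n) : Finset (Edge n) := univ.filter fun e => e.1 = s(a, b) ∨ e.1 = s(c, d)

theorem mem_pr (a b c d : Fin n) (e : Edge n) : e ∈ pr a b c d ↔ e.1 = s(a, b) ∨ e.1 = s(c, d) := by
  simp [pr]

theorem pr_eq (a b c d : Fin n) (hab : a ≠ b) (hcd : c ≠ d) :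
    pr a b c d = {⟨s(a, b), by simpa using hab⟩, ⟨s(c, d), by simpa using hcd⟩} := by
  ext e
  simp [mem_pr, Subtype.ext_iff]

/-- four distinct vertices -/
def Q (a b c d : Fin n) : Prop := a ≠ b ∧ a ≠ c ∧ a ≠ d ∧ b ≠ c ∧ b ≠ d ∧ c ≠ d

theorem pr_mem_pmSet (a b c d : Fin n) (h : Q a b c d) : pr a b c d ∈ pmSet {a, b, c, d} := by
  obtain ⟨hab, hac, had, hbc, hbd, hcd⟩ := h
  rw [pmSet, mem_filter, mem_powersetCard]
  have hcard : (pr a b c d).card = 2 := by
    rw [pr_eq a b c d hab hcd, card_pair]
    intro h
    rw [Subtype.mk.injEq, Sym2.eq_iff] at h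
    rcases h with ⟨h1, h2⟩ | ⟨h1, h2⟩
    · exact hac h1
    · exact had h1
  refine ⟨⟨subset_univ _, hcard⟩, ?_, ?_⟩
  · intro e he v hv
    rw [mem_pr] at he
    rcases he with he | he
    · rw [he, Sym2.mem_iff] at hv
      rcases hv with rfl | rfl <;> simp
    · rw [he, Sym2.mem_iff] at hv
      rcases hv with rfl | rfl <;> simp
  · intro v hv
    rw [card_eq_one]
    simp only [mem_insert, mem_singleton] at hv
    have key : (v = a ∨ v = b) ∨ (v = c ∨ v = d) := by tauto
    rcases key with h | h
    · refine ⟨⟨s(a, b), by simpa using hab⟩, ?_⟩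
      ext e
      simp only [mem_filter, mem_pr, mem_singleton, Subtype.ext_iff]
      constructor
      · rintro ⟨h1 | h1, h2⟩
        · exact h1
        · exfalso
          rw [h1, Sym2.mem_iff] at h2
          rcases h with rfl | rfl <;> tauto
      · intro h1
        refine ⟨Or.inl h1, ?_⟩
        rw [h1, Sym2.mem_iff]
        exact h
    · refine ⟨⟨s(c, d), by simpa using hcd⟩, ?_⟩
      ext e
      simp only [mem_filter, mem_pr, mem_singleton, Subtype.ext_iff]
      constructor
      · rintro ⟨h1 | h1, h2⟩
        · exfalso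
          rw [h1, Sym2.mem_iff] at h2
          rcases h with rfl | rfl
          · rcases h2 with h2 | h2
            · exact hac h2.symm
            · exact hbc h2.symm
          · rcases h2 with h2 | h2
            · exact had h2.symm
            · exact hbd h2.symm
        · exact h1
      · intro h1
        refine ⟨Or.inr h1, ?_⟩
        rw [h1, Sym2.mem_iff]
        exact h

/-- a perfect matching is one of the three -/
theorem mem_pmSet_cases (a b c d : Fin n) (h : Q a b c d) (F : Finset (Edge n))
    (hF : F ∈ pmSet {a, b, c, d}) : F = pr a b c d ∨ F = pr a c b d ∨ F = pr a d b c := by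
  obtain ⟨hab, hac, had, hbc, hbd, hcd⟩ := h
  rw [pmSet, mem_filter, mem_powersetCard] at hF
  obtain ⟨⟨-, hcard⟩, h1, h2⟩ := hF
  -- the edge through a vertex
  have key : ∀ x y z w : Fin n, x ≠ y → x ≠ z → x ≠ w → y ≠ z → y ≠ w → z ≠ w →
      ({a, b, c, d} : Finset (Fin n)) = {x, y, z, w} →
      (∃ e ∈ F, e.1 = s(x, y)) → F = pr x y z w := by
    intro x y z w hxy hxz hxw hyz hyw hzw hS ⟨e, he, hexy⟩
    rw [hS] at h1 h2
    -- the other edge
    have hex : ∃ e', e' ∈ F ∧ e' ≠ e := by
      by_contra hcon
      push Not at hcon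
      have : F ⊆ {e} := fun e' he' => by simpa using hcon e' he'
      have := card_le_card this
      simp at this
      omega
    obtain ⟨e', he', hne⟩ := hex
    have hFe : F = {e, e'} := by
      symm
      apply eq_of_subset_of_card_le
      · intro t ht
        simp only [mem_insert, mem_singleton] at ht
        rcases ht with rfl | rfl <;> assumption
      · rw [hcard, card_pair (Ne.symm hne)]
    have hnot : ∀ v, v ∈ ({x, y, z, w} : Finset (Fin n)) → v ∈ e.1 → v ∉ e'.1 := by
      intro v hv hve hve'
      have := h2 v hv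
      rw [card_eq_one] at this
      obtain ⟨t, ht⟩ := this
      have ha : e ∈ F.filter fun e => v ∈ e.1 := mem_filter.2 ⟨he, hve⟩
      have hb : e' ∈ F.filter fun e => v ∈ e.1 := mem_filter.2 ⟨he', hve'⟩
      rw [ht, mem_singleton] at ha hb
      exact hne (hb.trans ha.symm)
    have hx' : x ∉ e'.1 := hnot x (by simp) (by rw [hexy]; simp)
    have hy' : y ∉ e'.1 := hnot y (by simp) (by rw [hexy]; simp)
    have he'zw : e'.1 = s(z, w) := by
      obtain ⟨e'v, hd'⟩ := e'
      induction e'v using Sym2.ind with
      | _ p q =>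
        have hp := h1 _ he' p (by simp)
        have hq := h1 _ he' q (by simp)
        simp only [Sym2.mem_iff, not_or] at hx' hy'
        simp only [mem_insert, mem_singleton] at hp hq
        have hpq : p ≠ q := by simpa using hd'
        have hp' : p = z ∨ p = w := by
          rcases hp with h | h | h | h
          · exact absurd h.symm hx'.1
          · exact absurd h.symm hy'.1
          · exact Or.inl h
          · exact Or.inr h
        have hq' : q = z ∨ q = w := by
          rcases hq with h | h | h | h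
          · exact absurd h.symm hx'.2
          · exact absurd h.symm hy'.2
          · exact Or.inl h
          · exact Or.inr h
        simp only [Sym2.eq_iff]
        rcases hp' with rfl | rfl <;> rcases hq' with rfl | rfl
        · exact absurd rfl hpq
        · exact Or.inl ⟨rfl, rfl⟩
        · exact Or.inr ⟨rfl, rfl⟩
        · exact absurd rfl hpq
    rw [hFe]
    ext t
    simp only [mem_insert, mem_singleton, mem_pr]
    constructor
    · rintro (rfl | rfl)
      · exact Or.inl hexy
      · exact Or.inr he'zw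
    · rintro (h | h)
      · left
        apply Subtype.ext
        rw [h, hexy]
      · right
        apply Subtype.ext
        rw [h, he'zw]
  -- the edge through `a`
  have ha := h2 a (by simp)
  rw [card_eq_one] at ha
  obtain ⟨e, he⟩ := ha
  have hmem : e ∈ F ∧ a ∈ e.1 := by
    have : e ∈ F.filter fun e => a ∈ e.1 := by rw [he]; simp
    exact mem_filter.1 this
  obtain ⟨heF, hae⟩ := hmem
  obtain ⟨y, hy⟩ := Sym2.mem_iff_exists.1 hae
  have hyS := h1 e heF y (by rw [hy]; simp)
  have hay : a ≠ y := by
    have := e.2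
    rw [hy] at this
    simpa using this
  simp only [mem_insert, mem_singleton] at hyS
  rcases hyS with h | h | h | h
  · exact absurd h.symm hay
  · left
    exact key a b c d hab hac had hbc hbd hcd rfl ⟨e, heF, by rw [hy, h]⟩
  · right; left
    refine key a c b d hac hab had (Ne.symm hbc) hcd hbd ?_ ⟨e, heF, by rw [hy, h]⟩
    ext t; simp only [mem_insert, mem_singleton]; tauto
  · right; right
    refine key a d b c had hab hac (Ne.symm hbd) (Ne.symm hcd) hbc ?_ ⟨e, heF, by rw [hy, h]⟩
    ext t; simp only [mem_insert, mem_singleton]; tauto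

theorem exists_four {S : Finset (Fin n)} (hS : S.card = 4) :
    ∃ a b c d : Fin n, Q a b c d ∧ S = {a, b, c, d} := by
  obtain ⟨a, T, haT, rfl, hT⟩ := card_eq_succ.1 hS
  obtain ⟨b, c, d, hbc, hbd, hcd, rfl⟩ := card_eq_three.1 hT
  simp only [mem_insert, mem_singleton, not_or] at haT
  exact ⟨a, b, c, d, ⟨haT.1, haT.2.1, haT.2.2, hbc, hbd, hcd⟩, rfl⟩

theorem pr_ne1 (a b c d : Fin n) (h : Q a b c d) : pr a b c d ≠ pr a c b d := by
  obtain ⟨hab, hac, had, hbc, hbd, hcd⟩ := h
  intro heq
  have : (⟨s(a, b), by simpa using hab⟩ : Edge n) ∈ pr a b c d := by simp [mem_pr]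
  rw [heq, mem_pr] at this
  simp only [Sym2.eq_iff] at this
  rcases this with (⟨-, h⟩ | ⟨h, -⟩) | (⟨h, -⟩ | ⟨h, -⟩)
  · exact hbc h
  · exact hac h
  · exact hab h
  · exact had h

theorem pr_ne2 (a b c d : Fin n) (h : Q a b c d) : pr a b c d ≠ pr a d b c := by
  obtain ⟨hab, hac, had, hbc, hbd, hcd⟩ := h
  intro heq
  have : (⟨s(a, b), by simpa using hab⟩ : Edge n) ∈ pr a b c d := by simp [mem_pr]
  rw [heq, mem_pr] at this
  simp only [Sym2.eq_iff] at this
  rcases this with (⟨-, h⟩ | ⟨h, -⟩) | (⟨h, -⟩ | ⟨h, -⟩)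
  · exact hbd h
  · exact had h
  · exact hab h
  · exact hac h

theorem pr_ne3 (a b c d : Fin n) (h : Q a b c d) : pr a c b d ≠ pr a d b c := by
  obtain ⟨hab, hac, had, hbc, hbd, hcd⟩ := h
  intro heq
  have : (⟨s(a, c), by simpa using hac⟩ : Edge n) ∈ pr a c b d := by simp [mem_pr]
  rw [heq, mem_pr] at this
  simp only [Sym2.eq_iff] at this
  rcases this with (⟨-, h⟩ | ⟨h, -⟩) | (⟨h, -⟩ | ⟨h, -⟩)
  · exact hcd h
  · exact had h
  · exact hab h
  · exact hac h

theorem pmSet_eq (a b c d : Fin n) (h : Q a b c d) :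
    pmSet {a, b, c, d} = {pr a b c d, pr a c b d, pr a d b c} := by
  ext F
  simp only [mem_insert, mem_singleton]
  constructor
  · exact mem_pmSet_cases a b c d h F
  · obtain ⟨hab, hac, had, hbc, hbd, hcd⟩ := h
    rintro (rfl | rfl | rfl)
    · exact pr_mem_pmSet a b c d ⟨hab, hac, had, hbc, hbd, hcd⟩
    · have : ({a, b, c, d} : Finset (Fin n)) = {a, c, b, d} := by
        ext t; simp only [mem_insert, mem_singleton]; tauto
      rw [this]
      exact pr_mem_pmSet a c b d ⟨hac, hab, had, hbc.symm, hcd, hbd⟩
    · have : ({a, b, c, d} : Finset (Fin n)) = {a, d, b, c} := by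
        ext t; simp only [mem_insert, mem_singleton]; tauto
      rw [this]
      exact pr_mem_pmSet a d b c ⟨had, hab, hac, hbd.symm, hcd.symm, hbc⟩

theorem card_pmSet {S : Finset (Fin n)} (hS : S.card = 4) : (pmSet S).card = 3 := by
  obtain ⟨a, b, c, d, hQ, rfl⟩ := exists_four hS
  rw [pmSet_eq a b c d hQ]
  exact card_eq_three.2 ⟨_, _, _, pr_ne1 a b c d hQ, pr_ne2 a b c d hQ, pr_ne3 a b c d hQ, rfl⟩

/-- degree of a matching -/
theorem deg_pm {S : Finset (Fin n)} {F : Finset (Edge n)} (hF : F ∈ pmSet S) (v : Fin n) :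
    deg F v = if v ∈ S then 1 else 0 := by
  rw [pmSet, mem_filter] at hF
  obtain ⟨-, h1, h2⟩ := hF
  split_ifs with hv
  · exact h2 v hv
  · rw [deg, card_eq_zero, filter_eq_empty_iff]
    intro e he hve
    exact hv (h1 e he v hve)

theorem deg_disjUnion {A B : Finset (Edge n)} (h : Disjoint A B) (v : Fin n) :
    deg (A ∪ B) v = deg A v + deg B v := by
  unfold deg
  rw [filter_union, card_union_of_disjoint]
  exact disjoint_filter_filter h

theorem deg_switchResult {S : Finset (Fin n)} {F F' : Finset (Edge n)} (hF : F ∈ pmSet S)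
    (hF' : F' ∈ pmSet S) (E : Finset (Edge n)) (v : Fin n) :
    deg (switchResult E F F') v = deg E v := by
  unfold switchResult
  split_ifs with h
  · obtain ⟨hFE, hdis⟩ := h
    have h1 : Disjoint (E \ F) F' :=
      Disjoint.mono_left sdiff_subset hdis.symm
    rw [deg_disjUnion h1, deg_pm hF', ← deg_pm hF]
    have h2 : Disjoint (E \ F) F := sdiff_disjoint
    rw [← deg_disjUnion h2, sdiff_union_of_subset hFE]
  · rfl

theorem switchResult_mem {d : Fin n → ℕ} {S : Finset (Fin n)} {F F' : Finset (Edge n)}
    (hF : F ∈ pmSet S) (hF' : F' ∈ pmSet S) {E : Finset (Edge n)} (hE : E ∈ realizations d) :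
    switchResult E F F' ∈ realizations d := by
  rw [realizations, mem_filter] at hE ⊢
  refine ⟨mem_univ _, fun v => ?_⟩
  rw [deg_switchResult hF hF', hE.2 v]

/-- summation over all proposals -/
def prSum (n : ℕ) (g : Finset (Edge n) → Finset (Edge n) → ℝ) : ℝ :=
  ∑ S ∈ (univ : Finset (Fin n)).powersetCard 4, ∑ F ∈ pmSet S, ∑ F' ∈ (pmSet S).erase F, g F F'

theorem prSum_const (c : ℝ) : prSum n (fun _ _ => c) = 6 * (n.choose 4 : ℝ) * c := by
  unfold prSum
  have : ∀ S ∈ (univ : Finset (Fin n)).powersetCard 4,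
      ∑ F ∈ pmSet S, ∑ _F' ∈ (pmSet S).erase F, c = 6 * c := by
    intro S hS
    rw [mem_powersetCard] at hS
    have h3 := card_pmSet hS.2
    have : ∀ F ∈ pmSet S, ∑ _F' ∈ (pmSet S).erase F, c = 2 * c := by
      intro F hF
      rw [sum_const, card_erase_of_mem hF, h3]
      simp
    rw [sum_congr rfl this, sum_const, h3]
    simp
    ring
  rw [sum_congr rfl this, sum_const, card_powersetCard, card_univ, Fintype.card_fin]
  simp
  ring

theorem prSum_mono {g g' : Finset (Edge n) → Finset (Edge n) → ℝ} (h : ∀ F F', g F F' ≤ g' F F') :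
    prSum n g ≤ prSum n g' := by
  unfold prSum
  gcongr
  exact h _ _

theorem prSum_congr {g g' : Finset (Edge n) → Finset (Edge n) → ℝ}
    (h : ∀ S, S.card = 4 → ∀ F ∈ pmSet S, ∀ F' ∈ pmSet S, F' ≠ F → g F F' = g' F F') :
    prSum n g = prSum n g' := by
  unfold prSum
  refine sum_congr rfl fun S hS => sum_congr rfl fun F hF => sum_congr rfl fun F' hF' => ?_
  rw [mem_powersetCard] at hS
  rw [mem_erase] at hF'
  exact h S hS.2 F hF F' hF'.2 hF'.1

theorem prSum_swap (g : Finset (Edge n) → Finset (Edge n) → ℝ) :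
    prSum n g = prSum n (fun F F' => g F' F) := by
  unfold prSum
  refine sum_congr rfl fun S _ => ?_
  rw [sum_comm' (s := pmSet S) (t := fun F => (pmSet S).erase F) (t' := pmSet S)
    (s' := fun F' => (pmSet S).erase F')]
  intro x y
  simp only [mem_erase]
  tauto

theorem prSum_add (g g' : Finset (Edge n) → Finset (Edge n) → ℝ) :
    prSum n (fun F F' => g F F' + g' F F') = prSum n g + prSum n g' := by
  unfold prSum
  simp only [sum_add_distrib]

theorem prSum_mul (c : ℝ) (g : Finset (Edge n) → Finset (Edge n) → ℝ) :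
    prSum n (fun F F' => c * g F F') = c * prSum n g := by
  unfold prSum
  simp only [mul_sum]

theorem prSum_sum {ι : Type*} (s : Finset ι) (g : ι → Finset (Edge n) → Finset (Edge n) → ℝ) :
    prSum n (fun F F' => ∑ i ∈ s, g i F F') = ∑ i ∈ s, prSum n (g i) := by
  unfold prSum
  rw [sum_comm]
  refine sum_congr rfl fun S _ => ?_
  rw [sum_comm]
  refine sum_congr rfl fun F _ => ?_
  rw [sum_comm]

theorem proposalCount_eq (E E' : Finset (Edge n)) :
    (proposalCount E E' : ℝ) = prSum n (fun F F' => if switchResult E F F' = E' then 1 else 0) := by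
  unfold proposalCount prSum
  push_cast
  rfl

theorem switchResult_symm {E E' F F' : Finset (Edge n)} (hne : E ≠ E')
    (h : switchResult E F F' = E') : switchResult E' F' F = E := by
  unfold switchResult at h
  split_ifs at h with hc
  · obtain ⟨hFE, hdis⟩ := hc
    have hFF' : Disjoint F F' := Disjoint.mono_left hFE hdis.symm
    have hc' : F' ⊆ E' ∧ Disjoint F E' := by
      constructor
      · rw [← h]; exact subset_union_right
      · rw [← h, disjoint_union_right]
        exact ⟨disjoint_sdiff, hFF'⟩
    unfold switchResult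
    rw [if_pos hc', ← h]
    ext e
    have h1 : e ∈ F → e ∈ E := fun h => hFE h
    have h2 : e ∈ F' → e ∉ E := fun h h' => (disjoint_left.1 hdis h) h'
    simp only [mem_union, mem_sdiff]
    tauto
  · exact absurd h hne

theorem proposalCount_symm (E E' : Finset (Edge n)) : proposalCount E E' = proposalCount E' E := by
  by_cases hne : E = E'
  · rw [hne]
  have : (proposalCount E E' : ℝ) = (proposalCount E' E : ℝ) := by
    rw [proposalCount_eq, proposalCount_eq, prSum_swap]
    refine prSum_congr fun S hS F hF F' hF' hFF' => ?_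
    have : (switchResult E F' F = E') ↔ (switchResult E' F F' = E) :=
      ⟨switchResult_symm hne, switchResult_symm (Ne.symm hne)⟩
    simp only [this]
  exact_mod_cast this

theorem kernel_symm (E E' : Finset (Edge n)) : kernel n E E' = kernel n E' E := by
  unfold kernel
  rw [proposalCount_symm E E']
  simp only [eq_comm]

theorem kernel_nonneg (E E' : Finset (Edge n)) : 0 ≤ kernel n E E' := by
  unfold kernel
  positivity

/-- the action of the proposals on functions -/
theorem sum_proposalCount_mul (d : Fin n → ℕ) {E : Finset (Edge n)} (hE : E ∈ realizations d)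
    (f : Finset (Edge n) → ℝ) :
    ∑ E' ∈ realizations d, (proposalCount E E' : ℝ) * f E' =
      prSum n (fun F F' => f (switchResult E F F')) := by
  have : ∀ E' ∈ realizations d, (proposalCount E E' : ℝ) * f E' =
      prSum n (fun F F' => f E' * (if switchResult E F F' = E' then 1 else 0)) := by
    intro E' _
    rw [prSum_mul, ← proposalCount_eq]
    ring
  rw [sum_congr rfl this, ← prSum_sum]
  refine prSum_congr fun S hS F hF F' hF' hFF' => ?_
  have hmem := switchResult_mem (d := d) hF hF' hE
  simp only [mul_ite, mul_one, mul_zero]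
  rw [sum_ite_eq]
  simp [hmem]

/-- the number of all proposals -/
theorem sum_kernel_mul (hn : 4 ≤ n) (d : Fin n → ℕ) {E : Finset (Edge n)} (hE : E ∈ realizations d)
    (f : Finset (Edge n) → ℝ) :
    ∑ E' ∈ realizations d, kernel n E E' * f E' =
      1 / 2 * f E + prSum n (fun F F' => f (switchResult E F F')) / (12 * (n.choose 4 : ℝ)) := by
  rw [← sum_proposalCount_mul d hE, sum_div]
  unfold kernel
  simp only [add_mul, sum_add_distrib]
  congr 1
  · simp only [ite_mul, zero_mul]
    rw [sum_ite_eq]
    simp [hE]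
  · refine sum_congr rfl fun E' _ => by ring

theorem choose_pos' (hn : 4 ≤ n) : (0 : ℝ) < (n.choose 4 : ℝ) := by
  exact_mod_cast Nat.choose_pos hn

/-- row sums -/
theorem sum_kernel (hn : 4 ≤ n) (d : Fin n → ℕ) {E : Finset (Edge n)} (hE : E ∈ realizations d) :
    ∑ E' ∈ realizations d, kernel n E E' = 1 := by
  have h := sum_kernel_mul hn d hE (fun _ => 1)
  simp only [mul_one] at h
  rw [h, prSum_const]
  have := choose_pos' hn
  field_simp
  norm_num

/-- no transitions from realizations of `d` to others -/
theorem kernel_eq_zero (d : Fin n → ℕ) {E E' : Finset (Edge n)} (hE : E ∈ realizations d)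
    (hE' : E' ∉ realizations d) : kernel n E E' = 0 := by
  have hne : E ≠ E' := fun h => hE' (h ▸ hE)
  have : (proposalCount E E' : ℝ) = 0 := by
    rw [proposalCount_eq]
    have : prSum n (fun F F' => if switchResult E F F' = E' then (1 : ℝ) else 0) =
        prSum n (fun _ _ => 0) := by
      refine prSum_congr fun S hS F hF F' hF' hFF' => ?_
      have hmem := switchResult_mem (d := d) hF hF' hE
      rw [if_neg]
      rintro rfl
      exact hE' hmem
    rw [this, prSum_const]
    simp
  unfold kernel
  rw [if_neg hne, this]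
  simp

/-- Dirichlet form identity: `∑_{E ∈ Ω} ∑_{proposals} (f E - f E')^2 = 24 C(n,4) ⟨f, (1-K) f⟩`. -/
theorem dirichlet (hn : 4 ≤ n) (d : Fin n → ℕ) (f : Finset (Edge n) → ℝ) :
    ∑ E ∈ realizations d, prSum n (fun F F' => (f E - f (switchResult E F F')) ^ 2) =
      24 * (n.choose 4 : ℝ) * ∑ E ∈ realizations d,
        f E * (f E - ∑ E' ∈ realizations d, kernel n E E' * f E') := by
  have hpos := choose_pos' hn
  have h1 : ∀ E ∈ realizations d,
      f E * (f E - ∑ E' ∈ realizations d, kernel n E E' * f E') =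
        1 / 2 * f E ^ 2 - f E * prSum n (fun F F' => f (switchResult E F F')) /
          (12 * (n.choose 4 : ℝ)) := by
    intro E hE
    rw [sum_kernel_mul hn d hE]
    ring
  rw [sum_congr rfl h1]
  have h2 : ∀ E ∈ realizations d,
      prSum n (fun F F' => (f E - f (switchResult E F F')) ^ 2) =
        6 * (n.choose 4 : ℝ) * f E ^ 2 + -2 * f E * prSum n (fun F F' => f (switchResult E F F')) +
          prSum n (fun F F' => f (switchResult E F F') ^ 2) := by
    intro E _
    rw [← prSum_const, ← prSum_mul, ← prSum_add, ← prSum_add]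
    refine prSum_congr fun S hS F hF F' hF' hFF' => ?_
    ring
  rw [sum_congr rfl h2]
  have h3 : ∑ E ∈ realizations d, prSum n (fun F F' => f (switchResult E F F') ^ 2) =
      ∑ E ∈ realizations d, 6 * (n.choose 4 : ℝ) * f E ^ 2 := by
    have h4 : ∀ E ∈ realizations d, prSum n (fun F F' => f (switchResult E F F') ^ 2) =
        ∑ E' ∈ realizations d, (proposalCount E E' : ℝ) * f E' ^ 2 := by
      intro E hE
      rw [sum_proposalCount_mul d hE (fun E' => f E' ^ 2)]
    rw [sum_congr rfl h4, sum_comm]
    refine sum_congr rfl fun E hE => ?_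
    rw [← sum_mul]
    congr 1
    have h5 := sum_proposalCount_mul d hE (fun _ => 1)
    simp only [mul_one] at h5
    rw [prSum_const] at h5
    rw [← mul_one (6 * (n.choose 4 : ℝ)), ← h5]
    refine sum_congr rfl fun E' _ => ?_
    rw [proposalCount_symm]
  rw [sum_add_distrib, sum_add_distrib, h3, sum_sub_distrib, mul_sub, mul_sum, mul_sum,
    ← sum_add_distrib, ← sum_add_distrib, ← sum_sub_distrib]
  refine sum_congr rfl fun E _ => ?_
  field_simp
  ring

end Crest.Agent.R299.Kern
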