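import Crest.Agent.R299.Avg

/-!
Row 299 (S0453): spectral lemmas for symmetric operators on `α → ℝ`.
-/

set_option autoImplicit false
open Finset

namespace Crest.Agent.R299

open scoped InnerProductSpace

variable {α : Type*} [Fintype α]

theorem inner_toLp (f g : α → ℝ) :
    ⟪(WithLp.toLp 2 f : EuclideanSpace ℝ α), WithLp.toLp 2 g⟫_ℝ = ip f g := by
  rw [PiLp.inner_apply]
  unfold ip
  refine Finset.sum_congr rfl fun x _ => ?_
  simp [mul_comm]

/-- diagonalisation of a symmetric operator -/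
theorem exists_eigenbasis (T : (α → ℝ) →ₗ[ℝ] (α → ℝ))
    (hsymm : ∀ f g, ip (T f) g = ip f (T g)) :
    ∃ (n : ℕ) (b : Fin n → (α → ℝ)) (μ : Fin n → ℝ), (∀ i, b i ≠ 0) ∧ (∀ i, T (b i) = μ i • b i) ∧
      ∀ f g, ip f g = ∑ i, ip (b i) f * ip (b i) g := by
  classical
  let e : (α → ℝ) ≃ₗ[ℝ] EuclideanSpace ℝ α := (WithLp.linearEquiv 2 ℝ (α → ℝ)).symm
  have he : ∀ f g, ⟪e f, e g⟫_ℝ = ip f g := fun f g => inner_toLp f g
  let T' : EuclideanSpace ℝ α →ₗ[ℝ] EuclideanSpace ℝ α :=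
    e.toLinearMap ∘ₗ T ∘ₗ e.symm.toLinearMap
  have hT' : T'.IsSymmetric := by
    intro x y
    obtain ⟨f, rfl⟩ := e.surjective x
    obtain ⟨g, rfl⟩ := e.surjective y
    show ⟪e (T (e.symm (e f))), e g⟫_ℝ = ⟪e f, e (T (e.symm (e g)))⟫_ℝ
    rw [e.symm_apply_apply, e.symm_apply_apply, he, he, hsymm]
  let B := hT'.eigenvectorBasis (n := Module.finrank ℝ (EuclideanSpace ℝ α)) rfl
  refine ⟨Module.finrank ℝ (EuclideanSpace ℝ α), fun i => e.symm (B i),
    fun i => hT'.eigenvalues rfl i, ?_, ?_, ?_⟩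
  · intro i h
    have h1 : B i = 0 := by
      have := congrArg e h
      simpa using this
    exact B.toBasis.ne_zero i (by simpa using h1)
  · intro i
    have h1 := hT'.apply_eigenvectorBasis rfl i
    have h2 : e (T (e.symm (B i))) = (hT'.eigenvalues rfl i : ℝ) • B i := h1
    have h3 := congrArg e.symm h2
    rw [e.symm_apply_apply, map_smul] at h3
    exact h3
  · intro f g
    have h1 := B.sum_inner_mul_inner (e f) (e g)
    rw [← he f g, ← h1]
    refine Finset.sum_congr rfl fun i _ => ?_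
    rw [← he (e.symm (B i)) f, ← he (e.symm (B i)) g, e.apply_symm_apply,
      real_inner_comm (e f) (B i)]

theorem ip_T_eig {n : ℕ} {b : Fin n → (α → ℝ)} {μ : Fin n → ℝ} {T : (α → ℝ) →ₗ[ℝ] (α → ℝ)}
    (hsymm : ∀ f g, ip (T f) g = ip f (T g)) (hT : ∀ i, T (b i) = μ i • b i) (f : α → ℝ)
    (i : Fin n) : ip (b i) (T f) = μ i * ip (b i) f := by
  rw [← hsymm, hT]
  exact ip_smul_left (μ i) (b i) f

theorem ip_self_pos {h : α → ℝ} (hh : h ≠ 0) : 0 < ip h h := by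
  refine lt_of_le_of_ne (ip_self_nonneg h) (fun h0 => hh ?_)
  funext x
  exact ip_self_eq_zero h0.symm x

theorem spectral1 (T : (α → ℝ) →ₗ[ℝ] (α → ℝ))
    (hsymm : ∀ f g, ip (T f) g = ip f (T g))
    (heig : ∀ (μ : ℝ) (h : α → ℝ), h ≠ 0 → T h = μ • h → μ ≤ μ ^ 2) (f : α → ℝ) :
    ip f (T f) ≤ ip (T f) (T f) := by
  obtain ⟨n, b, μ, hb, hT, hip⟩ := exists_eigenbasis T hsymm
  rw [hip f (T f), hip (T f) (T f)]
  refine Finset.sum_le_sum fun i _ => ?_
  rw [ip_T_eig hsymm hT]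
  have h1 := heig (μ i) (b i) (hb i) (hT i)
  nlinarith [sq_nonneg (ip (b i) f), mul_le_mul_of_nonneg_right h1 (sq_nonneg (ip (b i) f))]

theorem spectral2 (T : (α → ℝ) →ₗ[ℝ] (α → ℝ))
    (hsymm : ∀ f g, ip (T f) g = ip f (T g)) (hpos : ∀ f, 0 ≤ ip f (T f)) (c : ℝ)
    (hc : ∀ f, c * ip f (T f) ≤ ip (T f) (T f)) (f : α → ℝ)
    (hf : ∀ g, T g = 0 → ip f g = 0) :
    c * ip f f ≤ ip f (T f) := by
  obtain ⟨n, b, μ, hb, hT, hip⟩ := exists_eigenbasis T hsymm
  rw [hip f f, hip f (T f), Finset.mul_sum]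
  refine Finset.sum_le_sum fun i _ => ?_
  rw [ip_T_eig hsymm hT]
  have hbb := ip_self_pos (hb i)
  have h0 : 0 ≤ μ i := by
    have h1 := hpos (b i)
    rw [ip_T_eig hsymm hT] at h1
    by_contra hneg
    push Not at hneg
    have := mul_neg_of_neg_of_pos hneg hbb
    linarith
  have h2 : c * μ i ≤ μ i ^ 2 := by
    have h1 := hc (b i)
    rw [ip_T_eig hsymm hT, hT i] at h1
    have e1 : ip (μ i • b i) (μ i • b i) = μ i * (μ i * ip (b i) (b i)) := by
      show ip (fun x => μ i * b i x) (fun x => μ i * b i x) = _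
      rw [ip_smul_left, ip_smul_right]
    rw [e1] at h1
    by_contra hlt
    push Not at hlt
    nlinarith [mul_lt_mul_of_pos_right hlt hbb]
  rcases h0.eq_or_lt with h3 | h3
  · have h4 : T (b i) = 0 := by rw [hT, ← h3, zero_smul]
    have h5 := hf (b i) h4
    rw [ip_comm] at h5
    rw [h5]; simp
  · have h6 : c ≤ μ i := by
      by_contra hlt
      push Not at hlt
      nlinarith [mul_lt_mul_of_pos_right hlt h3]
    nlinarith [mul_le_mul_of_nonneg_right h6 (sq_nonneg (ip (b i) f))]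

end Crest.Agent.R299
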