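import Crest.Agent.R299.Mat3d
import Crest.Agent.R299.Spectral

/-!
Row 299 (S0453): the 3-row lemma `mat3`.
-/

set_option autoImplicit false
set_option linter.unusedSectionVars false
set_option linter.unusedVariables false
open Finset

namespace Crest.Agent.R299

section matrices
variable {T : Type*} [Fintype T] [DecidableEq T]

/-- `∑_i (1 - E_i)` as a linear map -/
noncomputable def KM (T : Type*) [Fintype T] [DecidableEq T] :
    (Mat T → ℝ) →ₗ[ℝ] (Mat T → ℝ) :=
  ∑ i : Fin 3, (LinearMap.id - avgL (mrel (T := T) i))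

theorem KM_apply (h : Mat T → ℝ) : KM T h = fun M => ∑ i, PM i h M := by
  funext M
  simp [KM, PM, LinearMap.sum_apply, Finset.sum_apply]

theorem ip_PM_self (i : Fin 3) (h : Mat T → ℝ) : ip h (PM i h) = ip (PM i h) (PM i h) :=
  ip_sub_avg_self (mrel_equiv i) h

theorem ip_PM_symm (i : Fin 3) (f g : Mat T → ℝ) : ip (PM i f) g = ip f (PM i g) := by
  unfold PM
  rw [ip_sub_left f, ip_sub_right, ip_avg_left (mrel_equiv i)]

theorem ip_KM_symm (f g : Mat T → ℝ) : ip (KM T f) g = ip f (KM T g) := by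
  rw [KM_apply, KM_apply, ip_sum_left, ip_sum_right]
  exact Finset.sum_congr rfl fun i _ => ip_PM_symm i f g

theorem ip_KM_self_nonneg (h : Mat T → ℝ) : 0 ≤ ip h (KM T h) := by
  rw [KM_apply, ip_sum_right]
  exact Finset.sum_nonneg fun i _ => by rw [ip_PM_self]; exact ip_self_nonneg _

theorem KM_eig (κ : ℝ) (h : Mat T → ℝ) (hne : h ≠ 0) (hh : KM T h = κ • h) : κ ≤ κ ^ 2 := by
  by_contra hlt
  push Not at hlt
  have h0 : 0 < κ := by
    by_contra h'
    push Not at h'
    nlinarith [sq_nonneg κ]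
  have h1 : κ < 1 := by
    by_contra h'
    push Not at h'
    nlinarith
  have hμ : (2 : ℝ) < 3 - κ := by linarith
  have heig : ∀ M, ∑ i, avg (mrel i) h M = (3 - κ) * h M := by
    intro M
    have e1 := congrFun hh M
    rw [KM_apply] at e1
    simp only [PM, Finset.sum_sub_distrib, Finset.sum_const, Finset.card_univ, Fintype.card_fin,
      Pi.smul_apply, smul_eq_mul, nsmul_eq_mul] at e1
    push_cast at e1
    linarith
  have hT := tswap_inv_of_eig hμ heig
  have hmix := mix_inv_of_eig hμ heig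
  have hinv : ∀ a, avg (mrel a) h = h := fun a =>
    avg_eq_self_of_inv hT (fun a b c k l M N hR hM => hmix a b c k l M N hR hM) a
  apply hne
  funext M
  have e2 := heig M
  simp only [hinv, Finset.sum_const, Finset.card_univ, Fintype.card_fin, nsmul_eq_mul] at e2
  push_cast at e2
  have e3 : κ * h M = 0 := by linarith
  rcases mul_eq_zero.1 e3 with h' | h'
  · exact absurd h' h0.ne'
  · exact h'

theorem mat3 (h : Mat T → ℝ) :
    0 ≤ ip (PM 0 h) (PM 1 h) + ip (PM 0 h) (PM 2 h) + ip (PM 1 h) (PM 2 h) := by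
  have key := spectral1 (KM T) ip_KM_symm KM_eig h
  rw [KM_apply] at key
  have e1 : ip h (fun M => ∑ i, PM i h M) =
      ip (PM 0 h) (PM 0 h) + ip (PM 1 h) (PM 1 h) + ip (PM 2 h) (PM 2 h) := by
    rw [ip_sum_right, Fin.sum_univ_three, ip_PM_self, ip_PM_self, ip_PM_self]
  have e2 : ip (fun M => ∑ i, PM i h M) (fun M => ∑ i, PM i h M) =
      ip (PM 0 h) (PM 0 h) + ip (PM 1 h) (PM 1 h) + ip (PM 2 h) (PM 2 h) +
      2 * (ip (PM 0 h) (PM 1 h) + ip (PM 0 h) (PM 2 h) + ip (PM 1 h) (PM 2 h)) := by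
    rw [ip_sum_left, Fin.sum_univ_three, ip_sum_right, ip_sum_right, ip_sum_right,
      Fin.sum_univ_three, Fin.sum_univ_three, Fin.sum_univ_three, ip_comm (PM 1 h) (PM 0 h),
      ip_comm (PM 2 h) (PM 0 h), ip_comm (PM 2 h) (PM 1 h)]
    ring
  rw [e1, e2] at key
  linarith

end matrices

end Crest.Agent.R299
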