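import Crest.Agent.R299.Rel
import Crest.Agent.R299.Mat3

/-!
Row 299 (S0453): transfer of the 3-row matrix lemma `mat3` to graphs (lens on three vertices).
-/

set_option autoImplicit false
set_option linter.unusedSectionVars false
set_option linter.unusedVariables false
set_option linter.unusedSimpArgs false
open Finset

namespace Crest.Agent.R299

namespace Lens3

variable {V : Type*} [Fintype V] [DecidableEq V]

/-- vertices outside of the three special ones -/
abbrev Y (U : Fin 3 → V) := {y : V // ∀ i, y ≠ U i}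

/-- index type of the columns -/
abbrev TT (U : Fin 3 → V) := Option (Y U)

open Classical in
/-- classification of the vertices -/
noncomputable def toS (U : Fin 3 → V) (p : V) : Fin 3 ⊕ Y U :=
  if h : ∃ i, p = U i then Sum.inl h.choose else Sum.inr ⟨p, fun i hi => h ⟨i, hi⟩⟩

theorem toS_U {U : Fin 3 → V} (hU : Function.Injective U) (i : Fin 3) :
    toS U (U i) = Sum.inl i := by
  have h : ∃ j, U i = U j := ⟨i, rfl⟩
  unfold toS
  rw [dif_pos h]
  congr 1
  exact (hU h.choose_spec).symm

theorem toS_Y {U : Fin 3 → V} (y : Y U) : toS U (y : V) = Sum.inr y := by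
  unfold toS
  rw [dif_neg]
  rintro ⟨i, hi⟩
  exact y.2 i hi

theorem cases_U (U : Fin 3 → V) (p : V) : (∃ i, p = U i) ∨ ∃ y : Y U, p = y := by
  by_cases h : ∃ i, p = U i
  · exact Or.inl h
  · exact Or.inr ⟨⟨p, fun i hi => h ⟨i, hi⟩⟩, rfl⟩

/-- adjacency on the sum type -/
def adjS {U : Fin 3 → V} (G : Gr V) (M : Mat (TT U)) : Fin 3 ⊕ Y U → Fin 3 ⊕ Y U → Bool
  | Sum.inl i, Sum.inl j => if i = j then false else !(M none (-(i + j)))
  | Sum.inl i, Sum.inr y => M (some y) i
  | Sum.inr y, Sum.inl i => M (some y) i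
  | Sum.inr y, Sum.inr y' => G y y'

/-- put the matrix `M` into the graph `G` -/
noncomputable def updM {U : Fin 3 → V} (G : Gr V) (M : Mat (TT U)) : Gr V where
  adj p q := adjS G M (toS U p) (toS U q)
  symm p q := by
    cases toS U p with
    | inl i =>
      cases toS U q with
      | inl j => simp only [adjS, eq_comm, add_comm]
      | inr y => simp only [adjS]
    | inr y =>
      cases toS U q with
      | inl j => simp only [adjS]
      | inr y' => simp only [adjS]; exact G.symm _ _
  irr p := by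
    cases toS U p with
    | inl i => simp only [adjS, if_true]
    | inr y => simp only [adjS]; exact G.irr _

/-- read the matrix off the graph -/
def getM (U : Fin 3 → V) (G : Gr V) : Mat (TT U)
  | some y, i => G (U i) y
  | none, i => !(G (U (i + 1)) (U (i + 2)))

section
variable {U : Fin 3 → V}

theorem updM_UU (hU : Function.Injective U) (G : Gr V) (M : Mat (TT U)) (i j : Fin 3) :
    updM G M (U i) (U j) = if i = j then false else !(M none (-(i + j))) := by
  show adjS G M (toS U (U i)) (toS U (U j)) = _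
  rw [toS_U hU, toS_U hU]
  rfl

theorem updM_UY (hU : Function.Injective U) (G : Gr V) (M : Mat (TT U)) (i : Fin 3) (y : Y U) :
    updM G M (U i) y = M (some y) i := by
  show adjS G M (toS U (U i)) (toS U y) = _
  rw [toS_U hU, toS_Y]
  rfl

theorem updM_YU (hU : Function.Injective U) (G : Gr V) (M : Mat (TT U)) (i : Fin 3) (y : Y U) :
    updM G M y (U i) = M (some y) i := by
  show adjS G M (toS U y) (toS U (U i)) = _
  rw [toS_U hU, toS_Y]
  rfl

theorem updM_YY (G : Gr V) (M : Mat (TT U)) (y y' : Y U) :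
    updM G M (y : V) (y' : V) = G y y' := by
  show adjS G M (toS U y) (toS U y') = _
  rw [toS_Y, toS_Y]
  rfl

theorem getM_updM (hU : Function.Injective U) (G : Gr V) (M : Mat (TT U)) :
    getM U (updM G M) = M := by
  funext t i
  cases t with
  | some y => exact updM_UY hU G M i y
  | none =>
    show (!(updM G M (U (i + 1)) (U (i + 2)))) = M none i
    rw [updM_UU hU, if_neg (by revert i; decide), Bool.not_not]
    congr 1
    revert i; decide

/-- two graphs which agree outside of the three rows -/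
theorem updM_eq (hU : Function.Injective U) (G K : Gr V)
    (h : ∀ y y' : Y U, G y y' = K y y') : updM G (getM U K) = K := by
  ext p q
  rcases cases_U U p with ⟨i, rfl⟩ | ⟨y, rfl⟩
  · rcases cases_U U q with ⟨j, rfl⟩ | ⟨y', rfl⟩
    · rw [updM_UU hU]
      by_cases hij : i = j
      · subst hij; rw [if_pos rfl, K.irr]
      · rw [if_neg hij]
        show (!!(K (U (-(i + j) + 1)) (U (-(i + j) + 2)))) = K (U i) (U j)
        rw [Bool.not_not]
        have hcase : (-(i + j) + 1 = i ∧ -(i + j) + 2 = j) ∨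
            (-(i + j) + 1 = j ∧ -(i + j) + 2 = i) := by
          revert i j; decide
        rcases hcase with ⟨h1, h2⟩ | ⟨h1, h2⟩
        · rw [h1, h2]
        · rw [h1, h2]; exact K.symm _ _
    · rw [updM_UY hU]; rfl
  · rcases cases_U U q with ⟨j, rfl⟩ | ⟨y', rfl⟩
    · rw [updM_YU hU]; exact K.symm _ _
    · rw [updM_YY]; exact h y y'

theorem updM_getM (hU : Function.Injective U) (G : Gr V) : updM G (getM U G) = G :=
  updM_eq hU G G fun _ _ => rfl

theorem updM_updM (hU : Function.Injective U) (G : Gr V) (M N : Mat (TT U)) :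
    updM (updM G M) N = updM G N := by
  have h := updM_eq hU (updM G M) (updM G N) (fun y y' => by rw [updM_YY, updM_YY])
  rwa [getM_updM hU] at h

theorem updM_inj (hU : Function.Injective U) (G : Gr V) :
    Function.Injective (fun M : Mat (TT U) => updM G M) := by
  intro M N h
  have h' : updM G M = updM G N := h
  rw [← getM_updM hU G M, h', getM_updM hU]

/-! ### degrees -/

theorem sum_split3 (hU : Function.Injective U) {A : Type*} [AddCommMonoid A] (F : V → A) :
    ∑ p, F p = ∑ i, F (U i) + ∑ y : Y U, F y := by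
  classical
  rw [← Finset.sum_add_sum_compl (univ.image U) F]
  congr 1
  · rw [Finset.sum_image (fun a _ b _ h => hU h)]
  · refine Finset.sum_subtype _ (fun x => ?_) F
    simp only [mem_compl, mem_image, mem_univ, true_and, not_exists]
    exact ⟨fun h i hi => h i hi.symm, fun h i hi => h i hi.symm⟩

/-- inner edge opposite to `i` -/
def ed (U : Fin 3 → V) (H : Gr V) (i : Fin 3) : ℕ := (H (U (i + 1)) (U (i + 2))).toNat

/-- outer degree of `U i` -/
def od (U : Fin 3 → V) (H : Gr V) (i : Fin 3) : ℕ := ∑ y : Y U, (H (U i) y).toNat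

theorem ed_le (H : Gr V) (i : Fin 3) : ed U H i ≤ 1 := by
  unfold ed; cases H (U (i + 1)) (U (i + 2)) <;> simp

theorem deg_U (hU : Function.Injective U) (H : Gr V) (i : Fin 3) :
    deg H (U i) = ed U H (i + 1) + ed U H (i + 2) + od U H i := by
  unfold deg ed od
  rw [sum_split3 hU]
  congr 1
  rw [Fin.sum_univ_three]
  fin_cases i
  · show (H (U 0) (U 0)).toNat + (H (U 0) (U 1)).toNat + (H (U 0) (U 2)).toNat =
      (H (U 2) (U 0)).toNat + (H (U 0) (U 1)).toNat
    rw [H.irr, H.symm (U 2) (U 0), Bool.toNat_false]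
    ring
  · show (H (U 1) (U 0)).toNat + (H (U 1) (U 1)).toNat + (H (U 1) (U 2)).toNat =
      (H (U 0) (U 1)).toNat + (H (U 1) (U 2)).toNat
    rw [H.irr, H.symm (U 1) (U 0), Bool.toNat_false]
    ring
  · show (H (U 2) (U 0)).toNat + (H (U 2) (U 1)).toNat + (H (U 2) (U 2)).toNat =
      (H (U 1) (U 2)).toNat + (H (U 2) (U 0)).toNat
    rw [H.irr, H.symm (U 2) (U 1), Bool.toNat_false]
    ring

theorem deg_Y (hU : Function.Injective U) (H : Gr V) (y : Y U) :
    deg H (y : V) = ∑ i, (H (U i) y).toNat + ∑ y' : Y U, (H y y').toNat := by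
  unfold deg
  rw [sum_split3 hU]
  congr 1
  exact Finset.sum_congr rfl fun i _ => by rw [H.symm]

theorem rsum_getM (H : Gr V) (i : Fin 3) :
    rsum (getM U H) i + ed U H i = 1 + od U H i := by
  unfold rsum ed od
  rw [Fintype.sum_option]
  show (!(H (U (i + 1)) (U (i + 2)))).toNat + ∑ y : Y U, (H (U i) y).toNat + _ = _
  cases H (U (i + 1)) (U (i + 2)) <;> simp <;> ring

theorem csum_none (H : Gr V) :
    csum (getM U H) none + (ed U H 0 + ed U H 1 + ed U H 2) = 3 := by
  unfold csum ed
  rw [Fin.sum_univ_three]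
  show (!(H (U (0 + 1)) (U (0 + 2)))).toNat + (!(H (U (1 + 1)) (U (1 + 2)))).toNat +
    (!(H (U (2 + 1)) (U (2 + 2)))).toNat + _ = _
  cases H (U (0 + 1)) (U (0 + 2)) <;> cases H (U (1 + 1)) (U (1 + 2)) <;>
    cases H (U (2 + 1)) (U (2 + 2)) <;> rfl

theorem csum_some (H : Gr V) (y : Y U) :
    csum (getM U H) (some y) = ∑ i, (H (U i) y).toNat := rfl

theorem fin3_ne1 : ∀ i : Fin 3, i + 1 ≠ i + 2 := by decide
theorem fin3_ne2 : ∀ i : Fin 3, i ≠ i + 1 := by decide
theorem fin3_ne3 : ∀ i : Fin 3, i ≠ i + 2 := by decide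
theorem fin3_cases : ∀ i j : Fin 3, j = i ∨ j = i + 1 ∨ j = i + 2 := by decide

/-- the key characterisation -/
theorem rel_iff (hU : Function.Injective U) (i : Fin 3) (H K : Gr V) :
    rel (U (i + 1)) (U (i + 2)) H K ↔
      (∀ y y' : Y U, H y y' = K y y') ∧ mrel i (getM U H) (getM U K) := by
  have hne : U (i + 1) ≠ U (i + 2) := fun h => fin3_ne1 i (hU h)
  have hi1 : U i ≠ U (i + 1) := fun h => fin3_ne2 i (hU h)
  have hi2 : U i ≠ U (i + 2) := fun h => fin3_ne3 i (hU h)
  rw [rel_iff_deg hne]
  constructor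
  · rintro ⟨h1, h2, h3⟩
    have hYY : ∀ y y' : Y U, H y y' = K y y' := fun y y' =>
      h1 y y' (y.2 _) (y.2 _) (y'.2 _) (y'.2 _)
    have hi : ∀ y : Y U, H (U i) y = K (U i) y := fun y =>
      h1 (U i) y hi1 hi2 (y.2 _) (y.2 _)
    have hod : od U H i = od U K i := by
      unfold od; exact Finset.sum_congr rfl fun y _ => by rw [hi]
    have hed : ed U H i = ed U K i := by unfold ed; rw [h2]
    have d0 := h3 (U 0)
    have d1 := h3 (U 1)
    have d2 := h3 (U 2)
    rw [deg_U hU, deg_U hU] at d0 d1 d2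
    have e0 : ∀ H : Gr V, ed U H (0 + 1) = ed U H 1 := fun _ => rfl
    have e1 : ∀ H : Gr V, ed U H (0 + 2) = ed U H 2 := fun _ => rfl
    have e2 : ∀ H : Gr V, ed U H (1 + 1) = ed U H 2 := fun _ => rfl
    have e3 : ∀ H : Gr V, ed U H (1 + 2) = ed U H 0 := fun _ => rfl
    have e4 : ∀ H : Gr V, ed U H (2 + 1) = ed U H 0 := fun _ => rfl
    have e5 : ∀ H : Gr V, ed U H (2 + 2) = ed U H 1 := fun _ => rfl
    rw [e0, e1, e0, e1] at d0
    rw [e2, e3, e2, e3] at d1
    rw [e4, e5, e4, e5] at d2
    have hsum : ed U H 0 + ed U H 1 + ed U H 2 = ed U K 0 + ed U K 1 + ed U K 2 := by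
      fin_cases i
      · simp only [Fin.zero_eta, Fin.mk_one, Fin.reduceFinMk] at hod hed
        omega
      · simp only [Fin.zero_eta, Fin.mk_one, Fin.reduceFinMk] at hod hed
        omega
      · simp only [Fin.zero_eta, Fin.mk_one, Fin.reduceFinMk] at hod hed
        omega
    refine ⟨hYY, ?_, ?_, ?_⟩
    · intro t
      cases t with
      | some y => exact hi y
      | none => show (!(H (U (i + 1)) (U (i + 2)))) = !(K (U (i + 1)) (U (i + 2))); rw [h2]
    · intro t
      cases t with
      | some y =>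
        rw [csum_some, csum_some]
        have := h3 (y : V)
        rw [deg_Y hU, deg_Y hU] at this
        have h5 : ∑ y' : Y U, (H y y').toNat = ∑ y' : Y U, (K y y').toNat :=
          Finset.sum_congr rfl fun y' _ => by rw [hYY]
        omega
      | none =>
        have h4 := csum_none (U := U) H
        have h5 := csum_none (U := U) K
        omega
    · intro j
      have h4 := rsum_getM (U := U) H j
      have h5 := rsum_getM (U := U) K j
      fin_cases j
      · simp only [Fin.zero_eta, Fin.mk_one, Fin.reduceFinMk] at h4 h5 ⊢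
        omega
      · simp only [Fin.zero_eta, Fin.mk_one, Fin.reduceFinMk] at h4 h5 ⊢
        omega
      · simp only [Fin.zero_eta, Fin.mk_one, Fin.reduceFinMk] at h4 h5 ⊢
        omega
  · rintro ⟨hYY, hi', hc, hr⟩
    have hi : ∀ y : Y U, H (U i) y = K (U i) y := fun y => hi' (some y)
    have h2 : H (U (i + 1)) (U (i + 2)) = K (U (i + 1)) (U (i + 2)) := by
      have : (!(H (U (i + 1)) (U (i + 2)))) = !(K (U (i + 1)) (U (i + 2))) := hi' none
      simpa using this
    have hcn := hc none
    have h4 := csum_none (U := U) H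
    have h5 := csum_none (U := U) K
    refine ⟨?_, h2, ?_⟩
    · -- entries
      have hout : ∀ p, p ≠ U (i + 1) → p ≠ U (i + 2) → p = U i ∨ ∃ y : Y U, p = y := by
        intro p hp1 hp2
        rcases cases_U U p with ⟨j, rfl⟩ | h
        · left
          have : j = i ∨ j = i + 1 ∨ j = i + 2 := fin3_cases i j
          rcases this with rfl | rfl | rfl
          · rfl
          · exact absurd rfl hp1
          · exact absurd rfl hp2
        · exact Or.inr h
      intro x y hx1 hx2 hy1 hy2
      rcases hout x hx1 hx2 with rfl | ⟨x', rfl⟩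
      · rcases hout y hy1 hy2 with rfl | ⟨y', rfl⟩
        · rw [H.irr, K.irr]
        · exact hi y'
      · rcases hout y hy1 hy2 with rfl | ⟨y', rfl⟩
        · rw [H.symm, K.symm]; exact hi x'
        · exact hYY x' y'
    · intro y
      rcases cases_U U y with ⟨j, rfl⟩ | ⟨y', rfl⟩
      · rw [deg_U hU, deg_U hU]
        have h6 := rsum_getM (U := U) H j
        have h7 := rsum_getM (U := U) K j
        have h8 := hr j
        have e0 : ∀ H : Gr V, ed U H (0 + 1) = ed U H 1 := fun _ => rfl
        have e1 : ∀ H : Gr V, ed U H (0 + 2) = ed U H 2 := fun _ => rfl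
        have e2 : ∀ H : Gr V, ed U H (1 + 1) = ed U H 2 := fun _ => rfl
        have e3 : ∀ H : Gr V, ed U H (1 + 2) = ed U H 0 := fun _ => rfl
        have e4 : ∀ H : Gr V, ed U H (2 + 1) = ed U H 0 := fun _ => rfl
        have e5 : ∀ H : Gr V, ed U H (2 + 2) = ed U H 1 := fun _ => rfl
        fin_cases j
        · simp only [Fin.zero_eta, Fin.mk_one, Fin.reduceFinMk] at h6 h7 h8 ⊢
          rw [e0, e1, e0, e1]
          omega
        · simp only [Fin.zero_eta, Fin.mk_one, Fin.reduceFinMk] at h6 h7 h8 ⊢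
          rw [e2, e3, e2, e3]
          omega
        · simp only [Fin.zero_eta, Fin.mk_one, Fin.reduceFinMk] at h6 h7 h8 ⊢
          rw [e4, e5, e4, e5]
          omega
      · rw [deg_Y hU, deg_Y hU]
        have h6 := hc (some y')
        rw [csum_some, csum_some] at h6
        rw [h6]
        congr 1
        exact Finset.sum_congr rfl fun y'' _ => by rw [hYY]

theorem rel_updM_iff (hU : Function.Injective U) (i : Fin 3) (G : Gr V) (M : Mat (TT U))
    (K : Gr V) : rel (U (i + 1)) (U (i + 2)) (updM G M) K ↔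
      ∃ N : Mat (TT U), K = updM G N ∧ mrel i M N := by
  rw [rel_iff hU, getM_updM hU]
  constructor
  · rintro ⟨h1, h2⟩
    refine ⟨getM U K, ?_, h2⟩
    refine (updM_eq hU G K fun y y' => ?_).symm
    rw [← h1, updM_YY]
  · rintro ⟨N, rfl, h⟩
    refine ⟨fun y y' => by rw [updM_YY, updM_YY], ?_⟩
    rwa [getM_updM hU]

theorem P_updM (hU : Function.Injective U) (i : Fin 3) (f : Gr V → ℝ) (G : Gr V)
    (M : Mat (TT U)) : P (U (i + 1)) (U (i + 2)) f (updM G M) =
      PM i (fun N : Mat (TT U) => f (updM G N)) M := by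
  unfold P PM
  rw [avg_transfer (r := rel (U (i + 1)) (U (i + 2))) (q := mrel i)
    (fun N : Mat (TT U) => updM G N) (updM_inj hU G) (fun N K => rel_updM_iff hU i G N K)]

/-- the involution on pairs -/
theorem sum_updM (hU : Function.Injective U) (F : Gr V → ℝ) :
    ∑ G : Gr V, ∑ M : Mat (TT U), F (updM G M) =
      (Fintype.card (Mat (TT U)) : ℝ) * ∑ G : Gr V, F G := by
  have hinv : Function.Involutive
      (fun x : Gr V × Mat (TT U) => ((updM x.1 x.2, getM U x.1) : Gr V × Mat (TT U))) := by
    rintro ⟨G, M⟩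
    simp only
    rw [updM_updM hU, updM_getM hU, getM_updM hU]
  have h1 : ∑ x : Gr V × Mat (TT U), F (updM x.1 x.2) = ∑ x : Gr V × Mat (TT U), F x.1 :=
    Fintype.sum_bijective _ hinv.bijective _ _ fun x => rfl
  rw [Fintype.sum_prod_type, Fintype.sum_prod_type] at h1
  simp only at h1
  rw [h1]
  simp only [Finset.sum_const, Finset.card_univ, nsmul_eq_mul]
  rw [Finset.mul_sum]

theorem triple_U (hU : Function.Injective U) (f : Gr V → ℝ) :
    0 ≤ ip (P (U 1) (U 2) f) (P (U 2) (U 0) f) + ip (P (U 1) (U 2) f) (P (U 0) (U 1) f) +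
      ip (P (U 2) (U 0) f) (P (U 0) (U 1) f) := by
  have hcard : (0 : ℝ) < (Fintype.card (Mat (TT U)) : ℝ) := by
    exact_mod_cast Fintype.card_pos
  have hmain : 0 ≤ (Fintype.card (Mat (TT U)) : ℝ) *
      ∑ G : Gr V, (P (U 1) (U 2) f G * P (U 2) (U 0) f G +
        P (U 1) (U 2) f G * P (U 0) (U 1) f G + P (U 2) (U 0) f G * P (U 0) (U 1) f G) := by
    rw [← sum_updM hU]
    refine Finset.sum_nonneg fun G _ => ?_
    have h := mat3 (T := TT U) (fun N : Mat (TT U) => f (updM G N))
    unfold ip at h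
    rw [← Finset.sum_add_distrib, ← Finset.sum_add_distrib] at h
    refine h.trans (le_of_eq (Finset.sum_congr rfl fun M _ => ?_))
    have p0 := P_updM hU 0 f G M
    have p1 := P_updM hU 1 f G M
    have p2 := P_updM hU 2 f G M
    have q0 : P (U 1) (U 2) f (updM G M) = PM 0 (fun N : Mat (TT U) => f (updM G N)) M := p0
    have q1 : P (U 2) (U 0) f (updM G M) = PM 1 (fun N : Mat (TT U) => f (updM G N)) M := p1
    have q2 : P (U 0) (U 1) f (updM G M) = PM 2 (fun N : Mat (TT U) => f (updM G N)) M := p2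
    rw [q0, q1, q2]
  have h2 : 0 ≤ ∑ G : Gr V, (P (U 1) (U 2) f G * P (U 2) (U 0) f G +
        P (U 1) (U 2) f G * P (U 0) (U 1) f G + P (U 2) (U 0) f G * P (U 0) (U 1) f G) :=
    nonneg_of_mul_nonneg_right hmain hcard
  unfold ip
  rw [← Finset.sum_add_distrib, ← Finset.sum_add_distrib]
  exact h2

end

end Lens3

section
variable {V : Type*} [Fintype V] [DecidableEq V]

theorem T1_triple (u v w : V) (huv : u ≠ v) (huw : u ≠ w) (hvw : v ≠ w) (f : Gr V → ℝ) :
    0 ≤ ip (P u v f) (P u w f) + ip (P u v f) (P v w f) + ip (P u w f) (P v w f) := by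
  have hU : Function.Injective (![u, v, w] : Fin 3 → V) := by
    intro i j h
    fin_cases i <;> fin_cases j <;> simp_all
  have h := Lens3.triple_U hU f
  have h' : 0 ≤ ip (P v w f) (P w u f) + ip (P v w f) (P u v f) +
      ip (P w u f) (P u v f) := h
  rw [P_comm w u] at h'
  rw [ip_comm (P v w f) (P u w f), ip_comm (P v w f) (P u v f),
    ip_comm (P u w f) (P u v f)] at h'
  linarith

end

end Crest.Agent.R299
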