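import Mathlib
import Crest.Prelude.Def_SwitchChain
import Crest.Agent.R299.Defs
import Crest.Agent.R299.Kern

/-!
Row 299 (S0453): transfer of the spectral gap on Boolean matrices to the switch chain.
-/

set_option autoImplicit false
open Finset

namespace Crest.Agent.R299.Link

open Crest.Agent.R299.Kern
open Crest.SwitchChain (Edge realizations switchResult kernel pmSet)

variable {n : ℕ}

/-- the edge set as a set of unordered pairs -/
def im (E : Finset (Edge n)) : Finset (Sym2 (Fin n)) := E.image fun e => e.1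

theorem mem_im (E : Finset (Edge n)) (z : Sym2 (Fin n)) : z ∈ im E ↔ ∃ e ∈ E, e.1 = z := by
  simp [im]

theorem coe_mem_im (E : Finset (Edge n)) (e : Edge n) : e.1 ∈ im E ↔ e ∈ E := by
  rw [mem_im]
  constructor
  · rintro ⟨e', he', h⟩
    rwa [← Subtype.ext h]
  · intro h
    exact ⟨e, h, rfl⟩

theorem not_diag_of_mem_im {E : Finset (Edge n)} {z : Sym2 (Fin n)} (h : z ∈ im E) :
    ¬ z.IsDiag := by
  rw [mem_im] at h
  obtain ⟨e, -, rfl⟩ := h
  exact e.2

theorem ne_of_mem_im {E : Finset (Edge n)} {u v : Fin n} (h : s(u, v) ∈ im E) : u ≠ v := by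
  have := not_diag_of_mem_im h
  simpa using this

/-- adjacency matrix of a set of edges -/
def toGr (E : Finset (Edge n)) : Gr (Fin n) where
  adj u v := decide (s(u, v) ∈ im E)
  symm u v := by rw [Sym2.eq_swap]
  irr u := by
    rw [decide_eq_false_iff_not]
    intro h
    exact ne_of_mem_im h rfl

theorem toGr_apply (E : Finset (Edge n)) (u v : Fin n) : toGr E u v = decide (s(u, v) ∈ im E) := rfl

/-- the equivalence between edge sets and adjacency matrices -/
def grEquiv (n : ℕ) : Finset (Edge n) ≃ Gr (Fin n) where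
  toFun := toGr
  invFun G := univ.filter fun e => ∀ u v, e.1 = s(u, v) → G u v = true
  left_inv E := by
    ext e
    simp only [mem_filter, mem_univ, true_and, toGr_apply, decide_eq_true_eq]
    constructor
    · intro h
      obtain ⟨z, hz⟩ := e
      induction z using Sym2.ind with
      | _ p q =>
        have := h p q rfl
        exact (coe_mem_im E ⟨s(p, q), hz⟩).1 this
    · intro h u v huv
      rw [← huv]
      exact (coe_mem_im E e).2 h
  right_inv G := by
    ext u v
    rw [toGr_apply]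
    rw [Bool.eq_iff_iff, decide_eq_true_eq, mem_im]
    simp only [mem_filter, mem_univ, true_and]
    constructor
    · rintro ⟨e, he, h⟩
      exact he u v h
    · intro h
      have huv : u ≠ v := by
        rintro rfl
        rw [G.irr] at h
        exact absurd h (by simp)
      refine ⟨⟨s(u, v), by simpa using huv⟩, ?_, rfl⟩
      intro u' v' h'
      simp only [Sym2.eq_iff] at h'
      rcases h' with ⟨rfl, rfl⟩ | ⟨rfl, rfl⟩
      · exact h
      · rw [G.symm]; exact h

@[simp] theorem grEquiv_apply (E : Finset (Edge n)) : grEquiv n E = toGr E := rfl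

theorem prSum_nonneg {g : Finset (Edge n) → Finset (Edge n) → ℝ} (h : ∀ F F', 0 ≤ g F F') :
    0 ≤ prSum n g :=
  sum_nonneg fun _ _ => sum_nonneg fun _ _ => sum_nonneg fun _ _ => h _ _

theorem sum_gr (F : Gr (Fin n) → ℝ) : ∑ G, F G = ∑ E, F (toGr E) :=
  (Equiv.sum_comp (grEquiv n) F).symm

theorem deg_toGr (E : Finset (Edge n)) (v : Fin n) :
    Crest.Agent.R299.deg (toGr E) v = Crest.SwitchChain.deg E v := by
  unfold Crest.Agent.R299.deg Crest.SwitchChain.deg
  have h1 : ∑ y, ((toGr E) v y).toNat = (univ.filter fun y => s(v, y) ∈ im E).card := by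
    rw [card_filter]
    refine sum_congr rfl fun y _ => ?_
    rw [toGr_apply]
    by_cases h : s(v, y) ∈ im E <;> simp [h]
  rw [h1]
  have h2 : ((univ.filter fun y => s(v, y) ∈ im E).image fun y => s(v, y)) =
      (E.filter fun e => v ∈ e.1).image fun e => e.1 := by
    ext z
    simp only [mem_image, mem_filter, mem_univ, true_and]
    constructor
    · rintro ⟨y, hy, rfl⟩
      rw [mem_im] at hy
      obtain ⟨e, he, hey⟩ := hy
      exact ⟨e, ⟨he, by rw [hey]; simp⟩, hey⟩
    · rintro ⟨e, ⟨he, hv⟩, rfl⟩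
      obtain ⟨y, hy⟩ := Sym2.mem_iff_exists.1 hv
      exact ⟨y, by rw [← hy]; exact (coe_mem_im E e).2 he, hy.symm⟩
  rw [← card_image_of_injective (univ.filter fun y => s(v, y) ∈ im E)
    (f := fun y => s(v, y)) (fun y y' h => Sym2.congr_right.1 h), h2,
    card_image_of_injective _ Subtype.val_injective]

/-- images of the switch -/
theorem mem_im_switch {E F F' : Finset (Edge n)} (h : F ⊆ E ∧ Disjoint F' E)
    (z : Sym2 (Fin n)) :
    z ∈ im (switchResult E F F') ↔ (z ∈ im E ∧ z ∉ im F) ∨ z ∈ im F' := by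
  unfold switchResult
  rw [if_pos h, mem_im]
  constructor
  · rintro ⟨e, he, rfl⟩
    simp only [coe_mem_im]
    simpa [mem_union, mem_sdiff] using he
  · rintro (⟨h1, h2⟩ | h1)
    · obtain ⟨e, he, rfl⟩ := (mem_im _ _).1 h1
      rw [coe_mem_im] at h2
      exact ⟨e, by simp [he, h2], rfl⟩
    · obtain ⟨e, he, rfl⟩ := (mem_im _ _).1 h1
      exact ⟨e, by simp [he], rfl⟩

theorem mem_im_pr {a b c d : Fin n} (hab : a ≠ b) (hcd : c ≠ d) (z : Sym2 (Fin n)) :
    z ∈ im (pr a b c d) ↔ z = s(a, b) ∨ z = s(c, d) := by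
  rw [mem_im]
  constructor
  · rintro ⟨e, he, rfl⟩
    exact (mem_pr a b c d e).1 he
  · rintro (rfl | rfl)
    · exact ⟨⟨s(a, b), by simpa using hab⟩, by simp [mem_pr], rfl⟩
    · exact ⟨⟨s(c, d), by simpa using hcd⟩, by simp [mem_pr], rfl⟩

theorem inBlock_iff {u v w x : Fin n} (h : Q4 u v w x) (p q : Fin n) :
    inBlock u v w x p q ↔
      s(p, q) = s(u, w) ∨ s(p, q) = s(u, x) ∨ s(p, q) = s(v, w) ∨ s(p, q) = s(v, x) := by
  obtain ⟨huv, huw, hux, hvw, hvx, hwx⟩ := h
  unfold inBlock
  simp only [Sym2.eq_iff]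
  constructor
  · rintro ⟨-, h⟩
    tauto
  · intro h
    refine ⟨?_, by tauto⟩
    rcases h with (⟨rfl, rfl⟩ | ⟨rfl, rfl⟩) | (⟨rfl, rfl⟩ | ⟨rfl, rfl⟩) | (⟨rfl, rfl⟩ | ⟨rfl, rfl⟩) |
      (⟨rfl, rfl⟩ | ⟨rfl, rfl⟩) <;> tauto

theorem xor_key {α : Type*} [DecidableEq α] (I : α → Prop) [DecidablePred I] (a b c d z : α)
    (hab : a ≠ b) (hac : a ≠ c) (hdb : d ≠ b) (hdc : d ≠ c) (ha : I a) (hd : I d)
    (hb : ¬ I b) (hc : ¬ I c) :
    xor (decide (I z)) (decide (z = a ∨ z = b ∨ z = c ∨ z = d)) =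
      decide ((I z ∧ ¬ (z = a ∨ z = d)) ∨ (z = b ∨ z = c)) := by
  by_cases h1 : z = a
  · subst h1
    simp [ha, hab, hac]
  by_cases h2 : z = b
  · subst h2
    simp [hb]
  by_cases h3 : z = c
  · subst h3
    simp [hc]
  by_cases h4 : z = d
  · subst h4
    simp [hd, hdb, hdc]
  simp [h1, h2, h3, h4]

/-- the switch as a proposal, generic form -/
theorem flip4_eq {u v w x : Fin n} (h : Q4 u v w x) {E : Finset (Edge n)}
    (huw : s(u, w) ∈ im E) (hvx : s(v, x) ∈ im E) (hux : s(u, x) ∉ im E) (hvw : s(v, w) ∉ im E) :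
    flip4 u v w x (toGr E) = toGr (switchResult E (pr u w v x) (pr u x v w)) := by
  have hc : pr u w v x ⊆ E ∧ Disjoint (pr u x v w) E := by
    constructor
    · intro e he
      rw [mem_pr] at he
      rw [← coe_mem_im]
      rcases he with he | he <;> rw [he] <;> assumption
    · rw [disjoint_left]
      intro e he heE
      rw [mem_pr] at he
      rw [← coe_mem_im] at heE
      rcases he with he | he <;> rw [he] at heE
      · exact hux heE
      · exact hvw heE
  ext p q
  change xor (toGr E p q) (decide (inBlock u v w x p q)) = _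
  rw [toGr_apply, toGr_apply]
  have hb := inBlock_iff h p q
  have hm := mem_im_switch hc s(p, q)
  obtain ⟨n1, n2, n3, n4, n5, n6⟩ := h
  rw [mem_im_pr n2 n5, mem_im_pr n3 n4] at hm
  simp only [hb, hm]
  have e1 : s(u, w) ≠ s(u, x) := fun h => n6 (Sym2.congr_right.1 h)
  have e2 : s(u, w) ≠ s(v, w) := fun h => n1 (Sym2.congr_left.1 h)
  have e5 : s(v, x) ≠ s(u, x) := fun h => n1 (Sym2.congr_left.1 h).symm
  have e6 : s(v, x) ≠ s(v, w) := fun h => n6 (Sym2.congr_right.1 h).symm
  exact xor_key (fun z => z ∈ im E) _ _ _ _ _ e1 e2 e5 e6 huw hvx hux hvw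

theorem Q_of_Q4 {u v w x : Fin n} (h : Q4 u v w x) : Q u v w x := h

theorem flip4_comm (u v w x : Fin n) (G : Gr (Fin n)) : flip4 u v x w G = flip4 u v w x G := by
  ext p q
  change xor (G p q) (decide (inBlock u v x w p q)) = xor (G p q) (decide (inBlock u v w x p q))
  have : inBlock u v x w p q ↔ inBlock u v w x p q := by
    unfold inBlock
    tauto
  simp only [this]

theorem sw_cases (u v w x : Fin n) (E : Finset (Edge n)) :
    sw u v w x (toGr E) = toGr E ∨ (Q u v w x ∧ ∃ F ∈ pmSet {u, v, w, x},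
      ∃ F' ∈ (pmSet {u, v, w, x}).erase F,
        sw u v w x (toGr E) = toGr (switchResult E F F')) := by
  unfold sw
  split_ifs with h
  · right
    obtain ⟨hq, h1, h2, h3⟩ := h
    refine ⟨hq, ?_⟩
    simp only [toGr_apply] at h1 h2 h3
    have hF : pr u w v x ∈ pmSet {u, v, w, x} := by
      rw [pmSet_eq u v w x hq]; simp
    have hF' : pr u x v w ∈ pmSet {u, v, w, x} := by
      rw [pmSet_eq u v w x hq]; simp
    have hne : pr u w v x ≠ pr u x v w := pr_ne3 u v w x hq
    by_cases hc : s(u, w) ∈ im E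
    · have c1 : s(v, w) ∉ im E := by
        intro h; simp [hc, h] at h1
      have c2 : s(u, x) ∉ im E := by
        intro h; simp [hc, h] at h3
      have c3 : s(v, x) ∈ im E := by
        by_contra h; simp [c2, h] at h2
      exact ⟨_, hF, _, mem_erase.2 ⟨hne.symm, hF'⟩, flip4_eq hq hc c3 c2 c1⟩
    · have c1 : s(v, w) ∈ im E := by
        by_contra h; simp [hc, h] at h1
      have c2 : s(u, x) ∈ im E := by
        by_contra h; simp [hc, h] at h3
      have c3 : s(v, x) ∉ im E := by
        intro h; simp [c2, h] at h2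
      refine ⟨_, hF', _, mem_erase.2 ⟨hne, hF⟩, ?_⟩
      rw [← flip4_comm]
      refine flip4_eq ?_ c2 c1 hc c3
      obtain ⟨n1, n2, n3, n4, n5, n6⟩ := hq
      exact ⟨n1, n3, n2, n5, n4, n6.symm⟩
  · left; rfl

/-- sum over quadruples versus sum over four-sets -/
theorem sum_quad_le (T : Finset (Fin n) → ℝ) (hT : ∀ S, 0 ≤ T S) :
    ∑ u : Fin n, ∑ v : Fin n, ∑ w : Fin n, ∑ x : Fin n,
      (if ({u, v, w, x} : Finset (Fin n)).card = 4 then T {u, v, w, x} else 0) ≤
      256 * ∑ S ∈ (univ : Finset (Fin n)).powersetCard 4, T S := by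
  let a : Fin n → Finset (Fin n) → ℝ := fun u S => if u ∈ S then 1 else 0
  let PP := (univ : Finset (Fin n)).powersetCard 4
  have key : ∀ c : Finset (Fin n) → ℝ, ∑ u : Fin n, ∑ S ∈ PP, c S * a u S =
      ∑ S ∈ PP, 4 * c S := by
    intro c
    rw [sum_comm]
    refine sum_congr rfl fun S hS => ?_
    rw [← mul_sum]
    have : ∑ i, a i S = 4 := by
      simp only [a]
      rw [sum_boole]
      have hcard := (mem_powersetCard.1 hS).2
      simp [hcard]
    rw [this]
    ring
  calc ∑ u : Fin n, ∑ v : Fin n, ∑ w : Fin n, ∑ x : Fin n,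
      (if ({u, v, w, x} : Finset (Fin n)).card = 4 then T {u, v, w, x} else 0)
      ≤ ∑ u : Fin n, ∑ v : Fin n, ∑ w : Fin n, ∑ x : Fin n,
        ∑ S ∈ PP, T S * a u S * a v S * a w S * a x S := by
        refine sum_le_sum fun u _ => sum_le_sum fun v _ => sum_le_sum fun w _ =>
          sum_le_sum fun x _ => ?_
        have hnn : ∀ S ∈ PP, 0 ≤ T S * a u S * a v S * a w S * a x S := by
          intro S _
          have h0 : ∀ u, 0 ≤ a u S := by
            intro u; simp only [a]; split_ifs <;> norm_num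
          have := hT S
          have h1 := h0 u
          have h2 := h0 v
          have h3 := h0 w
          have h4 := h0 x
          positivity
        split_ifs with hc
        · have hmem : ({u, v, w, x} : Finset (Fin n)) ∈ PP := by
            rw [mem_powersetCard]
            exact ⟨subset_univ _, hc⟩
          have := single_le_sum hnn hmem
          refine le_trans (le_of_eq ?_) this
          simp [a]
        · exact sum_nonneg hnn
    _ = 256 * ∑ S ∈ PP, T S := by
        simp only [key]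
        simp only [← mul_assoc]
        simp only [key]
        simp only [← mul_assoc]
        simp only [key]
        simp only [← mul_assoc]
        rw [key, mul_sum]
        refine sum_congr rfl fun S _ => ?_
        ring

/-- sum over quadruples of the switch differences -/
theorem quad_le_prSum (f' : Gr (Fin n) → ℝ) (E : Finset (Edge n)) :
    ∑ u : Fin n, ∑ v : Fin n, ∑ w : Fin n, ∑ x : Fin n,
      (f' (toGr E) - f' (sw u v w x (toGr E))) ^ 2 ≤
      256 * prSum n (fun F F' => (f' (toGr E) - f' (toGr (switchResult E F F'))) ^ 2) := by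
  refine le_trans ?_ (sum_quad_le (fun S => ∑ F ∈ pmSet S, ∑ F' ∈ (pmSet S).erase F,
    (f' (toGr E) - f' (toGr (switchResult E F F'))) ^ 2) ?_)
  · refine sum_le_sum fun u _ => sum_le_sum fun v _ => sum_le_sum fun w _ =>
      sum_le_sum fun x _ => ?_
    rcases sw_cases u v w x E with h | ⟨hq, F, hF, F', hF', h⟩
    · rw [h, sub_self, zero_pow two_ne_zero]
      split_ifs
      · exact sum_nonneg fun F _ => sum_nonneg fun F' _ => sq_nonneg _
      · exact le_refl _
    · have hcard : ({u, v, w, x} : Finset (Fin n)).card = 4 := by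
        obtain ⟨n1, n2, n3, n4, n5, n6⟩ := hq
        rw [card_insert_of_notMem (by simp [n1, n2, n3]), card_insert_of_notMem (by simp [n4, n5]),
          card_pair n6]
      rw [if_pos hcard, h]
      refine le_trans ?_ (single_le_sum (f := fun F => ∑ F' ∈ (pmSet {u, v, w, x}).erase F,
        (f' (toGr E) - f' (toGr (switchResult E F F'))) ^ 2)
        (fun F _ => sum_nonneg fun F' _ => sq_nonneg _) hF)
      exact single_le_sum (f := fun F' => (f' (toGr E) - f' (toGr (switchResult E F F'))) ^ 2)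
        (fun F' _ => sq_nonneg _) hF'
  · intro S
    exact sum_nonneg fun F _ => sum_nonneg fun F' _ => sq_nonneg _

theorem sum_swap5 {ι κ : Type*} [Fintype ι] [Fintype κ] (F : ι → ι → ι → ι → κ → ℝ) :
    ∑ u, ∑ v, ∑ w, ∑ x, ∑ G, F u v w x G = ∑ G, ∑ u, ∑ v, ∑ w, ∑ x, F u v w x G := by
  have e1 : ∀ u v w, ∑ x, ∑ G, F u v w x G = ∑ G, ∑ x, F u v w x G := fun u v w => sum_comm
  simp only [e1]
  have e2 : ∀ u v, ∑ w, ∑ G, ∑ x, F u v w x G = ∑ G, ∑ w, ∑ x, F u v w x G :=
    fun u v => sum_comm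
  simp only [e2]
  have e3 : ∀ u, ∑ v, ∑ G, ∑ w, ∑ x, F u v w x G = ∑ G, ∑ v, ∑ w, ∑ x, F u v w x G :=
    fun u => sum_comm
  simp only [e3]
  exact sum_comm

/-- **Poincaré inequality for the switch chain** from the spectral gap for `sw`. -/
theorem poincare_of_gap (n : ℕ) (hn : 4 ≤ n) (d : Fin n → ℕ)
    (hgap : ∀ f : Gr (Fin n) → ℝ,
      (∀ G, ∑ H with (∀ y, Crest.Agent.R299.deg H y = Crest.Agent.R299.deg G y), f H = 0) →
      16 * ∑ G, f G ^ 2 ≤ ∑ u, ∑ v, ∑ w, ∑ x, ∑ G, (f G - f (sw u v w x G)) ^ 2)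
    (f : Finset (Edge n) → ℝ) :
    ((realizations d).card : ℝ) * (∑ G ∈ realizations d, f G ^ 2) -
            (∑ G ∈ realizations d, f G) ^ 2 ≤
          24 * (n : ℝ) ^ 2 * (n.choose 4 : ℝ) * (realizations d).card *
            ∑ G ∈ realizations d,
              f G * (f G - ∑ G' ∈ realizations d, kernel n G G' * f G') := by
  rcases (realizations d).eq_empty_or_nonempty with hemp | hne
  · rw [hemp]; simp
  have hcard : (0 : ℝ) < ((realizations d).card : ℝ) := by exact_mod_cast hne.card_pos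
  have hchoose := choose_pos' hn
  set Ω := realizations d with hΩ
  set m : ℝ := (∑ G ∈ Ω, f G) / (Ω.card : ℝ) with hm
  -- membership in Ω by degrees
  have hΩmem : ∀ E, E ∈ Ω ↔ ∀ y, Crest.Agent.R299.deg (toGr E) y = d y := by
    intro E
    rw [hΩ, realizations, mem_filter]
    simp only [mem_univ, true_and, deg_toGr]
  -- the function on graphs
  let g : Finset (Edge n) → ℝ := fun E => if E ∈ Ω then f E - m else 0
  let f' : Gr (Fin n) → ℝ := fun G => g ((grEquiv n).symm G)
  have hf' : ∀ E, f' (toGr E) = g E := by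
    intro E
    simp only [f']
    rw [← grEquiv_apply, Equiv.symm_apply_apply]
  have hsumg : ∑ E ∈ Ω, g E = 0 := by
    have : ∑ E ∈ Ω, g E = ∑ E ∈ Ω, (f E - m) := by
      refine sum_congr rfl fun E hE => ?_
      simp only [g, if_pos hE]
    rw [this, sum_sub_distrib, sum_const, nsmul_eq_mul, hm]
    field_simp
    ring
  have hzero : ∀ G, ∑ H with (∀ y, Crest.Agent.R299.deg H y = Crest.Agent.R299.deg G y),
      f' H = 0 := by
    intro G
    have h1 : ∑ H with (∀ y, Crest.Agent.R299.deg H y = Crest.Agent.R299.deg G y), f' H =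
        ∑ E, if (∀ y, Crest.Agent.R299.deg (toGr E) y = Crest.Agent.R299.deg G y) then g E
          else 0 := by
      rw [sum_filter, ← Equiv.sum_comp (grEquiv n)]
      simp only [grEquiv_apply, hf']
    rw [h1]
    by_cases hd : ∀ y, Crest.Agent.R299.deg G y = d y
    · refine Eq.trans ?_ hsumg
      rw [← sum_filter]
      refine sum_congr ?_ fun _ _ => rfl
      ext E
      rw [hΩmem]
      simp [hd]
    · refine sum_eq_zero fun E _ => ?_
      split_ifs with h
      · have : E ∉ Ω := by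
          rw [hΩmem]
          intro h'
          exact hd fun y => by rw [← h y, h' y]
        simp only [g, if_neg this]
      · rfl
  have hmain := hgap f' hzero
  -- left-hand side
  have hL : ∑ G, f' G ^ 2 = ∑ E ∈ Ω, (f E - m) ^ 2 := by
    rw [← Equiv.sum_comp (grEquiv n)]
    simp only [grEquiv_apply, hf']
    have : ∀ E, g E ^ 2 = if E ∈ Ω then (f E - m) ^ 2 else 0 := by
      intro E
      simp only [g]
      split_ifs <;> simp
    simp only [this]
    rw [← sum_filter]
    refine sum_congr ?_ fun _ _ => rfl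
    ext E; simp
  -- right-hand side
  have hR : ∑ u, ∑ v, ∑ w, ∑ x, ∑ G, (f' G - f' (sw u v w x G)) ^ 2 ≤
      256 * (24 * (n.choose 4 : ℝ) * ∑ G ∈ Ω,
              f G * (f G - ∑ G' ∈ Ω, kernel n G G' * f G')) := by
    rw [← dirichlet hn d f]
    have h1 : ∑ u, ∑ v, ∑ w, ∑ x, ∑ G, (f' G - f' (sw u v w x G)) ^ 2 =
        ∑ E : Finset (Edge n), ∑ u : Fin n, ∑ v : Fin n, ∑ w : Fin n, ∑ x : Fin n,
          (f' (toGr E) - f' (sw u v w x (toGr E))) ^ 2 := by
      have h2 : ∀ u v w x : Fin n, ∑ G, (f' G - f' (sw u v w x G)) ^ 2 =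
          ∑ E : Finset (Edge n), (f' (toGr E) - f' (sw u v w x (toGr E))) ^ 2 := by
        intro u v w x
        exact sum_gr _
      simp only [h2]
      exact sum_swap5 (fun u v w x E => (f' (toGr E) - f' (sw u v w x (toGr E))) ^ 2)
    rw [h1, mul_sum]
    have h3 : ∀ E : Finset (Edge n), ∑ u : Fin n, ∑ v : Fin n, ∑ w : Fin n, ∑ x : Fin n,
          (f' (toGr E) - f' (sw u v w x (toGr E))) ^ 2 ≤
        if E ∈ Ω then 256 * prSum n (fun F F' => (f E - f (switchResult E F F')) ^ 2) else 0 := by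
      intro E
      refine le_trans (quad_le_prSum f' E) ?_
      split_ifs with hE
      · refine le_of_eq (congrArg (fun t : ℝ => 256 * t) ?_)
        refine prSum_congr fun S hS F hF F' hF' hFF' => ?_
        have hmem : switchResult E F F' ∈ Ω := switchResult_mem (d := d) hF hF' hE
        rw [hf', hf']
        simp only [g, if_pos hE, if_pos hmem]
        ring
      · apply le_of_eq
        have : prSum n (fun F F' => (f' (toGr E) - f' (toGr (switchResult E F F'))) ^ 2) =
            prSum n (fun _ _ => 0) := by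
          refine prSum_congr fun S hS F hF F' hF' hFF' => ?_
          have hmem : switchResult E F F' ∉ Ω := by
            rw [hΩmem]
            rw [hΩmem] at hE
            simp only [deg_toGr, deg_switchResult hF hF'] at hE ⊢
            exact hE
          rw [hf', hf']
          simp only [g, if_neg hE, if_neg hmem]
          ring
        rw [this, prSum_const]
        simp
    refine le_trans (sum_le_sum fun E _ => h3 E) ?_
    rw [← sum_filter]
    apply le_of_eq
    refine sum_congr ?_ fun _ _ => rfl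
    ext E; simp [hΩ]
  rw [hL] at hmain
  have hvar : (Ω.card : ℝ) * (∑ G ∈ Ω, f G ^ 2) - (∑ G ∈ Ω, f G) ^ 2 =
      (Ω.card : ℝ) * ∑ E ∈ Ω, (f E - m) ^ 2 := by
    have h1 : ∑ E ∈ Ω, (f E - m) ^ 2 = ∑ E ∈ Ω, f E ^ 2 - 2 * m * ∑ E ∈ Ω, f E +
        (Ω.card : ℝ) * m ^ 2 := by
      have : ∀ E ∈ Ω, (f E - m) ^ 2 = f E ^ 2 - 2 * m * f E + m ^ 2 := fun E _ => by ring
      rw [sum_congr rfl this, sum_add_distrib, sum_sub_distrib, ← mul_sum, sum_const,
        nsmul_eq_mul]
    rw [h1, hm]
    field_simp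
    ring
  rw [hvar]
  -- nonnegativity of the form
  have hform : 0 ≤ ∑ G ∈ Ω, f G * (f G - ∑ G' ∈ Ω, kernel n G G' * f G') := by
    have h := dirichlet hn d f
    have h0 : 0 ≤ ∑ E ∈ realizations d,
        prSum n (fun F F' => (f E - f (switchResult E F F')) ^ 2) := by
      exact sum_nonneg fun E _ => prSum_nonneg fun _ _ => sq_nonneg _
    rw [h] at h0
    exact nonneg_of_mul_nonneg_right h0 (by positivity)
  have hn2 : (16 : ℝ) ≤ (n : ℝ) ^ 2 := by
    have : (4 : ℝ) ≤ (n : ℝ) := by exact_mod_cast hn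
    nlinarith
  have hfin : ∑ E ∈ Ω, (f E - m) ^ 2 ≤ 24 * 16 * (n.choose 4 : ℝ) *
      ∑ G ∈ Ω, f G * (f G - ∑ G' ∈ Ω, kernel n G G' * f G') := by
    generalize ∑ G ∈ Ω, f G * (f G - ∑ G' ∈ Ω, kernel n G G' * f G') = D at *
    generalize ∑ E ∈ Ω, (f E - m) ^ 2 = A at *
    linarith
  have hfin2 : 24 * 16 * (n.choose 4 : ℝ) *
      ∑ G ∈ Ω, f G * (f G - ∑ G' ∈ Ω, kernel n G G' * f G') ≤
      24 * (n : ℝ) ^ 2 * (n.choose 4 : ℝ) *
      ∑ G ∈ Ω, f G * (f G - ∑ G' ∈ Ω, kernel n G G' * f G') := by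
    gcongr
  calc (Ω.card : ℝ) * ∑ E ∈ Ω, (f E - m) ^ 2
      ≤ (Ω.card : ℝ) * (24 * (n : ℝ) ^ 2 * (n.choose 4 : ℝ) *
      ∑ G ∈ Ω, f G * (f G - ∑ G' ∈ Ω, kernel n G G' * f G')) := by
        gcongr
        exact hfin.trans hfin2
    _ = _ := by ring

end Crest.Agent.R299.Link
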