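import Crest.Agent.R299.Rel
import Crest.Agent.R299.Johnson

/-!
Row 299 (S0453), piece R: the two-row classes `cls (rel u v) G` are Johnson schemes.
-/

set_option autoImplicit false
open Finset

namespace Crest.Agent.R299

section row2
variable {V : Type*} [Fintype V] [DecidableEq V]

/-- the columns where the rows `u`,`v` differ -/
def Dset (u v : V) (G : Gr V) : Finset V := univ.filter fun y => y ≠ u ∧ y ≠ v ∧ G u y ≠ G v y

theorem mem_Dset (u v : V) (G : Gr V) (y : V) :
    y ∈ Dset u v G ↔ y ≠ u ∧ y ≠ v ∧ G u y ≠ G v y := by simp [Dset]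

/-- the neighbours of `u` among the columns where rows `u`,`v` of `G` differ -/
def ptsOf (u v : V) (G H : Gr V) : Finset V := (Dset u v G).filter fun y => H u y = true

theorem mem_ptsOf (u v : V) (G H : Gr V) (y : V) :
    y ∈ ptsOf u v G H ↔ y ∈ Dset u v G ∧ H u y = true := by simp [ptsOf]

/-- the graph with row `u` equal to `A` on `Dset` -/
def setRow (u v : V) (G : Gr V) (A : Finset V) : Gr V where
  adj a b :=
    if a = u ∧ b ∈ Dset u v G then decide (b ∈ A)
    else if a = v ∧ b ∈ Dset u v G then !decide (b ∈ A)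
    else if b = u ∧ a ∈ Dset u v G then decide (a ∈ A)
    else if b = v ∧ a ∈ Dset u v G then !decide (a ∈ A)
    else G a b
  symm a b := by
    have hu : u ∉ Dset u v G := by rw [mem_Dset]; simp
    have hv : v ∉ Dset u v G := by rw [mem_Dset]; simp
    by_cases h1 : a ∈ Dset u v G
    · have ha : a ≠ u := fun h => hu (h ▸ h1)
      have ha' : a ≠ v := fun h => hv (h ▸ h1)
      by_cases h2 : b ∈ Dset u v G
      · have hb : b ≠ u := fun h => hu (h ▸ h2)
        have hb' : b ≠ v := fun h => hv (h ▸ h2)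
        simp [ha, ha', hb, hb', G.symm a b]
      · simp [ha, ha', h1, h2, G.symm a b]
    · by_cases h2 : b ∈ Dset u v G
      · have hb : b ≠ u := fun h => hu (h ▸ h2)
        have hb' : b ≠ v := fun h => hv (h ▸ h2)
        simp [hb, hb', h1, h2, G.symm a b]
      · simp [h1, h2, G.symm a b]
  irr a := by
    have hu : u ∉ Dset u v G := by rw [mem_Dset]; simp
    have hv : v ∉ Dset u v G := by rw [mem_Dset]; simp
    by_cases h1 : a ∈ Dset u v G
    · have ha : a ≠ u := fun h => hu (h ▸ h1)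
      have ha' : a ≠ v := fun h => hv (h ▸ h1)
      simp [ha, ha', G.irr]
    · simp [h1, G.irr]

theorem setRow_apply (u v : V) (G : Gr V) (A : Finset V) (a b : V) :
    setRow u v G A a b =
    if a = u ∧ b ∈ Dset u v G then decide (b ∈ A)
    else if a = v ∧ b ∈ Dset u v G then !decide (b ∈ A)
    else if b = u ∧ a ∈ Dset u v G then decide (a ∈ A)
    else if b = v ∧ a ∈ Dset u v G then !decide (a ∈ A)
    else G a b := rfl

theorem u_notMem (u v : V) (G : Gr V) : u ∉ Dset u v G := by rw [mem_Dset]; simp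
theorem v_notMem (u v : V) (G : Gr V) : v ∉ Dset u v G := by rw [mem_Dset]; simp

theorem setRow_u (u v : V) (G : Gr V) (A : Finset V) {y : V} (hy : y ∈ Dset u v G) :
    setRow u v G A u y = decide (y ∈ A) := by
  rw [setRow_apply, if_pos ⟨rfl, hy⟩]

theorem setRow_v (u v : V) (huv : u ≠ v) (G : Gr V) (A : Finset V) {y : V}
    (hy : y ∈ Dset u v G) :
    setRow u v G A v y = !decide (y ∈ A) := by
  rw [setRow_apply, if_neg (fun h => huv h.1.symm), if_pos ⟨rfl, hy⟩]

theorem setRow_u' (u v : V) (G : Gr V) (A : Finset V) {y : V} (hy : y ∉ Dset u v G) :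
    setRow u v G A u y = G u y := by
  have := u_notMem u v G
  rw [setRow_apply]
  simp [hy, this]

theorem setRow_v' (u v : V) (G : Gr V) (A : Finset V) {y : V} (hy : y ∉ Dset u v G) :
    setRow u v G A v y = G v y := by
  have := v_notMem u v G
  rw [setRow_apply]
  simp [hy, this]

theorem setRow_out (u v : V) (G : Gr V) (A : Finset V) {a b : V} (h1 : a ≠ u) (h2 : a ≠ v)
    (h3 : b ≠ u) (h4 : b ≠ v) : setRow u v G A a b = G a b := by
  rw [setRow_apply]
  simp [h1, h2, h3, h4]

theorem card_ptsOf (u v : V) (G H : Gr V) :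
    (ptsOf u v G H).card = ∑ y ∈ Dset u v G, (H u y).toNat := by
  rw [ptsOf, card_filter]
  refine sum_congr rfl fun y _ => ?_
  cases H u y <;> simp

theorem deg_split (u v : V) (G H : Gr V) :
    deg H u = (ptsOf u v G H).card + ∑ y ∈ (Dset u v G)ᶜ, (H u y).toNat := by
  rw [card_ptsOf, deg, sum_add_sum_compl]

theorem rel_setRow (u v : V) (huv : u ≠ v) (G : Gr V) (A : Finset V)
    (hA : A ∈ (Dset u v G).powersetCard (ptsOf u v G G).card) : rel u v G (setRow u v G A) := by
  rw [mem_powersetCard] at hA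
  refine ⟨fun x y h1 h2 h3 h4 => (setRow_out u v G A h1 h2 h3 h4).symm,
    (setRow_u' u v G A (v_notMem u v G)).symm, ?_, ?_⟩
  · intro y h1 h2
    by_cases hy : y ∈ Dset u v G
    · rw [setRow_u u v G A hy, setRow_v u v huv G A hy]
      have := ((mem_Dset u v G y).1 hy).2.2
      by_cases h : y ∈ A <;> cases h3 : G u y <;> cases h4 : G v y <;> simp_all
    · rw [setRow_u' u v G A hy, setRow_v' u v G A hy]
  · rw [deg_split u v G G, deg_split u v G (setRow u v G A)]
    congr 1
    · rw [← hA.2]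
      congr 1
      ext y
      rw [mem_ptsOf]
      constructor
      · intro h
        exact ⟨hA.1 h, by rw [setRow_u u v G A (hA.1 h)]; simpa using h⟩
      · rintro ⟨h1, h2⟩
        rw [setRow_u u v G A h1] at h2
        simpa using h2
    · refine sum_congr rfl fun y hy => ?_
      rw [setRow_u' u v G A (by simpa using hy)]

theorem ptsOf_setRow (u v : V) (G : Gr V) (A : Finset V) (hA : A ⊆ Dset u v G) :
    ptsOf u v G (setRow u v G A) = A := by
  ext y
  rw [mem_ptsOf]
  constructor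
  · rintro ⟨h1, h2⟩
    rw [setRow_u u v G A h1] at h2
    simpa using h2
  · intro h
    exact ⟨hA h, by rw [setRow_u u v G A (hA h)]; simpa using h⟩

theorem rel_off {u v : V} {G H : Gr V} (h : rel u v G H) {y : V} (hyu : y ≠ u) (hyv : y ≠ v)
    (hy : y ∉ Dset u v G) : H u y = G u y ∧ H v y = G v y := by
  have h1 : G u y = G v y := by
    by_contra hne
    exact hy ((mem_Dset u v G y).2 ⟨hyu, hyv, hne⟩)
  have h2 := h.2.2.1 y hyu hyv
  cases h3 : G u y <;> cases h4 : G v y <;> cases h5 : H u y <;> cases h6 : H v y <;> simp_all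

theorem rel_off_u {u v : V} {G H : Gr V} (h : rel u v G H) {y : V}
    (hy : y ∉ Dset u v G) : H u y = G u y := by
  by_cases h1 : y = u
  · subst h1; rw [H.irr, G.irr]
  by_cases h2 : y = v
  · subst h2; exact h.2.1.symm
  exact (rel_off h h1 h2 hy).1

theorem rel_off_v {u v : V} {G H : Gr V} (h : rel u v G H) {y : V}
    (hy : y ∉ Dset u v G) : H v y = G v y := by
  by_cases h1 : y = u
  · subst h1; rw [H.symm, G.symm]; exact h.2.1.symm
  by_cases h2 : y = v
  · subst h2; rw [H.irr, G.irr]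
  exact (rel_off h h1 h2 hy).2

theorem ptsOf_mem {u v : V} {G H : Gr V} (h : rel u v G H) :
    ptsOf u v G H ∈ (Dset u v G).powersetCard (ptsOf u v G G).card := by
  rw [mem_powersetCard]
  refine ⟨filter_subset _ _, ?_⟩
  have h1 := deg_split u v G G
  have h2 := deg_split u v G H
  have h3 : ∑ y ∈ (Dset u v G)ᶜ, (H u y).toNat = ∑ y ∈ (Dset u v G)ᶜ, (G u y).toNat :=
    sum_congr rfl fun y hy => by rw [rel_off_u h (by simpa using hy)]
  have h4 := h.2.2.2
  omega

theorem rel_v_eq {u v : V} {G H : Gr V} (h : rel u v G H) {y : V}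
    (hy : y ∈ Dset u v G) : H v y = !(H u y) := by
  obtain ⟨h1, h2, h3⟩ := (mem_Dset u v G y).1 hy
  have := (rel_ne_iff h h1 h2).1 h3
  cases h5 : H u y <;> cases h6 : H v y <;> simp_all

theorem setRow_ptsOf {u v : V} (huv : u ≠ v) {G H : Gr V} (h : rel u v G H) :
    setRow u v G (ptsOf u v G H) = H := by
  have key_u : ∀ y, setRow u v G (ptsOf u v G H) u y = H u y := by
    intro y
    by_cases hy : y ∈ Dset u v G
    · rw [setRow_u u v G _ hy]
      cases h1 : H u y <;> simp [mem_ptsOf, hy, h1]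
    · rw [setRow_u' u v G _ hy, rel_off_u h hy]
  have key_v : ∀ y, setRow u v G (ptsOf u v G H) v y = H v y := by
    intro y
    by_cases hy : y ∈ Dset u v G
    · rw [setRow_v u v huv G _ hy, rel_v_eq h hy]
      cases h1 : H u y <;> simp [mem_ptsOf, hy, h1]
    · rw [setRow_v' u v G _ hy, rel_off_v h hy]
  ext a b
  by_cases h1 : a = u
  · subst h1; exact key_u b
  by_cases h2 : a = v
  · subst h2; exact key_v b
  by_cases h3 : b = u
  · subst h3; rw [Gr.symm, H.symm a b]; exact key_u a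
  by_cases h4 : b = v
  · subst h4; rw [Gr.symm, H.symm a b]; exact key_v a
  rw [setRow_out u v G _ h1 h2 h3 h4]
  exact h.1 a b h1 h2 h3 h4

/-- sums over the class as sums over `p`-subsets -/
theorem sum_cls_rel (u v : V) (huv : u ≠ v) (G : Gr V) (F : Gr V → ℝ) :
    ∑ H ∈ cls (rel u v) G, F H =
      ∑ A ∈ (Dset u v G).powersetCard (ptsOf u v G G).card, F (setRow u v G A) := by
  refine Finset.sum_nbij' (ptsOf u v G) (setRow u v G) ?_ ?_ ?_ ?_ ?_
  · intro H hH; exact ptsOf_mem ((mem_cls _ _ _).1 hH)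
  · intro A hA; exact (mem_cls _ _ _).2 (rel_setRow u v huv G A hA)
  · intro H hH; exact setRow_ptsOf huv ((mem_cls _ _ _).1 hH)
  · intro A hA; exact ptsOf_setRow u v G A (mem_powersetCard.1 hA).1
  · intro H hH; rw [setRow_ptsOf huv ((mem_cls _ _ _).1 hH)]

theorem alt_mem {u v w x : V} {G H : Gr V} (h : rel u v G H) (ha : alt u v w x H) :
    w ∈ Dset u v G ∧ x ∈ Dset u v G := by
  obtain ⟨⟨h1, h2, h3, h4, h5, h6⟩, h7, h8, h9⟩ := ha
  exact ⟨(mem_Dset u v G w).2 ⟨h2.symm, h4.symm, (rel_ne_iff h h2.symm h4.symm).2 h7⟩,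
    (mem_Dset u v G x).2 ⟨h3.symm, h5.symm, (rel_ne_iff h h3.symm h5.symm).2 h8⟩⟩

theorem alt_iff {u v w x : V} (huv : u ≠ v) {G H : Gr V} (h : rel u v G H)
    (hw : w ∈ Dset u v G) (hx : x ∈ Dset u v G) : alt u v w x H ↔ H u w ≠ H u x := by
  constructor
  · intro ha; exact ha.2.2.2
  · intro hne
    obtain ⟨w1, w2, w3⟩ := (mem_Dset u v G w).1 hw
    obtain ⟨x1, x2, x3⟩ := (mem_Dset u v G x).1 hx
    refine ⟨⟨huv, w1.symm, x1.symm, w2.symm, x2.symm, ?_⟩, (rel_ne_iff h w1 w2).1 w3,
      (rel_ne_iff h x1 x2).1 x3, hne⟩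
    rintro rfl
    exact hne rfl

theorem sw_setRow {u v w x : V} (huv : u ≠ v) (G : Gr V) (A : Finset V)
    (hA : A ∈ (Dset u v G).powersetCard (ptsOf u v G G).card)
    (hw : w ∈ Dset u v G) (hx : x ∈ Dset u v G) :
    sw u v w x (setRow u v G A) = setRow u v G (xch w x A) := by
  have hr := rel_setRow u v huv G A hA
  have hr2 : rel u v G (sw u v w x (setRow u v G A)) := rel_trans hr (sw_rel u v w x _)
  rw [← setRow_ptsOf huv hr2]
  congr 1
  have hsub := (mem_powersetCard.1 hA).1
  by_cases ha : alt u v w x (setRow u v G A)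
  · unfold sw
    rw [if_pos ha]
    obtain ⟨e1, e2, e3, e4⟩ := flip4_block ha.1 (setRow u v G A)
    have hne := ha.2.2.2
    rw [setRow_u u v G A hw, setRow_u u v G A hx] at hne
    have hne' : ¬ (w ∈ A ↔ x ∈ A) := by simpa using hne
    have hwx : w ≠ x := ha.1.2.2.2.2.2
    ext y
    rw [mem_ptsOf, mem_xch]
    by_cases h1 : y = w
    · subst h1
      rw [Equiv.swap_apply_left, e1, setRow_u u v G A hw]
      simp only [Bool.not_eq_true', decide_eq_false_iff_not]
      tauto
    by_cases h2 : y = x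
    · subst h2
      rw [Equiv.swap_apply_right, e2, setRow_u u v G A hx]
      simp only [Bool.not_eq_true', decide_eq_false_iff_not]
      tauto
    rw [Equiv.swap_apply_of_ne_of_ne h1 h2]
    constructor
    · rintro ⟨h3, h4⟩
      rw [flip4_off, setRow_u u v G A h3] at h4
      · simpa using h4
      · obtain ⟨y1, y2, y3⟩ := (mem_Dset u v G y).1 h3
        unfold inBlock
        rintro ⟨_, (⟨_, h | h⟩ | ⟨h | h, _⟩)⟩
        · exact h1 h
        · exact h2 h
        · exact y1 h
        · exact y2 h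
    · intro h3
      refine ⟨hsub h3, ?_⟩
      rw [flip4_off, setRow_u u v G A (hsub h3)]
      · simpa using h3
      · obtain ⟨y1, y2, y3⟩ := (mem_Dset u v G y).1 (hsub h3)
        unfold inBlock
        rintro ⟨_, (⟨_, h | h⟩ | ⟨h | h, _⟩)⟩
        · exact h1 h
        · exact h2 h
        · exact y1 h
        · exact y2 h
  · unfold sw
    rw [if_neg ha, ptsOf_setRow u v G A hsub]
    rw [alt_iff huv hr hw hx, setRow_u u v G A hw, setRow_u u v G A hx] at ha
    rw [xch_of_iff]
    simpa using ha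

theorem sum_sw (u v : V) (huv : u ≠ v) (f : Gr V → ℝ) (G : Gr V) :
    ∑ w, ∑ x, ∑ H ∈ cls (rel u v) G, (f H - f (sw u v w x H)) ^ 2 =
      ∑ w ∈ Dset u v G, ∑ x ∈ Dset u v G,
        ∑ A ∈ (Dset u v G).powersetCard (ptsOf u v G G).card,
          (f (setRow u v G A) - f (setRow u v G (xch w x A))) ^ 2 := by
  have hz : ∀ w x, ¬ (w ∈ Dset u v G ∧ x ∈ Dset u v G) →
      ∑ H ∈ cls (rel u v) G, (f H - f (sw u v w x H)) ^ 2 = 0 := by
    intro w x h
    refine sum_eq_zero fun H hH => ?_
    have : sw u v w x H = H := by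
      unfold sw
      rw [if_neg]
      intro ha
      exact h (alt_mem ((mem_cls _ _ _).1 hH) ha)
    rw [this]; ring
  rw [← sum_subset (subset_univ (Dset u v G))]
  · refine sum_congr rfl fun w hw => ?_
    rw [← sum_subset (subset_univ (Dset u v G))]
    · refine sum_congr rfl fun x hx => ?_
      rw [sum_cls_rel u v huv]
      refine sum_congr rfl fun A hA => ?_
      rw [sw_setRow huv G A hA hw hx]
    · intro x _ hx
      exact hz w x (fun h => hx h.2)
  · intro w _ hw
    exact sum_eq_zero fun x _ => hz w x (fun h => hw h.1)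

theorem card_cls_rel (u v : V) (huv : u ≠ v) (G : Gr V) :
    ((cls (rel u v) G).card : ℝ) =
      (((Dset u v G).powersetCard (ptsOf u v G G).card).card : ℝ) := by
  have := sum_cls_rel u v huv G (fun _ => 1)
  simpa using this

/-- the class of `rel2` -/
theorem sum_cls_rel2 {u v w x : V} (huv : u ≠ v) (G : Gr V) (A : Finset V)
    (hA : A ∈ Isep (Dset u v G) (ptsOf u v G G).card w x)
    (hw : w ∈ Dset u v G) (hx : x ∈ Dset u v G) (F : Gr V → ℝ) :
    ∑ H ∈ cls (rel2 u v w x) (setRow u v G A), F H =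
      ∑ B ∈ Isep (Dset u v G) (ptsOf u v G G).card w x, F (setRow u v G B) := by
  have hA' := hA
  rw [Isep, mem_filter] at hA
  obtain ⟨hA1, hA2⟩ := hA
  have hr := rel_setRow u v huv G A hA1
  obtain ⟨w1, w2, w3⟩ := (mem_Dset u v G w).1 hw
  obtain ⟨x1, x2, x3⟩ := (mem_Dset u v G x).1 hx
  have hs : (setRow u v G A u w).toNat + (setRow u v G A u x).toNat = 1 := by
    rw [setRow_u u v G A hw, setRow_u u v G A hx]
    by_cases h1 : w ∈ A <;> by_cases h2 : x ∈ A <;> simp_all
  have hmem : ∀ H, rel u v G H → (rel2 u v w x (setRow u v G A) H ↔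
      ptsOf u v G H ∈ Isep (Dset u v G) (ptsOf u v G G).card w x) := by
    intro H hH
    have hHw : (H u w).toNat + (H u x).toNat = 1 ↔ ¬ (H u w = true ↔ H u x = true) := by
      cases H u w <;> cases H u x <;> simp
    rw [Isep, mem_filter, mem_ptsOf, mem_ptsOf]
    simp only [hw, hx, true_and]
    constructor
    · rintro ⟨h1, h2⟩
      refine ⟨ptsOf_mem hH, ?_⟩
      have h3 := h2 ((rel_ne_iff hr w1 w2).1 w3) ((rel_ne_iff hr x1 x2).1 x3)
      rw [hs] at h3
      exact hHw.1 h3.symm
    · rintro ⟨h1, h2⟩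
      refine ⟨rel_trans (rel_symm hr) hH, fun _ _ => ?_⟩
      rw [hs]
      exact (hHw.2 h2).symm
  have hrel : ∀ H, H ∈ cls (rel2 u v w x) (setRow u v G A) → rel u v G H := by
    intro H hH
    exact rel_trans hr ((mem_cls _ _ _).1 hH).1
  refine Finset.sum_nbij' (ptsOf u v G) (setRow u v G) ?_ ?_ ?_ ?_ ?_
  · intro H hH
    exact (hmem H (hrel H hH)).1 ((mem_cls _ _ _).1 hH)
  · intro B hB
    have hB' := hB
    rw [Isep, mem_filter] at hB'
    have hrB := rel_setRow u v huv G B hB'.1
    rw [mem_cls, hmem _ hrB, ptsOf_setRow u v G B (mem_powersetCard.1 hB'.1).1]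
    exact hB
  · intro H hH; exact setRow_ptsOf huv (hrel H hH)
  · intro B hB
    rw [Isep, mem_filter] at hB
    exact ptsOf_setRow u v G B (mem_powersetCard.1 hB.1).1
  · intro H hH; rw [setRow_ptsOf huv (hrel H hH)]

/-- mean over the class -/
noncomputable def mn (u v : V) (f : Gr V → ℝ) (G : Gr V) : ℝ := avg (rel u v) f G

theorem sum_sub_mn (u v : V) (huv : u ≠ v) (f : Gr V → ℝ) (G : Gr V) :
    ∑ A ∈ (Dset u v G).powersetCard (ptsOf u v G G).card,
      (f (setRow u v G A) - avg (rel u v) f G) = 0 := by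
  rw [← sum_cls_rel u v huv G (fun H => f H - avg (rel u v) f G)]
  rw [sum_sub_distrib, sum_const, nsmul_eq_mul]
  unfold avg
  have := cls_card_pos' (rel_equiv u v) G
  field_simp
  ring

theorem J2' (u v : V) (huv : u ≠ v) (f : Gr V → ℝ) (G : Gr V) :
    4 * ((Dset u v G).card : ℝ) * ∑ A ∈ (Dset u v G).powersetCard (ptsOf u v G G).card,
      (f (setRow u v G A) - avg (rel u v) f G) ^ 2 ≤
      ∑ w, ∑ x, ∑ H ∈ cls (rel u v) G, (f H - f (sw u v w x H)) ^ 2 := by
  rw [sum_sw u v huv f G]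
  have h := johnson_J2 (Dset u v G) (ptsOf u v G G).card
    (fun A => f (setRow u v G A) - avg (rel u v) f G) (sum_sub_mn u v huv f G)
  simpa only [sub_sub_sub_cancel_right] using h

theorem row2_E (u v : V) (huv : u ≠ v) (f : Gr V → ℝ) (G : Gr V) :
    8 * ∑ H ∈ cls (rel u v) G, (P u v f H) ^ 2 ≤
      ∑ w, ∑ x, ∑ H ∈ cls (rel u v) G, (f H - f (sw u v w x H)) ^ 2 := by
  have hP : ∑ H ∈ cls (rel u v) G, (P u v f H) ^ 2 =
      ∑ A ∈ (Dset u v G).powersetCard (ptsOf u v G G).card,
        (f (setRow u v G A) - avg (rel u v) f G) ^ 2 := by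
    rw [sum_cls_rel u v huv]
    refine sum_congr rfl fun A hA => ?_
    unfold P
    rw [avg_eq_of_rel (rel_equiv u v) f (rel_setRow u v huv G A hA)]
  rw [hP]
  have hJ := J2' u v huv f G
  have h0 := sum_sub_mn u v huv f G
  set S := ∑ A ∈ (Dset u v G).powersetCard (ptsOf u v G G).card,
        (f (setRow u v G A) - avg (rel u v) f G) ^ 2 with hS
  have hS0 : 0 ≤ S := sum_nonneg fun _ _ => sq_nonneg _
  by_cases hc : 2 ≤ (Dset u v G).card
  · have hc' : (2 : ℝ) ≤ (Dset u v G).card := by exact_mod_cast hc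
    nlinarith
  · have hcard : ((Dset u v G).powersetCard (ptsOf u v G G).card).card ≤ 1 := by
      rw [card_powersetCard]
      have : (Dset u v G).card = 0 ∨ (Dset u v G).card = 1 := by omega
      rcases this with h | h
      · rw [h]; cases (ptsOf u v G G).card <;> simp
      · rw [h]
        rcases (ptsOf u v G G).card with _ | _ | n <;> simp [Nat.choose_eq_zero_of_lt]
    have hS' : S = 0 := by
      rw [hS]
      refine sum_eq_zero fun A hA => ?_
      have h1 : (Dset u v G).powersetCard (ptsOf u v G G).card = {A} := by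
        apply eq_singleton_iff_unique_mem.2
        exact ⟨hA, fun B hB => card_le_one.1 hcard B hB A hA⟩
      rw [h1, sum_singleton] at h0
      rw [h0]; ring
    rw [hS', mul_zero]
    exact sum_nonneg fun _ _ => sum_nonneg fun _ _ => sum_nonneg fun _ _ => sq_nonneg _

theorem row2_gam (u v : V) (huv : u ≠ v) (f : Gr V → ℝ) (G : Gr V) :
    4 * ∑ w, ∑ x, ∑ H ∈ cls (rel u v) G, gam u v w x f H ≤
      ∑ w, ∑ x, ∑ H ∈ cls (rel u v) G, (f H - f (sw u v w x H)) ^ 2 := by
  set D := Dset u v G with hD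
  set p := (ptsOf u v G G).card with hp
  set g : Finset V → ℝ := fun A => f (setRow u v G A) - avg (rel u v) f G with hg
  have hz : ∀ w x, ¬ (w ∈ D ∧ x ∈ D) → ∑ H ∈ cls (rel u v) G, gam u v w x f H = 0 := by
    intro w x h
    refine sum_eq_zero fun H hH => ?_
    unfold gam
    rw [if_neg]
    intro ha
    exact h (alt_mem ((mem_cls _ _ _).1 hH) ha)
  have key : ∀ w ∈ D, ∀ x ∈ D, ∑ H ∈ cls (rel u v) G, gam u v w x f H =
      (∑ A ∈ Isep D p w x, g A) ^ 2 / ((Isep D p w x).card : ℝ) := by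
    intro w hw x hx
    rw [sum_cls_rel u v huv]
    have e1 : ∀ A ∈ D.powersetCard p, gam u v w x f (setRow u v G A) =
        if ¬ (w ∈ A ↔ x ∈ A) then
          ((∑ B ∈ Isep D p w x, g B) / ((Isep D p w x).card : ℝ)) ^ 2 else 0 := by
      intro A hA
      have hr := rel_setRow u v huv G A hA
      unfold gam
      have halt : alt u v w x (setRow u v G A) ↔ ¬ (w ∈ A ↔ x ∈ A) := by
        rw [alt_iff huv hr hw hx, setRow_u u v G A hw, setRow_u u v G A hx]
        simp
      by_cases h : (w ∈ A ↔ x ∈ A)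
      · rw [if_neg (by rw [halt]; simpa using h), if_neg (by simpa using h)]
      · rw [if_pos (halt.2 h), if_pos h]
        congr 1
        have hA' : A ∈ Isep D p w x := by
          rw [Isep, mem_filter]; exact ⟨hA, h⟩
        have h1 : ∑ H ∈ cls (rel2 u v w x) (setRow u v G A), f H =
            ∑ B ∈ Isep D p w x, f (setRow u v G B) := sum_cls_rel2 huv G A hA' hw hx f
        have h2 : ∑ H ∈ cls (rel2 u v w x) (setRow u v G A), (1 : ℝ) =
            ∑ B ∈ Isep D p w x, (1 : ℝ) := sum_cls_rel2 huv G A hA' hw hx (fun _ => 1)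
        simp only [sum_const, nsmul_eq_mul, mul_one] at h2
        have hpos : (0 : ℝ) < ((Isep D p w x).card : ℝ) := by
          exact_mod_cast card_pos.2 ⟨A, hA'⟩
        rw [← avg_eq_of_rel (rel_equiv u v) f hr]
        rw [avg, h1, h2, hg]
        simp only [sum_sub_distrib, sum_const, nsmul_eq_mul]
        rw [sub_div, mul_div_assoc]
        field_simp
    rw [sum_congr rfl e1, ← sum_filter]
    change ∑ A ∈ Isep D p w x, ((∑ B ∈ Isep D p w x, g B) / ((Isep D p w x).card : ℝ)) ^ 2 = _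
    rw [sum_const, nsmul_eq_mul]
    by_cases hN : ((Isep D p w x).card : ℝ) = 0
    · rw [hN]; simp
    · field_simp
  have hsum : ∑ w, ∑ x, ∑ H ∈ cls (rel u v) G, gam u v w x f H =
      ∑ w ∈ D, ∑ x ∈ D, (∑ A ∈ Isep D p w x, g A) ^ 2 / ((Isep D p w x).card : ℝ) := by
    rw [← sum_subset (subset_univ D)]
    · refine sum_congr rfl fun w hw => ?_
      rw [← sum_subset (subset_univ D)]
      · exact sum_congr rfl fun x hx => key w hw x hx
      · intro x _ hx
        exact hz w x (fun h => hx h.2)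
    · intro w _ hw
      exact sum_eq_zero fun x _ => hz w x (fun h => hw h.1)
  rw [hsum]
  have h3 := johnson_J3 D p g (sum_sub_mn u v huv f G)
  have h2 := J2' u v huv f G
  linarith

end row2

end Crest.Agent.R299
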