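import Crest.Agent.R299.Comm
import Crest.Agent.R299.Row2
import Crest.Agent.R299.Lens3
import Crest.Agent.R299.Conn
import Crest.Agent.R299.Spectral

/-!
Row 299 (S0453): assembly of the spectral gap for the switch Laplacian.
-/

set_option autoImplicit false
set_option linter.unusedSectionVars false
set_option linter.unusedVariables false
open Finset

namespace Crest.Agent.R299

section graphs
variable {V : Type*} [Fintype V] [DecidableEq V]

/-- `∑_{u,v} (1 - E_{uv})` as a linear map -/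
noncomputable def KG (V : Type*) [Fintype V] [DecidableEq V] :
    (Gr V → ℝ) →ₗ[ℝ] (Gr V → ℝ) :=
  ∑ u : V, ∑ v : V, (LinearMap.id - avgL (rel (V := V) u v))

theorem KG_apply (f : Gr V → ℝ) : KG V f = fun G => ∑ u, ∑ v, P u v f G := by
  funext G
  simp [KG, P, LinearMap.sum_apply, Finset.sum_apply]

theorem ip_P_self (u v : V) (f : Gr V → ℝ) : ip f (P u v f) = ip (P u v f) (P u v f) :=
  ip_sub_avg_self (rel_equiv u v) f

theorem ip_P_symm (u v : V) (f g : Gr V → ℝ) : ip (P u v f) g = ip f (P u v g) := by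
  unfold P
  rw [ip_sub_left f, ip_sub_right, ip_avg_left (rel_equiv u v)]

theorem ip_KG_right (f g : Gr V → ℝ) : ip f (KG V g) = ∑ u, ∑ v, ip f (P u v g) := by
  rw [KG_apply]
  have : ip f (fun G => ∑ u, ∑ v, P u v g G) = ∑ u, ip f (fun G => ∑ v, P u v g G) :=
    ip_sum_right univ (fun u G => ∑ v, P u v g G) f
  rw [this]
  exact Finset.sum_congr rfl fun u _ => ip_sum_right univ (fun v => P u v g) f

theorem ip_KG_left (f g : Gr V → ℝ) : ip (KG V f) g = ∑ u, ∑ v, ip (P u v f) g := by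
  rw [ip_comm, ip_KG_right]
  exact Finset.sum_congr rfl fun u _ => Finset.sum_congr rfl fun v _ => ip_comm _ _

theorem ip_KG_symm (f g : Gr V → ℝ) : ip (KG V f) g = ip f (KG V g) := by
  rw [ip_KG_left, ip_KG_right]
  exact Finset.sum_congr rfl fun u _ => Finset.sum_congr rfl fun v _ => ip_P_symm u v f g

theorem ip_KG_self (f : Gr V → ℝ) :
    ip f (KG V f) = ∑ u, ∑ v, ip (P u v f) (P u v f) := by
  rw [ip_KG_right]
  exact Finset.sum_congr rfl fun u _ => Finset.sum_congr rfl fun v _ => ip_P_self u v f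

theorem ip_KG_nonneg (f : Gr V → ℝ) : 0 ≤ ip f (KG V f) := by
  rw [ip_KG_self]
  exact Finset.sum_nonneg fun u _ => Finset.sum_nonneg fun v _ => ip_self_nonneg _

theorem ip_zero_left' (g : Gr V → ℝ) : ip (fun _ => (0:ℝ)) g = 0 := by
  simp [ip]

theorem ip_zero_right' (g : Gr V → ℝ) : ip g (fun _ => (0:ℝ)) = 0 := by
  simp [ip]

/-- the four-fold sum -/
noncomputable def aa (f : Gr V → ℝ) (u v w x : V) : ℝ := ip (P u v f) (P w x f)

theorem aa_rows (f : Gr V → ℝ) (u v w x : V) : aa f u v w x = aa f v u w x := by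
  unfold aa; rw [P_comm u v]

theorem aa_cols (f : Gr V → ℝ) (u v w x : V) : aa f u v w x = aa f u v x w := by
  unfold aa; rw [P_comm w x]

theorem aa_swap (f : Gr V → ℝ) (u v w x : V) : aa f u v w x = aa f w x u v := ip_comm _ _

theorem aa_zero (f : Gr V → ℝ) (u w x : V) : aa f u u w x = 0 := by
  unfold aa; rw [P_self, ip_zero_left']

theorem aa_zero' (f : Gr V → ℝ) (u v w : V) : aa f u v w w = 0 := by
  unfold aa; rw [P_self, ip_zero_right']

theorem aa_split (f : Gr V → ℝ) (u v w x : V) : aa f u v w x =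
    (if w = u then (if x = v then aa f u v w x else 0) else 0) +
    (if w = v then (if x = u then aa f u v w x else 0) else 0) +
    (if w = u then (if x ≠ v then aa f u v w x else 0) else 0) +
    (if x = u then (if w ≠ v then aa f u v w x else 0) else 0) +
    (if w = v then (if x ≠ u then aa f u v w x else 0) else 0) +
    (if x = v then (if w ≠ u then aa f u v w x else 0) else 0) +
    (if Q4 u v w x then aa f u v w x else 0) := by
  by_cases huv : u = v
  · subst huv; simp [aa_zero]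
  by_cases hwx : w = x
  · subst hwx; simp [aa_zero']
  have huv' : v ≠ u := fun h => huv h.symm
  have hwx' : x ≠ w := fun h => hwx h.symm
  unfold Q4
  by_cases h1 : w = u
  · subst h1
    by_cases h2 : x = v
    · subst h2; simp [huv, huv']
    · simp [huv, hwx', h2]
  · by_cases h3 : w = v
    · subst h3
      by_cases h4 : x = u
      · subst h4; simp [huv, huv']
      · simp [huv, huv', h4, hwx']
    · by_cases h5 : x = u
      · subst h5; simp [h1, h3, huv]
      · by_cases h6 : x = v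
        · subst h6; simp [h1, h3, huv, h5]
        · simp [h1, h3, h5, h6, huv, hwx, Ne.symm h1, Ne.symm h3, Ne.symm h5, Ne.symm h6]

theorem sum_ite_eq_fst (F : V → V → ℝ) (u : V) :
    ∑ w, ∑ x, (if w = u then F w x else 0) = ∑ x, F u x := by
  rw [Finset.sum_comm]
  exact Finset.sum_congr rfl fun x _ => by simp

theorem sum_ite_eq_snd (F : V → V → ℝ) (u : V) :
    ∑ w, ∑ x, (if x = u then F w x else 0) = ∑ w, F w u :=
  Finset.sum_congr rfl fun x _ => by simp

/-- the sum over pairs sharing one vertex -/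
noncomputable def S3 (f : Gr V → ℝ) : ℝ := ∑ u, ∑ v, ∑ x, if x ≠ v then aa f u v u x else 0

/-- the sum over disjoint pairs -/
noncomputable def T2 (f : Gr V → ℝ) : ℝ := ∑ u, ∑ v, ∑ w, ∑ x, if Q4 u v w x then aa f u v w x else 0

theorem sum_aa (f : Gr V → ℝ) : ∑ u, ∑ v, ∑ w, ∑ x, aa f u v w x =
    2 * ∑ u, ∑ v, aa f u v u v + 4 * S3 f + T2 f := by
  have h : ∀ u v : V, ∑ w, ∑ x, aa f u v w x =
      aa f u v u v + aa f u v v u + (∑ x, if x ≠ v then aa f u v u x else 0) +
      (∑ w, if w ≠ v then aa f u v w u else 0) +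
      (∑ x, if x ≠ u then aa f u v v x else 0) +
      (∑ w, if w ≠ u then aa f u v w v else 0) +
      ∑ w, ∑ x, (if Q4 u v w x then aa f u v w x else 0) := by
    intro u v
    rw [Finset.sum_congr rfl fun w _ => Finset.sum_congr rfl fun x _ => aa_split f u v w x]
    simp only [Finset.sum_add_distrib]
    rw [sum_ite_eq_fst (fun w x => if x = v then aa f u v w x else 0) u,
      sum_ite_eq_fst (fun w x => if x = u then aa f u v w x else 0) v,
      sum_ite_eq_fst (fun w x => if x ≠ v then aa f u v w x else 0) u,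
      sum_ite_eq_snd (fun w x => if w ≠ v then aa f u v w x else 0) u,
      sum_ite_eq_fst (fun w x => if x ≠ u then aa f u v w x else 0) v,
      sum_ite_eq_snd (fun w x => if w ≠ u then aa f u v w x else 0) v]
    simp
  simp only [h, Finset.sum_add_distrib]
  have e1 : ∑ u, ∑ v, aa f u v v u = ∑ u, ∑ v, aa f u v u v :=
    Finset.sum_congr rfl fun u _ => Finset.sum_congr rfl fun v _ => aa_cols f u v v u
  have e2 : ∑ u, ∑ v, ∑ w, (if w ≠ v then aa f u v w u else 0) = S3 f :=
    Finset.sum_congr rfl fun u _ => Finset.sum_congr rfl fun v _ =>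
      Finset.sum_congr rfl fun w _ => by rw [aa_cols f u v w u]
  have e3 : ∑ u, ∑ v, ∑ x, (if x ≠ u then aa f u v v x else 0) = S3 f := by
    unfold S3
    rw [Finset.sum_comm]
    exact Finset.sum_congr rfl fun u _ => Finset.sum_congr rfl fun v _ =>
      Finset.sum_congr rfl fun w _ => by rw [aa_rows f v u u w]
  have e4 : ∑ u, ∑ v, ∑ w, (if w ≠ u then aa f u v w v else 0) = S3 f := by
    unfold S3
    rw [Finset.sum_comm]
    exact Finset.sum_congr rfl fun u _ => Finset.sum_congr rfl fun v _ =>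
      Finset.sum_congr rfl fun w _ => by rw [aa_rows f v u w u, aa_cols f u v w u]
  rw [e1, e2, e3, e4]
  show ∑ u, ∑ v, aa f u v u v + ∑ u, ∑ v, aa f u v u v + S3 f + S3 f + S3 f + S3 f + T2 f = _
  ring

theorem S3_nonneg (f : Gr V → ℝ) : 0 ≤ S3 f := by
  have h1 : S3 f = ∑ x : V, ∑ y : V, ∑ z : V, if x ≠ z then aa f y x y z else 0 := by
    unfold S3
    rw [Finset.sum_comm]
    exact Finset.sum_congr rfl fun x _ => Finset.sum_congr rfl fun y _ =>
      Finset.sum_congr rfl fun z _ => by simp only [ne_comm]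
  have h2 : S3 f = ∑ x : V, ∑ y : V, ∑ z : V, if x ≠ y then aa f z x z y else 0 := by
    unfold S3
    rw [Finset.sum_comm]
    refine Finset.sum_congr rfl fun x _ => ?_
    rw [Finset.sum_comm]
    exact Finset.sum_congr rfl fun y _ => Finset.sum_congr rfl fun z _ => by
      simp only [ne_comm]
  have h3 : 3 * S3 f = ∑ x : V, ∑ y : V, ∑ z : V, ((if z ≠ y then aa f x y x z else 0) +
      (if x ≠ z then aa f y x y z else 0) + (if x ≠ y then aa f z x z y else 0)) := by
    simp only [Finset.sum_add_distrib]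
    rw [← h1, ← h2]
    show 3 * S3 f = S3 f + S3 f + S3 f
    ring
  have h4 : 0 ≤ 3 * S3 f := by
    rw [h3]
    refine Finset.sum_nonneg fun x _ => Finset.sum_nonneg fun y _ => Finset.sum_nonneg fun z _ => ?_
    by_cases hxy : x = y
    · subst hxy
      rw [aa_zero]; simp
    by_cases hxz : x = z
    · subst hxz
      rw [aa_zero', aa_zero]; simp
    by_cases hyz : y = z
    · subst hyz
      rw [aa_zero']; simp
    rw [if_pos (Ne.symm hyz), if_pos hxz, if_pos hxy]
    have := T1_triple x y z hxy hxz hyz f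
    unfold aa
    rw [P_comm y x, P_comm z x, P_comm z y]
    linarith
  linarith

/-- the switch energy -/
noncomputable def EE (f : Gr V → ℝ) : ℝ :=
  ∑ u, ∑ v, ∑ w, ∑ x, ∑ G, (f G - f (sw u v w x G)) ^ 2

theorem not_alt_of_not_Q4 {u v w x : V} (h : ¬ Q4 u v w x) (G : Gr V) : ¬ alt u v w x G :=
  fun h' => h h'.1

theorem sw_of_not_Q4 {u v w x : V} (h : ¬ Q4 u v w x) (G : Gr V) : sw u v w x G = G := by
  unfold sw; rw [if_neg (not_alt_of_not_Q4 h G)]

theorem gam_of_not_Q4 {u v w x : V} (h : ¬ Q4 u v w x) (f : Gr V → ℝ) (G : Gr V) :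
    gam u v w x f G = 0 := by
  unfold gam; rw [if_neg (not_alt_of_not_Q4 h G)]

theorem not_Q4_self (u w x : V) : ¬ Q4 u u w x := fun h => h.1 rfl

theorem gam_sum_le (u v : V) (f : Gr V → ℝ) :
    4 * ∑ w, ∑ x, ∑ G, gam u v w x f G ≤ ∑ w, ∑ x, ∑ G, (f G - f (sw u v w x G)) ^ 2 := by
  by_cases huv : u = v
  · subst huv
    simp only [gam_of_not_Q4 (not_Q4_self u _ _), sw_of_not_Q4 (not_Q4_self u _ _), sub_self]
    simp
  · have key := sum_le_sum_of_cls (rel_equiv u v)
      (fun H => 4 * ∑ w, ∑ x, gam u v w x f H)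
      (fun H => ∑ w, ∑ x, (f H - f (sw u v w x H)) ^ 2) (by
        intro G
        have h := row2_gam u v huv f G
        rw [← Finset.mul_sum]
        have e1 : ∑ H ∈ cls (rel u v) G, ∑ w, ∑ x, gam u v w x f H =
            ∑ w, ∑ x, ∑ H ∈ cls (rel u v) G, gam u v w x f H := by
          rw [Finset.sum_comm]
          exact Finset.sum_congr rfl fun w _ => Finset.sum_comm
        have e2 : ∑ H ∈ cls (rel u v) G, ∑ w, ∑ x, (f H - f (sw u v w x H)) ^ 2 =
            ∑ w, ∑ x, ∑ H ∈ cls (rel u v) G, (f H - f (sw u v w x H)) ^ 2 := by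
          rw [Finset.sum_comm]
          exact Finset.sum_congr rfl fun w _ => Finset.sum_comm
        rw [e1, e2]
        exact h)
    have e1 : ∑ H, 4 * ∑ w, ∑ x, gam u v w x f H = 4 * ∑ w, ∑ x, ∑ G, gam u v w x f G := by
      rw [← Finset.mul_sum, Finset.sum_comm]
      congr 1
      exact Finset.sum_congr rfl fun w _ => Finset.sum_comm
    have e2 : ∑ H, ∑ w, ∑ x, (f H - f (sw u v w x H)) ^ 2 =
        ∑ w, ∑ x, ∑ G, (f G - f (sw u v w x G)) ^ 2 := by
      rw [Finset.sum_comm]
      exact Finset.sum_congr rfl fun w _ => Finset.sum_comm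
    rw [e1, e2] at key
    exact key

theorem P_sum_le (u v : V) (f : Gr V → ℝ) :
    8 * ip (P u v f) (P u v f) ≤ ∑ w, ∑ x, ∑ G, (f G - f (sw u v w x G)) ^ 2 := by
  by_cases huv : u = v
  · subst huv
    rw [P_self, ip_zero_left']
    simp only [sw_of_not_Q4 (not_Q4_self u _ _), sub_self]
    simp
  · have key := sum_le_sum_of_cls (rel_equiv u v)
      (fun H => 8 * (P u v f H) ^ 2)
      (fun H => ∑ w, ∑ x, (f H - f (sw u v w x H)) ^ 2) (by
        intro G
        have h := row2_E u v huv f G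
        rw [← Finset.mul_sum]
        have e2 : ∑ H ∈ cls (rel u v) G, ∑ w, ∑ x, (f H - f (sw u v w x H)) ^ 2 =
            ∑ w, ∑ x, ∑ H ∈ cls (rel u v) G, (f H - f (sw u v w x H)) ^ 2 := by
          rw [Finset.sum_comm]
          exact Finset.sum_congr rfl fun w _ => Finset.sum_comm
        rw [e2]
        exact h)
    have e2 : ∑ H, ∑ w, ∑ x, (f H - f (sw u v w x H)) ^ 2 =
        ∑ w, ∑ x, ∑ G, (f G - f (sw u v w x G)) ^ 2 := by
      rw [Finset.sum_comm]
      exact Finset.sum_congr rfl fun w _ => Finset.sum_comm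
    rw [e2, ← Finset.mul_sum, ← ip_self] at key
    exact key

theorem T2_nonneg (f : Gr V → ℝ) : 0 ≤ T2 f := by
  have h1 : ∀ u v w x : V, (1 / 4) * ∑ G, (f G - f (sw u v w x G)) ^ 2
      - (1 / 2) * ∑ G, gam u v w x f G - (1 / 2) * ∑ G, gam w x u v f G ≤
      if Q4 u v w x then aa f u v w x else 0 := by
    intro u v w x
    by_cases h : Q4 u v w x
    · rw [if_pos h]; exact T2_quad u v w x h f
    · have h' : ¬ Q4 w x u v := fun h' => h (Q4_swap h')
      rw [if_neg h]
      simp only [gam_of_not_Q4 h, gam_of_not_Q4 h', sw_of_not_Q4 h, sub_self]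
      simp
  have h2 : (1 / 4) * EE f - (1 / 2) * (∑ u, ∑ v, ∑ w, ∑ x, ∑ G, gam u v w x f G) -
      (1 / 2) * (∑ u, ∑ v, ∑ w, ∑ x, ∑ G, gam w x u v f G) ≤ T2 f := by
    unfold T2 EE
    simp only [Finset.mul_sum, ← Finset.sum_sub_distrib]
    refine Finset.sum_le_sum fun u _ => Finset.sum_le_sum fun v _ => Finset.sum_le_sum fun w _ =>
      Finset.sum_le_sum fun x _ => ?_
    have := h1 u v w x
    simp only [Finset.mul_sum, ← Finset.sum_sub_distrib] at this
    exact this
  have h3 : ∑ u : V, ∑ v, ∑ w, ∑ x, ∑ G, gam w x u v f G =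
      ∑ u, ∑ v, ∑ w, ∑ x, ∑ G, gam u v w x f G := by
    have e : ∀ F : V → V → V → V → ℝ, ∑ u, ∑ v, ∑ w, ∑ x, F w x u v =
        ∑ u, ∑ v, ∑ w, ∑ x, F u v w x := by
      intro F
      calc ∑ u, ∑ v, ∑ w, ∑ x, F w x u v = ∑ u, ∑ w, ∑ v, ∑ x, F w x u v :=
            Finset.sum_congr rfl fun u _ => Finset.sum_comm
        _ = ∑ w, ∑ u, ∑ v, ∑ x, F w x u v := Finset.sum_comm
        _ = ∑ w, ∑ u, ∑ x, ∑ v, F w x u v :=
            Finset.sum_congr rfl fun w _ => Finset.sum_congr rfl fun u _ => Finset.sum_comm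
        _ = ∑ w, ∑ x, ∑ u, ∑ v, F w x u v :=
            Finset.sum_congr rfl fun w _ => Finset.sum_comm
    exact e (fun u v w x => ∑ G, gam u v w x f G)
  have h4 : 4 * (∑ u, ∑ v, ∑ w, ∑ x, ∑ G, gam u v w x f G) ≤ EE f := by
    unfold EE
    rw [Finset.mul_sum]
    refine Finset.sum_le_sum fun u _ => ?_
    rw [Finset.mul_sum]
    exact Finset.sum_le_sum fun v _ => gam_sum_le u v f
  rw [h3] at h2
  linarith

theorem KG_sq (f : Gr V → ℝ) : 2 * ip f (KG V f) ≤ ip (KG V f) (KG V f) := by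
  have h1 : ip (KG V f) (KG V f) = ∑ u, ∑ v, ∑ w, ∑ x, aa f u v w x := by
    rw [ip_KG_left]
    refine Finset.sum_congr rfl fun u _ => Finset.sum_congr rfl fun v _ => ?_
    rw [ip_KG_right]
    rfl
  have h2 : ip f (KG V f) = ∑ u, ∑ v, aa f u v u v := ip_KG_self f
  rw [h1, h2, sum_aa]
  have := S3_nonneg f
  have := T2_nonneg f
  linarith

theorem EE_ge (f : Gr V → ℝ) : 8 * ip f (KG V f) ≤ EE f := by
  rw [ip_KG_self, Finset.mul_sum]
  unfold EE
  refine Finset.sum_le_sum fun u _ => ?_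
  rw [Finset.mul_sum]
  exact Finset.sum_le_sum fun v _ => P_sum_le u v f

/-- the degree relation -/
def degRel (G H : Gr V) : Prop := ∀ y, deg H y = deg G y

theorem degRel_equiv : Equivalence (degRel (V := V)) :=
  ⟨fun _ _ => rfl, fun h y => (h y).symm, fun h h' y => (h' y).trans (h y)⟩

theorem ker_KG {g : Gr V → ℝ} (hg : KG V g = 0) (G H : Gr V) (h : degRel G H) : g G = g H := by
  have h1 : ip g (KG V g) = 0 := by rw [hg]; exact ip_zero_right' g
  rw [ip_KG_self] at h1
  have h2 : ∀ u v : V, ip (P u v g) (P u v g) = 0 := by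
    intro u v
    have e1 := (Finset.sum_eq_zero_iff_of_nonneg (fun u _ => Finset.sum_nonneg fun v _ =>
      ip_self_nonneg (P u v g))).1 h1 u (mem_univ u)
    exact (Finset.sum_eq_zero_iff_of_nonneg (fun v _ => ip_self_nonneg (P u v g))).1 e1 v
      (mem_univ v)
  refine conn g ?_ G H (fun y => (h y).symm)
  intro u v w x K
  have e1 : g K - avg (rel u v) g K = 0 := ip_self_eq_zero (h2 u v) K
  have e2 : g (sw u v w x K) - avg (rel u v) g (sw u v w x K) = 0 :=
    ip_self_eq_zero (h2 u v) (sw u v w x K)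
  have e3 := avg_eq_of_rel (rel_equiv u v) g (sw_rel u v w x K)
  linarith

/-- the spectral gap of the switch Laplacian -/
theorem main_gap (f : Gr V → ℝ) (hf : ∀ G, ∑ H with (∀ y, deg H y = deg G y), f H = 0) :
    16 * ∑ G, f G ^ 2 ≤ ∑ u, ∑ v, ∑ w, ∑ x, ∑ G, (f G - f (sw u v w x G)) ^ 2 := by
  have h0 : avg degRel f = fun _ => 0 := by
    funext G
    unfold avg
    have : ∑ H ∈ cls degRel G, f H = 0 := by
      rw [← hf G]
      refine Finset.sum_congr ?_ fun _ _ => rfl
      ext H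
      simp [degRel]
    rw [this, zero_div]
  have h1 : ∀ g, KG V g = 0 → ip f g = 0 := by
    intro g hg
    have e1 : avg degRel g = g := avg_of_invariant degRel_equiv (ker_KG hg)
    rw [← e1, ip_avg_right degRel_equiv, h0, ip_zero_left']
  have h2 := spectral2 (KG V) ip_KG_symm ip_KG_nonneg 2 KG_sq f h1
  have h3 := EE_ge f
  rw [← ip_self]
  show 16 * ip f f ≤ EE f
  linarith

end graphs

end Crest.Agent.R299
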