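import Crest.Agent.R299.Rel

/-!
Row 299 (S0453): two-row classes of `T × 3` matrices, Johnson connectivity, coupling lemma.
-/

set_option autoImplicit false
set_option linter.unusedSectionVars false
set_option linter.unusedVariables false
open Finset

namespace Crest.Agent.R299

section subsets
variable {T : Type*} [DecidableEq T]

/-- connectivity of the Johnson graph -/
theorem johnson_conn {β : Type*} (D : Finset T) (F : Finset T → β)
    (hF : ∀ A ⊆ D, ∀ w ∈ A, ∀ x ∈ D, x ∉ A → F (insert x (A.erase w)) = F A) :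
    ∀ n : ℕ, ∀ A B : Finset T, A ⊆ D → B ⊆ D → A.card = B.card → (A \ B).card = n → F A = F B := by
  intro n
  induction n with
  | zero =>
    intro A B hA hB hc hn
    have h1 : A ⊆ B := by
      rw [Finset.card_eq_zero, Finset.sdiff_eq_empty_iff_subset] at hn; exact hn
    rw [Finset.eq_of_subset_of_card_le h1 hc.ge]
  | succ n ih =>
    intro A B hA hB hc hn
    have h1 : (A \ B).Nonempty := by
      rw [← Finset.card_pos]; omega
    obtain ⟨w, hw⟩ := h1
    have h2 : (B \ A).card = (A \ B).card := by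
      have e1 := Finset.card_sdiff_add_card_inter A B
      have e2 := Finset.card_sdiff_add_card_inter B A
      rw [Finset.inter_comm] at e2
      omega
    have h3 : (B \ A).Nonempty := by
      rw [← Finset.card_pos]; omega
    obtain ⟨x, hx⟩ := h3
    rw [Finset.mem_sdiff] at hw hx
    rw [← hF A hA w hw.1 x (hB hx.1) hx.2]
    apply ih
    · intro y hy
      rw [Finset.mem_insert, Finset.mem_erase] at hy
      rcases hy with rfl | hy
      · exact hB hx.1
      · exact hA hy.2
    · exact hB
    · rw [Finset.card_insert_of_notMem (by simp [hx.2]), Finset.card_erase_of_mem hw.1]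
      have := Finset.card_pos.2 ⟨w, hw.1⟩
      omega
    · have e : insert x (A.erase w) \ B = (A \ B).erase w := by
        ext y
        simp only [Finset.mem_sdiff, Finset.mem_insert, Finset.mem_erase]
        constructor
        · rintro ⟨rfl | ⟨h4, h5⟩, h6⟩
          · exact absurd hx.1 h6
          · exact ⟨h4, h5, h6⟩
        · rintro ⟨h4, h5, h6⟩
          exact ⟨Or.inr ⟨h4, h5⟩, h6⟩
      rw [e, Finset.card_erase_of_mem (by simp [hw]), hn]
      rfl

/-- double counting between levels -/
theorem sum_up_down (D : Finset T) (q : ℕ) (Φ : Finset T → Finset T → ℝ) :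
    ∑ Q ∈ D.powersetCard q, ∑ z ∈ D \ Q, Φ Q (insert z Q) =
      ∑ P ∈ D.powersetCard (q + 1), ∑ z ∈ P, Φ (P.erase z) P := by
  rw [Finset.sum_sigma', Finset.sum_sigma']
  refine Finset.sum_nbij' (fun s => ⟨insert s.2 s.1, s.2⟩) (fun s => ⟨s.1.erase s.2, s.2⟩)
    ?_ ?_ ?_ ?_ ?_
  · rintro ⟨Q, z⟩ h
    simp only [Finset.mem_sigma, Finset.mem_powersetCard, Finset.mem_sdiff] at h ⊢
    obtain ⟨⟨h1, h2⟩, h3, h4⟩ := h
    refine ⟨⟨Finset.insert_subset h3 h1, ?_⟩, Finset.mem_insert_self _ _⟩
    rw [Finset.card_insert_of_notMem h4, h2]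
  · rintro ⟨P, z⟩ h
    simp only [Finset.mem_sigma, Finset.mem_powersetCard, Finset.mem_sdiff] at h ⊢
    obtain ⟨⟨h1, h2⟩, h3⟩ := h
    refine ⟨⟨(Finset.erase_subset _ _).trans h1, ?_⟩, h1 h3, by simp⟩
    rw [Finset.card_erase_of_mem h3, h2]; rfl
  · rintro ⟨Q, z⟩ h
    simp only [Finset.mem_sigma, Finset.mem_powersetCard, Finset.mem_sdiff] at h
    simp only [Finset.erase_insert h.2.2]
  · rintro ⟨P, z⟩ h
    simp only [Finset.mem_sigma] at h
    simp only [Finset.insert_erase h.2]
  · rintro ⟨Q, z⟩ h
    simp only [Finset.mem_sigma, Finset.mem_powersetCard, Finset.mem_sdiff] at h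
    simp only [Finset.erase_insert h.2.2]

theorem sum_powersetCard_insert' {x : T} {s : Finset T} (hx : x ∉ s) (p : ℕ)
    (F : Finset T → ℝ) :
    ∑ A ∈ (insert x s).powersetCard (p + 1), F A =
      ∑ A ∈ s.powersetCard (p + 1), F A + ∑ A ∈ s.powersetCard p, F (insert x A) := by
  rw [Finset.powersetCard_succ_insert hx, Finset.sum_union, Finset.sum_image]
  · intro A hA B hB hAB
    have h1 : x ∉ A := fun h => hx ((Finset.mem_powersetCard.1 hA).1 h)
    have h2 : x ∉ B := fun h => hx ((Finset.mem_powersetCard.1 hB).1 h)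
    have hAB' : insert x A = insert x B := hAB
    rw [← Finset.erase_insert h1, ← Finset.erase_insert h2, hAB']
  · rw [Finset.disjoint_left]
    intro A hA hA'
    rw [Finset.mem_image] at hA'
    obtain ⟨B, hB, rfl⟩ := hA'
    exact hx ((Finset.mem_powersetCard.1 hA).1 (Finset.mem_insert_self _ _))

/-- The coupling lemma. `F` lives on `p`-subsets of `D`, `G` on `p+1`-subsets of `D ∪ {k,l}`. -/
theorem coupling (D : Finset T) (k l : T) (hk : k ∉ D) (hl : l ∉ D) (hkl : k ≠ l) (p : ℕ)
    (hp : p ≤ D.card) (F G : Finset T → ℝ) (ℓ : ℝ)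
    (h1 : ∀ P ∈ D.powersetCard p, |G (insert k P) - F P| ≤ ℓ)
    (h2 : ∀ P ∈ D.powersetCard p, |G (insert l P) - F P| ≤ ℓ)
    (h3 : ∀ q, q + 1 = p → ∀ Q ∈ D.powersetCard q, ∀ z ∈ D \ Q,
      |G (insert k (insert l Q)) - F (insert z Q)| ≤ ℓ)
    (h4 : ∀ Q ∈ D.powersetCard (p + 1), ∀ z ∈ Q, |G Q - F (Q.erase z)| ≤ ℓ) :
    |(∑ A ∈ (insert k (insert l D)).powersetCard (p + 1), G A) /
        (((insert k (insert l D)).powersetCard (p + 1)).card : ℝ) -
      (∑ A ∈ D.powersetCard p, F A) / ((D.powersetCard p).card : ℝ)| ≤ ℓ := by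
  set S : ℝ := ∑ A ∈ D.powersetCard p, F A with hS
  set N : ℝ := ((D.powersetCard p).card : ℝ) with hN
  have hNpos : 0 < N := by
    rw [hN, Finset.card_powersetCard]
    exact_mod_cast Nat.choose_pos hp
  have hk' : k ∉ insert l D := by simp [hkl, hk]
  -- piece 1 and 2
  have b1 : |∑ P ∈ D.powersetCard p, G (insert k P) - S| ≤ N * ℓ := by
    rw [hS, ← Finset.sum_sub_distrib]
    refine (Finset.abs_sum_le_sum_abs _ _).trans ?_
    refine (Finset.sum_le_sum h1).trans ?_
    rw [Finset.sum_const, nsmul_eq_mul]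
  have b2 : |∑ P ∈ D.powersetCard p, G (insert l P) - S| ≤ N * ℓ := by
    rw [hS, ← Finset.sum_sub_distrib]
    refine (Finset.abs_sum_le_sum_abs _ _).trans ?_
    refine (Finset.sum_le_sum h2).trans ?_
    rw [Finset.sum_const, nsmul_eq_mul]
  -- piece 4
  have b4 : |∑ Q ∈ D.powersetCard (p + 1), G Q - (((D.powersetCard (p + 1)).card : ℝ) / N) * S| ≤
      ((D.powersetCard (p + 1)).card : ℝ) * ℓ := by
    have e1 := sum_up_down D p (fun Q P => G P - F Q)
    have e2 : ∑ P ∈ D.powersetCard (p + 1), ∑ z ∈ P, (G P - F (P.erase z)) =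
        (p + 1 : ℝ) * ∑ P ∈ D.powersetCard (p + 1), G P - ((D.card : ℝ) - p) * S := by
      have e3 := sum_up_down D p (fun Q _ => F Q)
      have e4 : ∑ Q ∈ D.powersetCard p, ∑ z ∈ D \ Q, F Q = ((D.card : ℝ) - p) * S := by
        rw [hS, Finset.mul_sum]
        refine Finset.sum_congr rfl fun Q hQ => ?_
        rw [Finset.mem_powersetCard] at hQ
        rw [Finset.sum_const, nsmul_eq_mul, Finset.card_sdiff_of_subset hQ.1, hQ.2,
          Nat.cast_sub hp]
      rw [← e4, e3, Finset.mul_sum, ← Finset.sum_sub_distrib]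
      refine Finset.sum_congr rfl fun P hP => ?_
      rw [Finset.sum_sub_distrib, Finset.sum_const, (Finset.mem_powersetCard.1 hP).2]
      simp
    have e5 : |∑ P ∈ D.powersetCard (p + 1), ∑ z ∈ P, (G P - F (P.erase z))| ≤
        (p + 1 : ℝ) * (((D.powersetCard (p + 1)).card : ℝ) * ℓ) := by
      refine (Finset.abs_sum_le_sum_abs _ _).trans ?_
      have : ∀ P ∈ D.powersetCard (p + 1), |∑ z ∈ P, (G P - F (P.erase z))| ≤ (p + 1 : ℝ) * ℓ := by
        intro P hP
        refine (Finset.abs_sum_le_sum_abs _ _).trans ?_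
        refine (Finset.sum_le_sum (h4 P hP)).trans ?_
        rw [Finset.sum_const, (Finset.mem_powersetCard.1 hP).2]
        simp
      refine (Finset.sum_le_sum this).trans ?_
      rw [Finset.sum_const, nsmul_eq_mul]
      exact le_of_eq (by ring)
    have e6 : ((D.card : ℝ) - p) = (p + 1 : ℝ) * (((D.powersetCard (p + 1)).card : ℝ) / N) := by
      rw [hN, Finset.card_powersetCard, Finset.card_powersetCard]
      have h7 : ((D.card.choose p : ℕ) : ℝ) ≠ 0 := by
        exact_mod_cast (Nat.choose_pos hp).ne'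
      have h8 := Nat.choose_succ_right_eq D.card p
      have h9 : ((D.card.choose (p + 1) : ℕ) : ℝ) * (p + 1) =
          (D.card.choose p : ℕ) * ((D.card : ℝ) - p) := by
        rw [← Nat.cast_sub hp]
        exact_mod_cast h8
      field_simp
      linarith
    rw [e2, e6] at e5
    have e7 : (p + 1 : ℝ) * ∑ P ∈ D.powersetCard (p + 1), G P -
        (p + 1 : ℝ) * (((D.powersetCard (p + 1)).card : ℝ) / N) * S =
        (p + 1 : ℝ) * (∑ P ∈ D.powersetCard (p + 1), G P -
          (((D.powersetCard (p + 1)).card : ℝ) / N) * S) := by ring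
    have hp1 : (0 : ℝ) < p + 1 := by positivity
    rw [e7, abs_mul, abs_of_pos hp1] at e5
    exact le_of_mul_le_mul_left e5 hp1
  rcases Nat.eq_zero_or_pos p with hp0 | hp0
  · subst hp0
    have hcard : (((insert k (insert l D)).powersetCard (0 + 1)).card : ℝ) =
        2 * N + ((D.powersetCard (0 + 1)).card : ℝ) := by
      rw [hN]
      simp only [Finset.card_powersetCard, Finset.card_insert_of_notMem hk',
        Finset.card_insert_of_notMem hl]
      simp
      ring
    have hsum : ∑ A ∈ (insert k (insert l D)).powersetCard (0 + 1), G A =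
        ∑ P ∈ D.powersetCard 0, G (insert k P) + ∑ P ∈ D.powersetCard 0, G (insert l P) +
          ∑ Q ∈ D.powersetCard (0 + 1), G Q := by
      rw [sum_powersetCard_insert' hk', sum_powersetCard_insert' hl]
      simp only [Finset.powersetCard_zero]
      ring
    rw [hcard, hsum]
    set C : ℝ := ((D.powersetCard (0 + 1)).card : ℝ) with hC
    have hC0 : 0 ≤ C := Nat.cast_nonneg _
    have hpos : 0 < 2 * N + C := by positivity
    have key : (∑ P ∈ D.powersetCard 0, G (insert k P) + ∑ P ∈ D.powersetCard 0, G (insert l P) +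
          ∑ Q ∈ D.powersetCard (0 + 1), G Q) / (2 * N + C) - S / N =
        ((∑ P ∈ D.powersetCard 0, G (insert k P) - S) +
          (∑ P ∈ D.powersetCard 0, G (insert l P) - S) +
          (∑ Q ∈ D.powersetCard (0 + 1), G Q - (C / N) * S)) / (2 * N + C) := by
      field_simp
      ring
    rw [key, abs_div, abs_of_pos hpos, div_le_iff₀ hpos]
    refine (abs_add_le _ _).trans ?_
    refine (add_le_add (abs_add_le _ _) le_rfl).trans ?_
    linarith
  · obtain ⟨q, rfl⟩ : ∃ q, p = q + 1 := ⟨p - 1, by omega⟩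
    have b3 : |∑ Q ∈ D.powersetCard q, G (insert k (insert l Q)) -
        (((D.powersetCard q).card : ℝ) / N) * S| ≤ ((D.powersetCard q).card : ℝ) * ℓ := by
      have hmq : (0 : ℝ) < (D.card : ℝ) - q := by
        have : (q : ℝ) + 1 ≤ D.card := by exact_mod_cast hp
        linarith
      have e2 : ∑ Q ∈ D.powersetCard q, ∑ z ∈ D \ Q,
          (G (insert k (insert l Q)) - F (insert z Q)) =
          ((D.card : ℝ) - q) * ∑ Q ∈ D.powersetCard q, G (insert k (insert l Q)) -
            (q + 1 : ℝ) * S := by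
        have e3 := sum_up_down D q (fun _ P => F P)
        have e4 : ∑ P ∈ D.powersetCard (q + 1), ∑ z ∈ P, F P = (q + 1 : ℝ) * S := by
          rw [hS, Finset.mul_sum]
          refine Finset.sum_congr rfl fun P hP => ?_
          rw [Finset.sum_const, (Finset.mem_powersetCard.1 hP).2]
          simp
        rw [← e4, ← e3, Finset.mul_sum, ← Finset.sum_sub_distrib]
        refine Finset.sum_congr rfl fun Q hQ => ?_
        rw [Finset.mem_powersetCard] at hQ
        rw [Finset.sum_sub_distrib, Finset.sum_const, nsmul_eq_mul,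
          Finset.card_sdiff_of_subset hQ.1, hQ.2, Nat.cast_sub (by omega)]
      have e5 : |∑ Q ∈ D.powersetCard q, ∑ z ∈ D \ Q,
          (G (insert k (insert l Q)) - F (insert z Q))| ≤
          ((D.card : ℝ) - q) * (((D.powersetCard q).card : ℝ) * ℓ) := by
        refine (Finset.abs_sum_le_sum_abs _ _).trans ?_
        have : ∀ Q ∈ D.powersetCard q, |∑ z ∈ D \ Q,
            (G (insert k (insert l Q)) - F (insert z Q))| ≤ ((D.card : ℝ) - q) * ℓ := by
          intro Q hQ
          refine (Finset.abs_sum_le_sum_abs _ _).trans ?_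
          refine (Finset.sum_le_sum (h3 q rfl Q hQ)).trans ?_
          rw [Finset.mem_powersetCard] at hQ
          rw [Finset.sum_const, nsmul_eq_mul, Finset.card_sdiff_of_subset hQ.1, hQ.2,
            Nat.cast_sub (by omega)]
        refine (Finset.sum_le_sum this).trans ?_
        rw [Finset.sum_const, nsmul_eq_mul]
        exact le_of_eq (by ring)
      have e6 : (q + 1 : ℝ) = ((D.card : ℝ) - q) * (((D.powersetCard q).card : ℝ) / N) := by
        rw [hN, Finset.card_powersetCard, Finset.card_powersetCard]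
        have h7 : ((D.card.choose (q + 1) : ℕ) : ℝ) ≠ 0 := by
          exact_mod_cast (Nat.choose_pos hp).ne'
        have h8 := Nat.choose_succ_right_eq D.card q
        have h9 : ((D.card.choose (q + 1) : ℕ) : ℝ) * (q + 1) =
            (D.card.choose q : ℕ) * ((D.card : ℝ) - q) := by
          rw [← Nat.cast_sub (by omega : q ≤ D.card)]
          exact_mod_cast h8
        field_simp
        linarith
      rw [e2, e6] at e5
      have e7 : ((D.card : ℝ) - q) * ∑ Q ∈ D.powersetCard q, G (insert k (insert l Q)) -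
          ((D.card : ℝ) - q) * (((D.powersetCard q).card : ℝ) / N) * S =
          ((D.card : ℝ) - q) * (∑ Q ∈ D.powersetCard q, G (insert k (insert l Q)) -
            (((D.powersetCard q).card : ℝ) / N) * S) := by ring
      rw [e7, abs_mul, abs_of_pos hmq] at e5
      exact le_of_mul_le_mul_left e5 hmq
    have hcard : (((insert k (insert l D)).powersetCard (q + 1 + 1)).card : ℝ) =
        2 * N + ((D.powersetCard (q + 1 + 1)).card : ℝ) + ((D.powersetCard q).card : ℝ) := by
      rw [hN]
      simp only [Finset.card_powersetCard, Finset.card_insert_of_notMem hk',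
        Finset.card_insert_of_notMem hl]
      rw [Nat.choose_succ_succ (D.card + 1) (q + 1), Nat.choose_succ_succ D.card (q + 1),
        Nat.choose_succ_succ D.card q]
      push_cast
      ring
    have hsum : ∑ A ∈ (insert k (insert l D)).powersetCard (q + 1 + 1), G A =
        ∑ P ∈ D.powersetCard (q + 1), G (insert k P) +
          ∑ P ∈ D.powersetCard (q + 1), G (insert l P) +
          ∑ Q ∈ D.powersetCard (q + 1 + 1), G Q +
          ∑ Q ∈ D.powersetCard q, G (insert k (insert l Q)) := by
      rw [sum_powersetCard_insert' hk', sum_powersetCard_insert' hl,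
        sum_powersetCard_insert' hl q (fun A => G (insert k A))]
      ring
    rw [hcard, hsum]
    set C : ℝ := ((D.powersetCard (q + 1 + 1)).card : ℝ) with hC
    set C' : ℝ := ((D.powersetCard q).card : ℝ) with hC'
    have hC0 : 0 ≤ C := Nat.cast_nonneg _
    have hC0' : 0 ≤ C' := Nat.cast_nonneg _
    have hpos : 0 < 2 * N + C + C' := by positivity
    have key : (∑ P ∈ D.powersetCard (q + 1), G (insert k P) +
          ∑ P ∈ D.powersetCard (q + 1), G (insert l P) +
          ∑ Q ∈ D.powersetCard (q + 1 + 1), G Q +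
          ∑ Q ∈ D.powersetCard q, G (insert k (insert l Q))) / (2 * N + C + C') - S / N =
        ((∑ P ∈ D.powersetCard (q + 1), G (insert k P) - S) +
          (∑ P ∈ D.powersetCard (q + 1), G (insert l P) - S) +
          (∑ Q ∈ D.powersetCard (q + 1 + 1), G Q - (C / N) * S) +
          (∑ Q ∈ D.powersetCard q, G (insert k (insert l Q)) - (C' / N) * S)) /
          (2 * N + C + C') := by
      field_simp
      ring
    rw [key, abs_div, abs_of_pos hpos, div_le_iff₀ hpos]
    refine (abs_add_le _ _).trans ?_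
    refine (add_le_add (abs_add_le _ _) le_rfl).trans ?_
    refine (add_le_add (add_le_add (abs_add_le _ _) le_rfl) le_rfl).trans ?_
    linarith

end subsets

end Crest.Agent.R299
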