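import Crest.Agent.R299.Mat3a

/-!
Row 299 (S0453): classes `mrel a` of `T × 3` matrices are Johnson schemes.
-/

set_option autoImplicit false
set_option linter.unusedSectionVars false
set_option linter.unusedVariables false
open Finset

namespace Crest.Agent.R299

section matrices
variable {T : Type*} [Fintype T] [DecidableEq T]

/-- three distinct rows -/
def R3 (a b c : Fin 3) : Prop := a ≠ b ∧ a ≠ c ∧ b ≠ c

theorem R3.cases {a b c : Fin 3} (h : R3 a b c) (r : Fin 3) : r = a ∨ r = b ∨ r = c := by
  unfold R3 at h
  omega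

theorem R3.sum {M : Type*} [AddCommMonoid M] {a b c : Fin 3} (h : R3 a b c) (F : Fin 3 → M) :
    ∑ i, F i = F a + F b + F c := by
  have huniv : (univ : Finset (Fin 3)) = {a, b, c} := by
    ext r
    simp only [Finset.mem_univ, Finset.mem_insert, Finset.mem_singleton, true_iff]
    exact h.cases r
  obtain ⟨h1, h2, h3⟩ := h
  rw [huniv, Finset.sum_insert (by simp [h1, h2]), Finset.sum_insert (by simp [h3]),
    Finset.sum_singleton, add_assoc]

theorem R3.swap {a b c : Fin 3} (h : R3 a b c) : R3 a c b := ⟨h.2.1, h.1, h.2.2.symm⟩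

theorem R3.swap12 {a b c : Fin 3} (h : R3 a b c) : R3 b a c := ⟨h.1.symm, h.2.2, h.2.1⟩

theorem R3.rot {a b c : Fin 3} (h : R3 a b c) : R3 c a b := ⟨h.2.1.symm, h.2.2.symm, h.1⟩

theorem csum_eq {a b c : Fin 3} (h : R3 a b c) (M : Mat T) (y : T) :
    csum M y = (M y a).toNat + (M y b).toNat + (M y c).toNat := h.sum _

theorem total_eq (M : Mat T) : ∑ j, rsum M j = ∑ y, csum M y := by
  unfold rsum csum
  exact Finset.sum_comm

theorem mrel_of {a b c : Fin 3} (hR : R3 a b c) {M N : Mat T} (h1 : ∀ y, M y a = N y a)
    (h2 : ∀ y, csum M y = csum N y) (h3 : rsum M b = rsum N b) : mrel a M N := by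
  refine ⟨h1, h2, fun j => ?_⟩
  have ha : rsum M a = rsum N a := by
    unfold rsum
    exact Finset.sum_congr rfl fun y _ => by rw [h1]
  have hc : rsum M c = rsum N c := by
    have e1 := total_eq M
    have e2 := total_eq N
    rw [hR.sum] at e1 e2
    have e3 : ∑ y, csum M y = ∑ y, csum N y := Finset.sum_congr rfl fun y _ => h2 y
    omega
  rcases hR.cases j with rfl | rfl | rfl <;> assumption

/-- columns that are not constant on rows `b`,`c` -/
def DM (b c : Fin 3) (M : Mat T) : Finset T := univ.filter fun y => M y b ≠ M y c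

theorem mem_DM {b c : Fin 3} {M : Mat T} {y : T} : y ∈ DM b c M ↔ M y b ≠ M y c := by
  simp [DM]

/-- the number of those with a one in row `b` -/
def pM (b c : Fin 3) (M : Mat T) : ℕ := ((DM b c M).filter fun y => M y b = true).card

/-- the matrix with the ones of row `b` on the free columns given by `A` -/
def setM (b c : Fin 3) (M : Mat T) (A : Finset T) : Mat T := fun y r =>
  if M y b ≠ M y c then
    (if r = b then decide (y ∈ A) else if r = c then decide (y ∉ A) else M y r)
  else M y r

theorem setM_a {a b c : Fin 3} (hR : R3 a b c) (M : Mat T) (A : Finset T) (y : T) :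
    setM b c M A y a = M y a := by
  unfold setM
  obtain ⟨h1, h2, h3⟩ := hR
  simp [h1, h2]

theorem setM_b {b c : Fin 3} {M : Mat T} (A : Finset T) {y : T} (hy : M y b ≠ M y c) :
    setM b c M A y b = decide (y ∈ A) := by
  unfold setM
  simp [hy]

theorem setM_c {b c : Fin 3} (hbc : b ≠ c) {M : Mat T} (A : Finset T) {y : T}
    (hy : M y b ≠ M y c) : setM b c M A y c = !decide (y ∈ A) := by
  unfold setM
  simp [hy, hbc.symm]

theorem setM_off {b c : Fin 3} {M : Mat T} (A : Finset T) {y : T} (hy : M y b = M y c)
    (r : Fin 3) : setM b c M A y r = M y r := by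
  unfold setM
  simp [hy]

theorem rsum_split (D : Finset T) (M : Mat T) (j : Fin 3) :
    rsum M j = (D.filter fun y => M y j = true).card + ∑ y ∈ Dᶜ, (M y j).toNat := by
  unfold rsum
  rw [← Finset.sum_add_sum_compl D]
  congr 1
  rw [Finset.card_filter]
  refine Finset.sum_congr rfl fun y _ => ?_
  cases M y j <;> simp

theorem setM_mrel {a b c : Fin 3} (hR : R3 a b c) (M : Mat T) {A : Finset T}
    (hA : A ∈ (DM b c M).powersetCard (pM b c M)) : mrel a M (setM b c M A) := by
  rw [Finset.mem_powersetCard] at hA
  refine mrel_of hR (fun y => (setM_a hR M A y).symm) ?_ ?_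
  · intro y
    rw [csum_eq hR, csum_eq hR, setM_a hR]
    by_cases hy : M y b = M y c
    · rw [setM_off A hy, setM_off A hy]
    · rw [setM_b A hy, setM_c hR.2.2 A hy]
      cases h1 : M y b <;> cases h2 : M y c <;> cases h3 : decide (y ∈ A) <;> simp_all
  · rw [rsum_split (DM b c M), rsum_split (DM b c M) (setM b c M A)]
    congr 1
    · have : (DM b c M).filter (fun y => setM b c M A y b = true) = A := by
        ext y
        simp only [Finset.mem_filter, mem_DM]
        constructor
        · rintro ⟨h1, h2⟩
          rw [setM_b A h1] at h2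
          simpa using h2
        · intro h1
          have h2 := mem_DM.1 (hA.1 h1)
          refine ⟨h2, ?_⟩
          rw [setM_b A h2]
          simpa using h1
      rw [this, hA.2]
      rfl
    · refine Finset.sum_congr rfl fun y hy => ?_
      rw [Finset.mem_compl, mem_DM, not_not] at hy
      rw [setM_off A hy]

theorem exists_setM {a b c : Fin 3} (hR : R3 a b c) {M N : Mat T} (h : mrel a M N) :
    ∃ A ∈ (DM b c M).powersetCard (pM b c M), setM b c M A = N := by
  obtain ⟨h1, h2, h3⟩ := h
  have hcol : ∀ y, (M y b).toNat + (M y c).toNat = (N y b).toNat + (N y c).toNat := by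
    intro y
    have := h2 y
    rw [csum_eq hR, csum_eq hR, h1 y] at this
    omega
  refine ⟨(DM b c M).filter fun y => N y b = true, ?_, ?_⟩
  · rw [Finset.mem_powersetCard]
    refine ⟨Finset.filter_subset _ _, ?_⟩
    have e := h3 b
    rw [rsum_split (DM b c M), rsum_split (DM b c M) N] at e
    have e2 : ∑ y ∈ (DM b c M)ᶜ, (M y b).toNat = ∑ y ∈ (DM b c M)ᶜ, (N y b).toNat := by
      refine Finset.sum_congr rfl fun y hy => ?_
      rw [Finset.mem_compl, mem_DM, not_not] at hy
      have := hcol y
      cases h4 : M y b <;> cases h5 : M y c <;> cases h6 : N y b <;> cases h7 : N y c <;> simp_all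
    unfold pM
    omega
  · funext y r
    by_cases hy : M y b = M y c
    · rw [setM_off _ hy]
      have := hcol y
      rcases hR.cases r with rfl | rfl | rfl
      · exact h1 y
      · cases h4 : M y r <;> cases h5 : M y c <;> cases h6 : N y r <;> cases h7 : N y c <;> simp_all
      · cases h4 : M y b <;> cases h5 : M y r <;> cases h6 : N y b <;> cases h7 : N y r <;> simp_all
    · have := hcol y
      rcases hR.cases r with rfl | rfl | rfl
      · rw [setM_a hR]; exact h1 y
      · rw [setM_b _ hy]
        simp only [Finset.mem_filter, mem_DM]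
        cases h4 : M y r <;> cases h5 : M y c <;> cases h6 : N y r <;> cases h7 : N y c <;> simp_all
      · rw [setM_c hR.2.2 _ hy]
        simp only [Finset.mem_filter, mem_DM]
        cases h4 : M y b <;> cases h5 : M y r <;> cases h6 : N y b <;> cases h7 : N y r <;> simp_all

theorem setM_inj {b c : Fin 3} (M : Mat T) {A B : Finset T} (hA : A ⊆ DM b c M)
    (hB : B ⊆ DM b c M) (h : setM b c M A = setM b c M B) : A = B := by
  ext y
  constructor
  · intro hy
    have h1 := mem_DM.1 (hA hy)
    have h2 := congrFun (congrFun h y) b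
    rw [setM_b A h1, setM_b B h1] at h2
    simpa [hy] using h2
  · intro hy
    have h1 := mem_DM.1 (hB hy)
    have h2 := congrFun (congrFun h y) b
    rw [setM_b A h1, setM_b B h1] at h2
    simpa [hy] using h2

theorem cls_mrel {a b c : Fin 3} (hR : R3 a b c) (M : Mat T) :
    cls (mrel a) M = ((DM b c M).powersetCard (pM b c M)).image (setM b c M) := by
  ext N
  rw [mem_cls, Finset.mem_image]
  constructor
  · intro h; exact exists_setM hR h
  · rintro ⟨A, hA, rfl⟩; exact setM_mrel hR M hA

theorem avg_mrel {a b c : Fin 3} (hR : R3 a b c) (h : Mat T → ℝ) (M : Mat T) :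
    avg (mrel a) h M = (∑ A ∈ (DM b c M).powersetCard (pM b c M), h (setM b c M A)) /
      (((DM b c M).powersetCard (pM b c M)).card : ℝ) := by
  have hinj : Set.InjOn (setM b c M) ((DM b c M).powersetCard (pM b c M)) := by
    intro A hA B hB hAB
    rw [Finset.mem_coe, Finset.mem_powersetCard] at hA hB
    exact setM_inj M hA.1 hB.1 hAB
  unfold avg
  rw [cls_mrel hR, Finset.sum_image hinj, Finset.card_image_of_injOn hinj]

theorem pM_le (b c : Fin 3) (M : Mat T) : pM b c M ≤ (DM b c M).card :=
  Finset.card_filter_le _ _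

/-- the swap of two columns with equal column sums -/
def tswap (k l : T) (M : Mat T) : Mat T :=
  if csum M k = csum M l then fun y => M (Equiv.swap k l y) else M

theorem csum_comp (σ : Equiv.Perm T) (M : Mat T) (y : T) :
    csum (fun y => M (σ y)) y = csum M (σ y) := rfl

theorem rsum_comp (σ : Equiv.Perm T) (M : Mat T) (j : Fin 3) :
    rsum (fun y => M (σ y)) j = rsum M j := by
  unfold rsum
  exact Equiv.sum_comp σ (fun y => (M y j).toNat)

theorem tswap_invol (k l : T) : Function.Involutive (tswap (T := T) k l) := by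
  intro M
  unfold tswap
  by_cases h : csum M k = csum M l
  · rw [if_pos h]
    have h2 : csum (fun y => M (Equiv.swap k l y)) k = csum (fun y => M (Equiv.swap k l y)) l := by
      rw [csum_comp, csum_comp, Equiv.swap_apply_left, Equiv.swap_apply_right, h]
    rw [if_pos h2]
    funext y
    rw [Equiv.swap_apply_self]
  · rw [if_neg h, if_neg h]

theorem tswap_mrel (k l : T) (i : Fin 3) (M N : Mat T) (h : mrel i M N) :
    mrel i (tswap k l M) (tswap k l N) := by
  unfold tswap
  by_cases hc : csum M k = csum M l
  · have hc' : csum N k = csum N l := by rw [← h.2.1, ← h.2.1, hc]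
    rw [if_pos hc, if_pos hc']
    refine ⟨fun y => h.1 _, fun y => h.2.1 _, fun j => ?_⟩
    rw [rsum_comp (Equiv.swap k l) M, rsum_comp (Equiv.swap k l) N]
    exact h.2.2 j
  · have hc' : ¬ csum N k = csum N l := by rw [← h.2.1, ← h.2.1]; exact hc
    rw [if_neg hc, if_neg hc']
    exact h

theorem exists_row (x y : Fin 3 → Bool) (h : ∑ i, (x i).toNat = ∑ i, (y i).toNat) :
    ∃ i, x i = y i := by
  by_contra hne
  push Not at hne
  have h0 := hne 0
  have h1 := hne 1
  have h2 := hne 2
  rw [Fin.sum_univ_three, Fin.sum_univ_three] at h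
  revert h h0 h1 h2
  cases x 0 <;> cases x 1 <;> cases x 2 <;> cases y 0 <;> cases y 1 <;> cases y 2 <;> simp

theorem exists_mrel_tswap (k l : T) (M : Mat T) : ∃ i, mrel i M (tswap k l M) := by
  unfold tswap
  by_cases hc : csum M k = csum M l
  · rw [if_pos hc]
    obtain ⟨i, hi⟩ := exists_row (M k) (M l) hc
    refine ⟨i, fun y => ?_, fun y => ?_, fun j => (rsum_comp _ M j).symm⟩
    · show M y i = M (Equiv.swap k l y) i
      by_cases h1 : y = k
      · subst h1; rw [Equiv.swap_apply_left]; exact hi
      · by_cases h2 : y = l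
        · subst h2; rw [Equiv.swap_apply_right]; exact hi.symm
        · rw [Equiv.swap_apply_of_ne_of_ne h1 h2]
    · rw [csum_comp]
      by_cases h1 : y = k
      · subst h1; rw [Equiv.swap_apply_left]; exact hc
      · by_cases h2 : y = l
        · subst h2; rw [Equiv.swap_apply_right]; exact hc.symm
        · rw [Equiv.swap_apply_of_ne_of_ne h1 h2]
  · rw [if_neg hc]
    exact ⟨0, (mrel_equiv 0).refl M⟩

end matrices

end Crest.Agent.R299
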