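import Crest.Agent.R299.Mat3b

/-!
Row 299 (S0453): mixed pairs, the Lipschitz step for the 3-row lemma.
-/

set_option autoImplicit false
set_option linter.unusedSectionVars false
set_option linter.unusedVariables false
open Finset

namespace Crest.Agent.R299

section matrices
variable {T : Type*} [Fintype T] [DecidableEq T]

/-- mixed adjacent pair: column `k` moves its single one from row `a` to row `b`, column `l` moves
its single zero from row `a` to row `b`. -/
def Mix (a b c : Fin 3) (k l : T) (M N : Mat T) : Prop :=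
  k ≠ l ∧ (M k a = true ∧ M k b = false ∧ M k c = false) ∧
  (M l a = false ∧ M l b = true ∧ M l c = true) ∧
  (N k a = false ∧ N k b = true ∧ N k c = false) ∧
  (N l a = true ∧ N l b = false ∧ N l c = true) ∧
  ∀ y, y ≠ k → y ≠ l → ∀ r, M y r = N y r

theorem Mix.symm {a b c : Fin 3} {k l : T} {M N : Mat T} (h : Mix a b c k l M N) :
    Mix b a c k l N M := by
  obtain ⟨h1, ⟨a1, a2, a3⟩, ⟨b1, b2, b3⟩, ⟨c1, c2, c3⟩, ⟨d1, d2, d3⟩, h6⟩ := h
  exact ⟨h1, ⟨c2, c1, c3⟩, ⟨d2, d1, d3⟩, ⟨a2, a1, a3⟩, ⟨b2, b1, b3⟩,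
    fun y hk hl r => (h6 y hk hl r).symm⟩

theorem tswap_eq {k l : T} {M : Mat T} (h : csum M k = csum M l) :
    tswap k l M = fun y => M (Equiv.swap k l y) := by
  unfold tswap; rw [if_pos h]

theorem tswap_apply {k l : T} {M : Mat T} (h : csum M k = csum M l) (y : T) :
    tswap k l M y = M (Equiv.swap k l y) := by
  rw [tswap_eq h]

/-- the third row is a coordinate on which the two matrices are equivalent -/
theorem Mix.mrel {a b c : Fin 3} (hR : R3 a b c) {k l : T} {M N : Mat T}
    (h : Mix a b c k l M N) : mrel c M N := by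
  obtain ⟨h1, ⟨a1, a2, a3⟩, ⟨b1, b2, b3⟩, ⟨c1, c2, c3⟩, ⟨d1, d2, d3⟩, h6⟩ := h
  refine mrel_of hR.rot ?_ ?_ ?_
  · intro y
    by_cases hk : y = k
    · subst hk; rw [a3, c3]
    by_cases hl : y = l
    · subst hl; rw [b3, d3]
    exact h6 y hk hl c
  · intro y
    rw [csum_eq hR, csum_eq hR]
    by_cases hk : y = k
    · subst hk; simp [a1, a2, a3, c1, c2, c3]
    by_cases hl : y = l
    · subst hl; simp [b1, b2, b3, d1, d2, d3]
    rw [h6 y hk hl a, h6 y hk hl b, h6 y hk hl c]
  · unfold rsum
    rw [sum_split2 h1, sum_split2 h1 (fun y => (N y a).toNat)]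
    congr 1
    · simp [a1, b1, c1, d1]
    · refine Finset.sum_congr rfl fun z hz => ?_
      simp only [Finset.mem_filter, Finset.mem_univ, true_and] at hz
      rw [h6 z hz.1 hz.2 a]

/-- The Lipschitz step: averaging over the class with row `a` fixed. -/
theorem lip_step {h : Mat T → ℝ} {ℓ : ℝ} (hT : ∀ k l M, h (tswap k l M) = h M)
    (hℓ : ∀ a b c k l M N, R3 a b c → Mix a b c k l M N → |h N - h M| ≤ ℓ)
    {a b c : Fin 3} (hR : R3 a b c) {k l : T} {M N : Mat T} (hM : Mix a b c k l M N) :
    |avg (mrel a) h N - avg (mrel a) h M| ≤ ℓ := by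
  obtain ⟨hkl, ⟨a1, a2, a3⟩, ⟨b1, b2, b3⟩, ⟨c1, c2, c3⟩, ⟨d1, d2, d3⟩, h6⟩ := hM
  have hbc : b ≠ c := hR.2.2
  have hkD : k ∉ DM b c M := by rw [mem_DM, a2, a3]; simp
  have hlD : l ∉ DM b c M := by rw [mem_DM, b2, b3]; simp
  have hout : ∀ y, y ≠ k → y ≠ l → (N y b ≠ N y c ↔ M y b ≠ M y c) := by
    intro y hk hl; rw [h6 y hk hl b, h6 y hk hl c]
  have hDN : DM b c N = insert k (insert l (DM b c M)) := by
    ext y
    rw [Finset.mem_insert, Finset.mem_insert, mem_DM, mem_DM]
    by_cases hk : y = k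
    · subst hk; simp [c2, c3]
    by_cases hl : y = l
    · subst hl; simp [d2, d3]
    rw [hout y hk hl]
    simp [hk, hl]
  have hpN : pM b c N = pM b c M + 1 := by
    unfold pM
    rw [hDN]
    have e : (insert k (insert l (DM b c M))).filter (fun y => N y b = true) =
        insert k ((DM b c M).filter (fun y => M y b = true)) := by
      ext y
      simp only [Finset.mem_filter, Finset.mem_insert, mem_DM]
      by_cases hk : y = k
      · subst hk; simp [c2]
      by_cases hl : y = l
      · subst hl; simp [d2, hk, b2, b3]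
      rw [h6 y hk hl b]
      simp [hk, hl]
    rw [e, Finset.card_insert_of_notMem]
    simp [hkD]
  -- values of setM
  have sMk : ∀ A r, setM b c M A k r = M k r := fun A r => setM_off A (by rw [a2, a3]) r
  have sMl : ∀ A r, setM b c M A l r = M l r := fun A r => setM_off A (by rw [b2, b3]) r
  have hNk : N k b ≠ N k c := by rw [c2, c3]; simp
  have hNl : N l b ≠ N l c := by rw [d2, d3]; simp
  have sNka : ∀ A, setM b c N A k a = false := fun A => by rw [setM_a hR, c1]
  have sNkb : ∀ A, setM b c N A k b = decide (k ∈ A) := fun A => setM_b A hNk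
  have sNkc : ∀ A, setM b c N A k c = !decide (k ∈ A) := fun A => setM_c hbc A hNk
  have sNla : ∀ A, setM b c N A l a = true := fun A => by rw [setM_a hR, d1]
  have sNlb : ∀ A, setM b c N A l b = decide (l ∈ A) := fun A => setM_b A hNl
  have sNlc : ∀ A, setM b c N A l c = !decide (l ∈ A) := fun A => setM_c hbc A hNl
  -- equality off a set of columns
  have same : ∀ (A B : Finset T) (y : T), y ≠ k → y ≠ l → (y ∈ A ↔ y ∈ B) → ∀ r,
      setM b c M A y r = setM b c N B y r := by
    intro A B y hk hl hAB r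
    by_cases hy : M y b = M y c
    · have hy' : N y b = N y c := by rw [← h6 y hk hl b, ← h6 y hk hl c]; exact hy
      rw [setM_off A hy, setM_off B hy', h6 y hk hl r]
    · have hy' : N y b ≠ N y c := (hout y hk hl).2 hy
      rcases hR.cases r with rfl | rfl | rfl
      · rw [setM_a hR, setM_a hR, h6 y hk hl r]
      · rw [setM_b A hy, setM_b B hy']; simp [hAB]
      · rw [setM_c hbc A hy, setM_c hbc B hy']; simp [hAB]
  rw [avg_mrel hR, avg_mrel hR, hDN, hpN]
  refine coupling (DM b c M) k l hkD hlD hkl (pM b c M) (pM_le b c M)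
    (fun A => h (setM b c M A)) (fun A => h (setM b c N A)) ℓ ?_ ?_ ?_ ?_
  · -- insert k P
    intro P hP
    rw [Finset.mem_powersetCard] at hP
    have hkP : k ∉ P := fun h' => hkD (hP.1 h')
    have hlP : l ∉ P := fun h' => hlD (hP.1 h')
    refine hℓ a b c k l _ _ hR ⟨hkl, ⟨?_, ?_, ?_⟩, ⟨?_, ?_, ?_⟩, ⟨?_, ?_, ?_⟩, ⟨?_, ?_, ?_⟩, ?_⟩
    · rw [sMk, a1]
    · rw [sMk, a2]
    · rw [sMk, a3]
    · rw [sMl, b1]
    · rw [sMl, b2]
    · rw [sMl, b3]
    · rw [sNka]
    · rw [sNkb]; simp
    · rw [sNkc]; simp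
    · rw [sNla]
    · rw [sNlb]; simp [hkl.symm, hlP]
    · rw [sNlc]; simp [hkl.symm, hlP]
    · intro y hk hl r
      exact same P (insert k P) y hk hl (by simp [hk]) r
  · -- insert l P
    intro P hP
    rw [Finset.mem_powersetCard] at hP
    have hkP : k ∉ P := fun h' => hkD (hP.1 h')
    have hlP : l ∉ P := fun h' => hlD (hP.1 h')
    refine hℓ a c b k l _ _ hR.swap
      ⟨hkl, ⟨?_, ?_, ?_⟩, ⟨?_, ?_, ?_⟩, ⟨?_, ?_, ?_⟩, ⟨?_, ?_, ?_⟩, ?_⟩
    · rw [sMk, a1]
    · rw [sMk, a3]
    · rw [sMk, a2]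
    · rw [sMl, b1]
    · rw [sMl, b3]
    · rw [sMl, b2]
    · rw [sNka]
    · rw [sNkc]; simp [hkl, hkP]
    · rw [sNkb]; simp [hkl, hkP]
    · rw [sNla]
    · rw [sNlc]; simp
    · rw [sNlb]; simp
    · intro y hk hl r
      exact same P (insert l P) y hk hl (by simp [hl]) r
  · -- insert k (insert l Q)
    intro q hq Q hQ z hz
    rw [Finset.mem_powersetCard] at hQ
    rw [Finset.mem_sdiff] at hz
    have hkQ : k ∉ Q := fun h' => hkD (hQ.1 h')
    have hlQ : l ∉ Q := fun h' => hlD (hQ.1 h')
    have hzk : z ≠ k := fun h' => hkD (h' ▸ hz.1)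
    have hzl : z ≠ l := fun h' => hlD (h' ▸ hz.1)
    have hzM : M z b ≠ M z c := mem_DM.1 hz.1
    have hzN : N z b ≠ N z c := (hout z hzk hzl).2 hzM
    have zMa : setM b c M (insert z Q) z a = M z a := setM_a hR M _ z
    have zMb : setM b c M (insert z Q) z b = true := by rw [setM_b _ hzM]; simp
    have zMc : setM b c M (insert z Q) z c = false := by rw [setM_c hbc _ hzM]; simp
    have zNa : setM b c N (insert k (insert l Q)) z a = M z a := by
      rw [setM_a hR, h6 z hzk hzl a]
    have zNb : setM b c N (insert k (insert l Q)) z b = false := by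
      rw [setM_b _ hzN]; simp [hzk, hzl, hz.2]
    have zNc : setM b c N (insert k (insert l Q)) z c = true := by
      rw [setM_c hbc _ hzN]; simp [hzk, hzl, hz.2]
    have same' : ∀ y, y ≠ k → y ≠ l → y ≠ z → ∀ r,
        setM b c M (insert z Q) y r = setM b c N (insert k (insert l Q)) y r :=
      fun y hk hl hz r => same _ _ y hk hl (by simp [hk, hl, hz]) r
    cases hs : M z a with
    | false =>
      have hcs : csum (setM b c M (insert z Q)) k = csum (setM b c M (insert z Q)) z := by
        rw [csum_eq hR, csum_eq hR, sMk, sMk, sMk, zMa, zMb, zMc, a1, a2, a3, hs]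
        rfl
      show |h (setM b c N (insert k (insert l Q))) - h (setM b c M (insert z Q))| ≤ ℓ
      rw [← hT k z (setM b c M (insert z Q))]
      have tz : tswap k z (setM b c M (insert z Q)) z = setM b c M (insert z Q) k := by
        rw [tswap_apply hcs, Equiv.swap_apply_right]
      have tk : tswap k z (setM b c M (insert z Q)) k = setM b c M (insert z Q) z := by
        rw [tswap_apply hcs, Equiv.swap_apply_left]
      have ty : ∀ y, y ≠ k → y ≠ z → tswap k z (setM b c M (insert z Q)) y =
          setM b c M (insert z Q) y := by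
        intro y hk hz; rw [tswap_apply hcs, Equiv.swap_apply_of_ne_of_ne hk hz]
      refine hℓ a c b z l _ _ hR.swap
        ⟨hzl, ⟨?_, ?_, ?_⟩, ⟨?_, ?_, ?_⟩, ⟨?_, ?_, ?_⟩, ⟨?_, ?_, ?_⟩, ?_⟩
      · rw [tz, sMk, a1]
      · rw [tz, sMk, a3]
      · rw [tz, sMk, a2]
      · rw [ty l hkl.symm hzl.symm, sMl, b1]
      · rw [ty l hkl.symm hzl.symm, sMl, b3]
      · rw [ty l hkl.symm hzl.symm, sMl, b2]
      · rw [zNa, hs]
      · rw [zNc]
      · rw [zNb]
      · rw [sNla]
      · rw [sNlc]; simp
      · rw [sNlb]; simp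
      · intro y hz' hl r
        by_cases hk : y = k
        · subst hk
          rw [tk]
          rcases hR.cases r with rfl | rfl | rfl
          · rw [zMa, hs, sNka]
          · rw [zMb, sNkb]; simp
          · rw [zMc, sNkc]; simp
        · rw [ty y hk hz']
          exact same' y hk hl hz' r
    | true =>
      have hcs : csum (setM b c M (insert z Q)) l = csum (setM b c M (insert z Q)) z := by
        rw [csum_eq hR, csum_eq hR, sMl, sMl, sMl, zMa, zMb, zMc, b1, b2, b3, hs]
        rfl
      show |h (setM b c N (insert k (insert l Q))) - h (setM b c M (insert z Q))| ≤ ℓ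
      rw [← hT l z (setM b c M (insert z Q))]
      have tz : tswap l z (setM b c M (insert z Q)) z = setM b c M (insert z Q) l := by
        rw [tswap_apply hcs, Equiv.swap_apply_right]
      have tl : tswap l z (setM b c M (insert z Q)) l = setM b c M (insert z Q) z := by
        rw [tswap_apply hcs, Equiv.swap_apply_left]
      have ty : ∀ y, y ≠ l → y ≠ z → tswap l z (setM b c M (insert z Q)) y =
          setM b c M (insert z Q) y := by
        intro y hl hz; rw [tswap_apply hcs, Equiv.swap_apply_of_ne_of_ne hl hz]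
      refine hℓ a b c k z _ _ hR
        ⟨hzk.symm, ⟨?_, ?_, ?_⟩, ⟨?_, ?_, ?_⟩, ⟨?_, ?_, ?_⟩, ⟨?_, ?_, ?_⟩, ?_⟩
      · rw [ty k hkl hzk.symm, sMk, a1]
      · rw [ty k hkl hzk.symm, sMk, a2]
      · rw [ty k hkl hzk.symm, sMk, a3]
      · rw [tz, sMl, b1]
      · rw [tz, sMl, b2]
      · rw [tz, sMl, b3]
      · rw [sNka]
      · rw [sNkb]; simp
      · rw [sNkc]; simp
      · rw [zNa, hs]
      · rw [zNb]
      · rw [zNc]
      · intro y hk hz' r
        by_cases hl : y = l
        · subst hl
          rw [tl]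
          rcases hR.cases r with rfl | rfl | rfl
          · rw [zMa, hs, sNla]
          · rw [zMb, sNlb]; simp
          · rw [zMc, sNlc]; simp
        · rw [ty y hl hz']
          exact same' y hk hl hz' r
  · -- Q
    intro Q hQ z hz
    rw [Finset.mem_powersetCard] at hQ
    have hkQ : k ∉ Q := fun h' => hkD (hQ.1 h')
    have hlQ : l ∉ Q := fun h' => hlD (hQ.1 h')
    have hzk : z ≠ k := fun h' => hkQ (h' ▸ hz)
    have hzl : z ≠ l := fun h' => hlQ (h' ▸ hz)
    have hzM : M z b ≠ M z c := mem_DM.1 (hQ.1 hz)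
    have hzN : N z b ≠ N z c := (hout z hzk hzl).2 hzM
    have zMa : setM b c M (Q.erase z) z a = M z a := setM_a hR M _ z
    have zMb : setM b c M (Q.erase z) z b = false := by rw [setM_b _ hzM]; simp
    have zMc : setM b c M (Q.erase z) z c = true := by rw [setM_c hbc _ hzM]; simp
    have zNa : setM b c N Q z a = M z a := by
      rw [setM_a hR, h6 z hzk hzl a]
    have zNb : setM b c N Q z b = true := by
      rw [setM_b _ hzN]; simp [hz]
    have zNc : setM b c N Q z c = false := by
      rw [setM_c hbc _ hzN]; simp [hz]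
    have same' : ∀ y, y ≠ k → y ≠ l → y ≠ z → ∀ r,
        setM b c M (Q.erase z) y r = setM b c N Q y r :=
      fun y hk hl hz r => same _ _ y hk hl (by simp [hz]) r
    cases hs : M z a with
    | false =>
      have hcs : csum (setM b c M (Q.erase z)) k = csum (setM b c M (Q.erase z)) z := by
        rw [csum_eq hR, csum_eq hR, sMk, sMk, sMk, zMa, zMb, zMc, a1, a2, a3, hs]
        rfl
      show |h (setM b c N Q) - h (setM b c M (Q.erase z))| ≤ ℓ
      rw [← hT k z (setM b c M (Q.erase z))]
      have tz : tswap k z (setM b c M (Q.erase z)) z = setM b c M (Q.erase z) k := by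
        rw [tswap_apply hcs, Equiv.swap_apply_right]
      have tk : tswap k z (setM b c M (Q.erase z)) k = setM b c M (Q.erase z) z := by
        rw [tswap_apply hcs, Equiv.swap_apply_left]
      have ty : ∀ y, y ≠ k → y ≠ z → tswap k z (setM b c M (Q.erase z)) y =
          setM b c M (Q.erase z) y := by
        intro y hk hz; rw [tswap_apply hcs, Equiv.swap_apply_of_ne_of_ne hk hz]
      refine hℓ a b c z l _ _ hR
        ⟨hzl, ⟨?_, ?_, ?_⟩, ⟨?_, ?_, ?_⟩, ⟨?_, ?_, ?_⟩, ⟨?_, ?_, ?_⟩, ?_⟩
      · rw [tz, sMk, a1]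
      · rw [tz, sMk, a2]
      · rw [tz, sMk, a3]
      · rw [ty l hkl.symm hzl.symm, sMl, b1]
      · rw [ty l hkl.symm hzl.symm, sMl, b2]
      · rw [ty l hkl.symm hzl.symm, sMl, b3]
      · rw [zNa, hs]
      · rw [zNb]
      · rw [zNc]
      · rw [sNla]
      · rw [sNlb]; simp [hlQ]
      · rw [sNlc]; simp [hlQ]
      · intro y hz' hl r
        by_cases hk : y = k
        · subst hk
          rw [tk]
          rcases hR.cases r with rfl | rfl | rfl
          · rw [zMa, hs, sNka]
          · rw [zMb, sNkb]; simp [hkQ]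
          · rw [zMc, sNkc]; simp [hkQ]
        · rw [ty y hk hz']
          exact same' y hk hl hz' r
    | true =>
      have hcs : csum (setM b c M (Q.erase z)) l = csum (setM b c M (Q.erase z)) z := by
        rw [csum_eq hR, csum_eq hR, sMl, sMl, sMl, zMa, zMb, zMc, b1, b2, b3, hs]
        rfl
      show |h (setM b c N Q) - h (setM b c M (Q.erase z))| ≤ ℓ
      rw [← hT l z (setM b c M (Q.erase z))]
      have tz : tswap l z (setM b c M (Q.erase z)) z = setM b c M (Q.erase z) l := by
        rw [tswap_apply hcs, Equiv.swap_apply_right]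
      have tl : tswap l z (setM b c M (Q.erase z)) l = setM b c M (Q.erase z) z := by
        rw [tswap_apply hcs, Equiv.swap_apply_left]
      have ty : ∀ y, y ≠ l → y ≠ z → tswap l z (setM b c M (Q.erase z)) y =
          setM b c M (Q.erase z) y := by
        intro y hl hz; rw [tswap_apply hcs, Equiv.swap_apply_of_ne_of_ne hl hz]
      refine hℓ a c b k z _ _ hR.swap
        ⟨hzk.symm, ⟨?_, ?_, ?_⟩, ⟨?_, ?_, ?_⟩, ⟨?_, ?_, ?_⟩, ⟨?_, ?_, ?_⟩, ?_⟩
      · rw [ty k hkl hzk.symm, sMk, a1]
      · rw [ty k hkl hzk.symm, sMk, a3]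
      · rw [ty k hkl hzk.symm, sMk, a2]
      · rw [tz, sMl, b1]
      · rw [tz, sMl, b3]
      · rw [tz, sMl, b2]
      · rw [sNka]
      · rw [sNkc]; simp [hkQ]
      · rw [sNkb]; simp [hkQ]
      · rw [zNa, hs]
      · rw [zNc]
      · rw [zNb]
      · intro y hk hz' r
        by_cases hl : y = l
        · subst hl
          rw [tl]
          rcases hR.cases r with rfl | rfl | rfl
          · rw [zMa, hs, sNla]
          · rw [zMb, sNlb]; simp [hlQ]
          · rw [zMc, sNlc]; simp [hlQ]
        · rw [ty y hl hz']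
          exact same' y hk hl hz' r

end matrices

end Crest.Agent.R299
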