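import Crest.Agent.R299.Mat3c

/-!
Row 299 (S0453): the eigenfunction argument for the 3-row lemma.
-/

set_option autoImplicit false
set_option linter.unusedSectionVars false
set_option linter.unusedVariables false
open Finset

namespace Crest.Agent.R299

section matrices
variable {T : Type*} [Fintype T] [DecidableEq T]

theorem exists_R3 (a : Fin 3) : ∃ b c, R3 a b c := by
  unfold R3
  revert a
  decide

/-- invariance under mixed switches and column swaps implies invariance under the classes -/
theorem avg_eq_self_of_inv {h : Mat T → ℝ} (hT : ∀ k l M, h (tswap k l M) = h M)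
    (hmix : ∀ a b c k l M N, R3 a b c → Mix a b c k l M N → h N = h M)
    (a : Fin 3) : avg (mrel a) h = h := by
  obtain ⟨b, c, hR⟩ := exists_R3 a
  apply avg_of_invariant (mrel_equiv a)
  have key : ∀ M : Mat T, ∀ A B : Finset T, A ⊆ DM b c M → B ⊆ DM b c M → A.card = B.card →
      h (setM b c M A) = h (setM b c M B) := by
    intro M A B hA hB hAB
    refine johnson_conn (DM b c M) (fun A => h (setM b c M A)) ?_ _ A B hA hB hAB rfl
    intro A hA w hw x hx hxA
    have hbc := hR.2.2
    have hwM : M w b ≠ M w c := mem_DM.1 (hA hw)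
    have hxM : M x b ≠ M x c := mem_DM.1 hx
    have hwx : w ≠ x := fun h' => hxA (h' ▸ hw)
    set A' := insert x (A.erase w) with hA'
    have hwA' : w ∉ A' := by simp [hA', hwx]
    have hxA' : x ∈ A' := by simp [hA']
    have wa : setM b c M A w a = M w a := setM_a hR M _ _
    have wb : setM b c M A w b = true := by rw [setM_b _ hwM]; simp [hw]
    have wc : setM b c M A w c = false := by rw [setM_c hbc _ hwM]; simp [hw]
    have xa : setM b c M A x a = M x a := setM_a hR M _ _
    have xb : setM b c M A x b = false := by rw [setM_b _ hxM]; simp [hxA]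
    have xc : setM b c M A x c = true := by rw [setM_c hbc _ hxM]; simp [hxA]
    have wa' : setM b c M A' w a = M w a := setM_a hR M _ _
    have wb' : setM b c M A' w b = false := by rw [setM_b _ hwM]; simp [hwA']
    have wc' : setM b c M A' w c = true := by rw [setM_c hbc _ hwM]; simp [hwA']
    have xa' : setM b c M A' x a = M x a := setM_a hR M _ _
    have xb' : setM b c M A' x b = true := by rw [setM_b _ hxM]; simp [hxA']
    have xc' : setM b c M A' x c = false := by rw [setM_c hbc _ hxM]; simp [hxA']
    have hsame : ∀ y, y ≠ w → y ≠ x → ∀ r, setM b c M A y r = setM b c M A' y r := by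
      intro y h1 h2 r
      have hiff : (y ∈ A ↔ y ∈ A') := by simp [hA', h1, h2]
      unfold setM
      simp only [hiff]
    show h (setM b c M A') = h (setM b c M A)
    cases hsw : M w a with
    | false =>
      cases hsx : M x a with
      | false =>
        have hcs : csum (setM b c M A) w = csum (setM b c M A) x := by
          rw [csum_eq hR, csum_eq hR, wa, wb, wc, xa, xb, xc, hsw, hsx]; rfl
        have : setM b c M A' = tswap w x (setM b c M A) := by
          rw [tswap_eq hcs]
          funext y r
          by_cases h1 : y = w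
          · subst h1
            rw [Equiv.swap_apply_left]
            rcases hR.cases r with rfl | rfl | rfl
            · rw [wa', xa, hsw, hsx]
            · rw [wb', xb]
            · rw [wc', xc]
          · by_cases h2 : y = x
            · subst h2
              rw [Equiv.swap_apply_right]
              rcases hR.cases r with rfl | rfl | rfl
              · rw [xa', wa, hsw, hsx]
              · rw [xb', wb]
              · rw [xc', wc]
            · rw [Equiv.swap_apply_of_ne_of_ne h1 h2]
              exact (hsame y h1 h2 r).symm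
        rw [this, hT]
      | true =>
        refine hmix b c a w x _ _ ⟨hbc, hR.1.symm, hR.2.1.symm⟩
          ⟨hwx, ⟨wb, wc, by rw [wa, hsw]⟩, ⟨xb, xc, by rw [xa, hsx]⟩,
            ⟨wb', wc', by rw [wa', hsw]⟩, ⟨xb', xc', by rw [xa', hsx]⟩, hsame⟩
    | true =>
      cases hsx : M x a with
      | false =>
        refine hmix c b a x w _ _ ⟨hbc.symm, hR.2.1.symm, hR.1.symm⟩
          ⟨hwx.symm, ⟨xc, xb, by rw [xa, hsx]⟩, ⟨wc, wb, by rw [wa, hsw]⟩,
            ⟨xc', xb', by rw [xa', hsx]⟩, ⟨wc', wb', by rw [wa', hsw]⟩,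
            fun y h1 h2 r => hsame y h2 h1 r⟩
      | true =>
        have hcs : csum (setM b c M A) w = csum (setM b c M A) x := by
          rw [csum_eq hR, csum_eq hR, wa, wb, wc, xa, xb, xc, hsw, hsx]; rfl
        have : setM b c M A' = tswap w x (setM b c M A) := by
          rw [tswap_eq hcs]
          funext y r
          by_cases h1 : y = w
          · subst h1
            rw [Equiv.swap_apply_left]
            rcases hR.cases r with rfl | rfl | rfl
            · rw [wa', xa, hsw, hsx]
            · rw [wb', xb]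
            · rw [wc', xc]
          · by_cases h2 : y = x
            · subst h2
              rw [Equiv.swap_apply_right]
              rcases hR.cases r with rfl | rfl | rfl
              · rw [xa', wa, hsw, hsx]
              · rw [xb', wb]
              · rw [xc', wc]
            · rw [Equiv.swap_apply_of_ne_of_ne h1 h2]
              exact (hsame y h1 h2 r).symm
        rw [this, hT]
  intro M N hMN
  obtain ⟨A, hA, rfl⟩ := exists_setM hR hMN
  obtain ⟨A0, hA0, h0⟩ := exists_setM hR ((mrel_equiv a).refl M)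
  rw [Finset.mem_powersetCard] at hA hA0
  have := key M A0 A hA0.1 hA.1 (by rw [hA0.2, hA.2])
  rw [h0] at this
  exact this

theorem sq_sum_le_of_zero (x : Fin 3 → ℝ) (h : ∃ i, x i = 0) :
    (∑ i, x i) ^ 2 ≤ 2 * ∑ i, x i ^ 2 := by
  rw [Fin.sum_univ_three, Fin.sum_univ_three]
  obtain ⟨i, hi⟩ := h
  fin_cases i
  · simp only [Fin.zero_eta, Fin.isValue] at hi
    rw [hi]; nlinarith [sq_nonneg (x 1 - x 2)]
  · simp only [Fin.mk_one, Fin.isValue] at hi
    rw [hi]; nlinarith [sq_nonneg (x 0 - x 2)]
  · simp only [Fin.reduceFinMk, Fin.isValue] at hi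
    rw [hi]; nlinarith [sq_nonneg (x 0 - x 1)]

/-- an eigenfunction of `∑ avg` with eigenvalue `> 2` is invariant under column swaps -/
theorem tswap_inv_of_eig {h : Mat T → ℝ} {μ : ℝ} (hμ : 2 < μ)
    (hh : ∀ M, ∑ i, avg (mrel i) h M = μ * h M) (k l : T) (M : Mat T) :
    h (tswap k l M) = h M := by
  set δ : Mat T → ℝ := fun M => h M - h (tswap k l M) with hδ
  have hcomp : ∀ i, avg (mrel i) (fun M => h (tswap k l M)) =
      fun M => avg (mrel i) h (tswap k l M) := fun i =>
    avg_comp_of_map (tswap k l) (tswap_invol k l) (tswap_mrel k l i) h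
  have hδi : ∀ i, avg (mrel i) δ = fun M => avg (mrel i) h M - avg (mrel i) h (tswap k l M) := by
    intro i
    rw [hδ, avg_sub, hcomp]
  have hAδ : ∀ M, ∑ i, avg (mrel i) δ M = μ * δ M := by
    intro M
    simp only [hδi]
    rw [Finset.sum_sub_distrib, hh, hh]
    ring
  have hzero : ∀ M, ∃ i, avg (mrel i) δ M = 0 := by
    intro M
    obtain ⟨i, hi⟩ := exists_mrel_tswap k l M
    refine ⟨i, ?_⟩
    rw [hδi]
    show avg (mrel i) h M - avg (mrel i) h (tswap k l M) = 0
    rw [← avg_eq_of_rel (mrel_equiv i) h hi, sub_self]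
  have h1 : μ ^ 2 * ip δ δ ≤ 2 * (μ * ip δ δ) := by
    have e1 : μ ^ 2 * ip δ δ = ∑ M, (∑ i, avg (mrel i) δ M) ^ 2 := by
      rw [ip_self, Finset.mul_sum]
      refine Finset.sum_congr rfl fun M _ => ?_
      rw [hAδ]; ring
    have e2 : ∑ i, ip (avg (mrel i) δ) (avg (mrel i) δ) = μ * ip δ δ := by
      have : ∀ i, ip (avg (mrel i) δ) (avg (mrel i) δ) = ip δ (avg (mrel i) δ) := fun i =>
        (ip_avg_self (mrel_equiv i) δ).symm
      simp only [this]
      rw [← ip_sum_right, ← ip_smul_right]
      congr 1
      funext M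
      exact hAδ M
    rw [e1, ← e2]
    simp only [ip_self]
    rw [Finset.sum_comm, Finset.mul_sum]
    exact Finset.sum_le_sum fun M _ => sq_sum_le_of_zero _ (hzero M)
  have h2 : ip δ δ = 0 := by
    have h3 := ip_self_nonneg δ
    by_contra hne
    have h4 : 0 < ip δ δ := lt_of_le_of_ne h3 (Ne.symm hne)
    nlinarith [mul_pos h4 (by linarith : (0:ℝ) < μ - 2), mul_pos (mul_pos h4 (by linarith : (0:ℝ) < μ - 2)) (by linarith : (0:ℝ) < μ)]
  have h5 : h M - h (tswap k l M) = 0 := ip_self_eq_zero h2 M
  linarith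

open Classical in
/-- an eigenfunction of `∑ avg` with eigenvalue `> 2` is invariant under mixed switches -/
theorem mix_inv_of_eig {h : Mat T → ℝ} {μ : ℝ} (hμ : 2 < μ)
    (hh : ∀ M, ∑ i, avg (mrel i) h M = μ * h M) (a b c : Fin 3) (k l : T) (M N : Mat T)
    (hR : R3 a b c) (hM : Mix a b c k l M N) : h N = h M := by
  have hT := tswap_inv_of_eig hμ hh
  by_contra hne
  let X : Finset (Mat T × Mat T) := univ.filter fun q =>
    ∃ a b c : Fin 3, ∃ k l : T, R3 a b c ∧ Mix a b c k l q.1 q.2
  have hX : (M, N) ∈ X := by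
    rw [Finset.mem_filter]
    exact ⟨mem_univ _, a, b, c, k, l, hR, hM⟩
  obtain ⟨⟨M1, N1⟩, hmem, hmax⟩ := Finset.exists_max_image X (fun q => |h q.2 - h q.1|) ⟨_, hX⟩
  set ℓ : ℝ := |h N1 - h M1| with hℓ
  have hpos : 0 < ℓ := by
    have h1 : |h N - h M| ≤ ℓ := hmax (M, N) hX
    have h2 : 0 < |h N - h M| := abs_pos.2 (sub_ne_zero.2 hne)
    linarith
  have hlip : ∀ a b c k l (M N : Mat T), R3 a b c → Mix a b c k l M N → |h N - h M| ≤ ℓ := by
    intro a b c k l M N hR hM
    exact hmax (M, N) (by rw [Finset.mem_filter]; exact ⟨mem_univ _, a, b, c, k, l, hR, hM⟩)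
  rw [Finset.mem_filter] at hmem
  obtain ⟨_, a, b, c, k, l, hR, hM⟩ := hmem
  simp only at hM
  have e1 : μ * (h N1 - h M1) = (avg (mrel a) h N1 - avg (mrel a) h M1) +
      (avg (mrel b) h N1 - avg (mrel b) h M1) := by
    have e2 : avg (mrel c) h N1 = avg (mrel c) h M1 :=
      (avg_eq_of_rel (mrel_equiv c) h (hM.mrel hR)).symm
    have e3 := hh N1
    have e4 := hh M1
    rw [hR.sum] at e3 e4
    rw [mul_sub, ← e3, ← e4, e2]
    ring
  have e5 : |avg (mrel a) h N1 - avg (mrel a) h M1| ≤ ℓ := lip_step hT hlip hR hM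
  have e6 : |avg (mrel b) h N1 - avg (mrel b) h M1| ≤ ℓ := by
    rw [abs_sub_comm]
    exact lip_step hT hlip hR.swap12 hM.symm
  have e7 : μ * ℓ ≤ 2 * ℓ := by
    have : μ * ℓ = |μ * (h N1 - h M1)| := by
      rw [abs_mul, abs_of_pos (by linarith : (0:ℝ) < μ)]
    rw [this, e1]
    refine (abs_add_le _ _).trans ?_
    linarith
  nlinarith

end matrices

end Crest.Agent.R299
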