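import Crest.Agent.R299.Avg

/-!
Row 299 (S0453): basic facts on `rel`, `rel2`, `mrel`, `alt`, `sw`.
-/

set_option autoImplicit false
set_option linter.unusedSectionVars false
set_option linter.unusedVariables false
open Finset

namespace Crest.Agent.R299

section graphs
variable {V : Type*} [Fintype V] [DecidableEq V]

/-- split a sum over `V` at two distinct points -/
theorem sum_split2 {M : Type*} [AddCommMonoid M] {u v : V} (huv : u ≠ v) (F : V → M) :
    ∑ y, F y = F u + F v + ∑ y ∈ univ.filter (fun y => y ≠ u ∧ y ≠ v), F y := by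
  rw [← Finset.add_sum_erase univ F (mem_univ u),
    ← Finset.add_sum_erase (univ.erase u) F (a := v) (by simp [huv.symm]), add_assoc]
  congr 3
  ext y
  simp [and_comm]

theorem rel_refl (u v : V) (G : Gr V) : rel u v G G :=
  ⟨fun _ _ _ _ _ _ => rfl, rfl, fun _ _ _ => rfl, rfl⟩

theorem rel_symm {u v : V} {G H : Gr V} (h : rel u v G H) : rel u v H G :=
  ⟨fun x y a b c d => (h.1 x y a b c d).symm, h.2.1.symm, fun y a b => (h.2.2.1 y a b).symm,
    h.2.2.2.symm⟩

theorem rel_trans {u v : V} {G H K : Gr V} (h : rel u v G H) (h' : rel u v H K) : rel u v G K :=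
  ⟨fun x y a b c d => (h.1 x y a b c d).trans (h'.1 x y a b c d), h.2.1.trans h'.2.1,
    fun y a b => (h.2.2.1 y a b).trans (h'.2.2.1 y a b), h.2.2.2.trans h'.2.2.2⟩

theorem rel_equiv (u v : V) : Equivalence (rel (V := V) u v) :=
  ⟨rel_refl u v, rel_symm, rel_trans⟩

/-- row sum of `u` plus row sum of `v` -/
theorem deg_add_deg (u v : V) (huv : u ≠ v) (G : Gr V) :
    deg G u + deg G v = 2 * (G u v).toNat +
      ∑ y ∈ univ.filter (fun y => y ≠ u ∧ y ≠ v), ((G u y).toNat + (G v y).toNat) := by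
  unfold deg
  rw [← Finset.sum_add_distrib, sum_split2 huv]
  congr 1
  rw [G.irr u, G.irr v, G.symm v u]
  simp
  ring

theorem rel_deg_right {u v : V} {G H : Gr V} (h : rel u v G H) : deg G v = deg H v := by
  by_cases huv : u = v
  · subst huv; exact h.2.2.2
  · have h1 := deg_add_deg u v huv G
    have h2 := deg_add_deg u v huv H
    have h3 : ∑ y ∈ univ.filter (fun y => y ≠ u ∧ y ≠ v), ((G u y).toNat + (G v y).toNat) =
        ∑ y ∈ univ.filter (fun y => y ≠ u ∧ y ≠ v), ((H u y).toNat + (H v y).toNat) := by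
      refine Finset.sum_congr rfl fun y hy => ?_
      simp only [Finset.mem_filter, Finset.mem_univ, true_and] at hy
      exact h.2.2.1 y hy.1 hy.2
    rw [h3, h.2.1] at h1
    have := h.2.2.2
    omega

theorem rel_comm {u v : V} {G H : Gr V} (h : rel u v G H) : rel v u G H :=
  ⟨fun x y a b c d => h.1 x y b a d c, by rw [G.symm v u, H.symm v u]; exact h.2.1,
    fun y a b => by rw [Nat.add_comm, h.2.2.1 y b a, Nat.add_comm], rel_deg_right h⟩

theorem rel_comm_iff (u v : V) : rel (V := V) u v = rel v u := by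
  funext G H
  exact propext ⟨rel_comm, rel_comm⟩

theorem rel_self {u : V} {G H : Gr V} (h : rel u u G H) : G = H := by
  have key : ∀ y, y ≠ u → G u y = H u y := by
    intro y hy
    have := h.2.2.1 y hy hy
    cases h1 : G u y <;> cases h2 : H u y <;> simp_all
  ext x y
  by_cases hx : x = u
  · subst hx
    by_cases hy : y = x
    · subst hy; rw [G.irr, H.irr]
    · exact key y hy
  · by_cases hy : y = u
    · subst hy; rw [G.symm, H.symm]; exact key x hx
    · exact h.1 x y hx hx hy hy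

/-- all degrees agree on a `rel u v` class -/
theorem rel_deg {u v : V} {G H : Gr V} (h : rel u v G H) (y : V) : deg G y = deg H y := by
  by_cases huv : u = v
  · subst huv; rw [rel_self h]
  by_cases hyu : y = u
  · subst hyu; exact h.2.2.2
  by_cases hyv : y = v
  · subst hyv; exact rel_deg_right h
  unfold deg
  rw [sum_split2 huv, sum_split2 huv (fun z => (H y z).toNat)]
  congr 1
  · rw [G.symm y u, G.symm y v, H.symm y u, H.symm y v]; exact h.2.2.1 y hyu hyv
  · refine Finset.sum_congr rfl fun z hz => ?_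
    simp only [Finset.mem_filter, Finset.mem_univ, true_and] at hz
    rw [h.1 y z hyu hyv hz.1 hz.2]

/-- characterisation of `rel` by degrees -/
theorem rel_iff_deg {u v : V} (huv : u ≠ v) (G H : Gr V) : rel u v G H ↔
    (∀ x y, x ≠ u → x ≠ v → y ≠ u → y ≠ v → G x y = H x y) ∧ G u v = H u v ∧
      ∀ y, deg G y = deg H y := by
  constructor
  · intro h; exact ⟨h.1, h.2.1, rel_deg h⟩
  · rintro ⟨h1, h2, h3⟩
    refine ⟨h1, h2, ?_, h3 u⟩
    intro y hyu hyv
    have h4 := h3 y
    unfold deg at h4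
    rw [sum_split2 huv, sum_split2 huv (fun z => (H y z).toNat)] at h4
    have h5 : ∑ z ∈ univ.filter (fun z => z ≠ u ∧ z ≠ v), (G y z).toNat =
        ∑ z ∈ univ.filter (fun z => z ≠ u ∧ z ≠ v), (H y z).toNat := by
      refine Finset.sum_congr rfl fun z hz => ?_
      simp only [Finset.mem_filter, Finset.mem_univ, true_and] at hz
      rw [h1 y z hyu hyv hz.1 hz.2]
    rw [h5, G.symm y u, G.symm y v, H.symm y u, H.symm y v] at h4
    omega

theorem P_comm (u v : V) (f : Gr V → ℝ) : P u v f = P v u f := by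
  unfold P; rw [rel_comm_iff]

theorem P_self (u : V) (f : Gr V → ℝ) : P u u f = fun _ => 0 := by
  funext G
  unfold P
  rw [avg_of_invariant (rel_equiv u u) (fun x y h => by rw [rel_self h])]
  ring

/-! ### `rel2` -/

theorem rel_ne_iff {u v : V} {G H : Gr V} (h : rel u v G H) {y : V} (hyu : y ≠ u) (hyv : y ≠ v) :
    G u y ≠ G v y ↔ H u y ≠ H v y := by
  have := h.2.2.1 y hyu hyv
  cases h1 : G u y <;> cases h2 : G v y <;> cases h3 : H u y <;> cases h4 : H v y <;> simp_all

theorem rel2_refl (u v w x : V) (G : Gr V) : rel2 u v w x G G :=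
  ⟨rel_refl u v G, fun _ _ => rfl⟩

theorem rel2_symm {u v w x : V} (hq : Q4 u v w x) {G H : Gr V} (h : rel2 u v w x G H) :
    rel2 u v w x H G := by
  obtain ⟨h1, h2, h3, h4, h5, h6⟩ := hq
  refine ⟨rel_symm h.1, fun ha hb => (h.2 ?_ ?_).symm⟩
  · exact (rel_ne_iff h.1 h2.symm h4.symm).2 ha
  · exact (rel_ne_iff h.1 h3.symm h5.symm).2 hb

theorem rel2_trans {u v w x : V} (hq : Q4 u v w x) {G H K : Gr V} (h : rel2 u v w x G H)
    (h' : rel2 u v w x H K) : rel2 u v w x G K := by
  obtain ⟨h1, h2, h3, h4, h5, h6⟩ := hq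
  refine ⟨rel_trans h.1 h'.1, fun ha hb => (h.2 ha hb).trans (h'.2 ?_ ?_)⟩
  · exact (rel_ne_iff h.1 h2.symm h4.symm).1 ha
  · exact (rel_ne_iff h.1 h3.symm h5.symm).1 hb

theorem rel2_equiv {u v w x : V} (hq : Q4 u v w x) : Equivalence (rel2 (V := V) u v w x) :=
  ⟨rel2_refl u v w x, rel2_symm hq, rel2_trans hq⟩

/-! ### switches -/

theorem Q4_swap {u v w x : V} (h : Q4 u v w x) : Q4 w x u v := by
  obtain ⟨h1, h2, h3, h4, h5, h6⟩ := h
  exact ⟨h6, h2.symm, h4.symm, h3.symm, h5.symm, h1⟩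

theorem Q4_rows {u v w x : V} (h : Q4 u v w x) : Q4 v u w x := by
  obtain ⟨h1, h2, h3, h4, h5, h6⟩ := h
  exact ⟨h1.symm, h4, h5, h2, h3, h6⟩

theorem Q4_cols {u v w x : V} (h : Q4 u v w x) : Q4 u v x w := by
  obtain ⟨h1, h2, h3, h4, h5, h6⟩ := h
  exact ⟨h1, h3, h2, h5, h4, h6.symm⟩

theorem alt_rows {u v w x : V} {G : Gr V} (h : alt u v w x G) : alt v u w x G := by
  obtain ⟨hq, h1, h2, h3⟩ := h
  refine ⟨Q4_rows hq, h1.symm, h2.symm, ?_⟩
  cases ha : G u w <;> cases hb : G v w <;> cases hc : G u x <;> cases hd : G v x <;> simp_all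

theorem alt_cols {u v w x : V} {G : Gr V} (h : alt u v w x G) : alt u v x w G := by
  obtain ⟨hq, h1, h2, h3⟩ := h
  exact ⟨Q4_cols hq, h2, h1, h3.symm⟩

theorem alt_swap {u v w x : V} {G : Gr V} (h : alt u v w x G) : alt w x u v G := by
  obtain ⟨hq, h1, h2, h3⟩ := h
  refine ⟨Q4_swap hq, ?_, ?_, ?_⟩
  · rw [G.symm w u, G.symm x u]; exact h3
  · rw [G.symm w v, G.symm x v]
    cases ha : G u w <;> cases hb : G v w <;> cases hc : G u x <;> cases hd : G v x <;> simp_all
  · rw [G.symm w u, G.symm w v]; exact h1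

theorem alt_swap_iff {u v w x : V} {G : Gr V} : alt u v w x G ↔ alt w x u v G :=
  ⟨alt_swap, alt_swap⟩

theorem alt_rows_iff {u v w x : V} {G : Gr V} : alt u v w x G ↔ alt v u w x G :=
  ⟨alt_rows, alt_rows⟩

theorem alt_cols_iff {u v w x : V} {G : Gr V} : alt u v w x G ↔ alt u v x w G :=
  ⟨alt_cols, alt_cols⟩

theorem flip4_apply (u v w x : V) (G : Gr V) (p q : V) :
    flip4 u v w x G p q = xor (G p q) (decide (inBlock u v w x p q)) := rfl

theorem flip4_swap (u v w x : V) (G : Gr V) : flip4 u v w x G = flip4 w x u v G := by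
  ext p q
  rw [flip4_apply, flip4_apply]
  congr 1
  rw [decide_eq_decide]
  unfold inBlock
  tauto

theorem flip4_rows (u v w x : V) (G : Gr V) : flip4 u v w x G = flip4 v u w x G := by
  ext p q
  rw [flip4_apply, flip4_apply]
  congr 1
  rw [decide_eq_decide]
  unfold inBlock
  tauto

theorem flip4_cols (u v w x : V) (G : Gr V) : flip4 u v w x G = flip4 u v x w G := by
  ext p q
  rw [flip4_apply, flip4_apply]
  congr 1
  rw [decide_eq_decide]
  unfold inBlock
  tauto

theorem sw_swap (u v w x : V) (G : Gr V) : sw u v w x G = sw w x u v G := by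
  unfold sw
  by_cases h : alt u v w x G
  · rw [if_pos h, if_pos (alt_swap h), flip4_swap]
  · rw [if_neg h, if_neg (fun h' => h (alt_swap h'))]

theorem sw_rows (u v w x : V) (G : Gr V) : sw u v w x G = sw v u w x G := by
  unfold sw
  by_cases h : alt u v w x G
  · rw [if_pos h, if_pos (alt_rows h), flip4_rows]
  · rw [if_neg h, if_neg (fun h' => h (alt_rows h'))]

theorem sw_cols (u v w x : V) (G : Gr V) : sw u v w x G = sw u v x w G := by
  unfold sw
  by_cases h : alt u v w x G
  · rw [if_pos h, if_pos (alt_cols h), flip4_cols]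
  · rw [if_neg h, if_neg (fun h' => h (alt_cols h'))]

theorem flip4_flip4 (u v w x : V) (G : Gr V) : flip4 u v w x (flip4 u v w x G) = G := by
  ext p q
  rw [flip4_apply, flip4_apply]
  cases G p q <;> cases decide (inBlock u v w x p q) <;> rfl

/-- the entries of the flipped graph in the block -/
theorem flip4_block {u v w x : V} (hq : Q4 u v w x) (G : Gr V) :
    flip4 u v w x G u w = !(G u w) ∧ flip4 u v w x G u x = !(G u x) ∧
    flip4 u v w x G v w = !(G v w) ∧ flip4 u v w x G v x = !(G v x) := by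
  obtain ⟨h1, h2, h3, h4, h5, h6⟩ := hq
  refine ⟨?_, ?_, ?_, ?_⟩ <;> rw [flip4_apply] <;> simp [inBlock, *]

theorem flip4_off {u v w x : V} (G : Gr V) {p q : V} (h : ¬ inBlock u v w x p q) :
    flip4 u v w x G p q = G p q := by
  rw [flip4_apply]; simp [h]

theorem alt_flip4 {u v w x : V} {G : Gr V} (h : alt u v w x G) :
    alt u v w x (flip4 u v w x G) := by
  obtain ⟨hq, h1, h2, h3⟩ := h
  obtain ⟨e1, e2, e3, e4⟩ := flip4_block hq G
  refine ⟨hq, ?_, ?_, ?_⟩ <;> simp only [e1, e2, e3, e4] <;> simpa using by assumption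

theorem alt_sw_iff {u v w x : V} {G : Gr V} : alt u v w x (sw u v w x G) ↔ alt u v w x G := by
  unfold sw
  by_cases h : alt u v w x G
  · rw [if_pos h]; exact ⟨fun _ => h, fun _ => alt_flip4 h⟩
  · rw [if_neg h]

theorem sw_sw (u v w x : V) (G : Gr V) : sw u v w x (sw u v w x G) = G := by
  unfold sw
  by_cases h : alt u v w x G
  · rw [if_pos h, if_pos (alt_flip4 h), flip4_flip4]
  · rw [if_neg h, if_neg h]

theorem sw_invol (u v w x : V) : Function.Involutive (sw (V := V) u v w x) := sw_sw u v w x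

theorem inBlock_false_of_out {u v w x p q : V} (hpu : p ≠ u) (hpv : p ≠ v) (hqu : q ≠ u)
    (hqv : q ≠ v) : ¬ inBlock u v w x p q := by
  unfold inBlock; tauto

theorem flip4_rel {u v w x : V} {G : Gr V} (h : alt u v w x G) :
    rel u v G (flip4 u v w x G) := by
  have hh := h
  obtain ⟨hq, h1, h2, h3⟩ := h
  obtain ⟨e1, e2, e3, e4⟩ := flip4_block hq G
  obtain ⟨q1, q2, q3, q4, q5, q6⟩ := hq
  refine ⟨?_, ?_, ?_, ?_⟩
  · intro p q hpu hpv hqu hqv
    rw [flip4_off]
    exact inBlock_false_of_out hpu hpv hqu hqv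
  · rw [flip4_off]
    unfold inBlock
    rintro ⟨_, (⟨_, h | h⟩ | ⟨_, h | h⟩)⟩ <;> first | exact q4 h | exact q5 h | exact q2 h | exact q3 h
  · intro y hyu hyv
    by_cases hyw : y = w
    · subst hyw; rw [e1, e3]
      cases ha : G u y <;> cases hb : G v y <;> simp_all
    · by_cases hyx : y = x
      · subst hyx; rw [e2, e4]
        cases ha : G u y <;> cases hb : G v y <;> simp_all
      · rw [flip4_off, flip4_off] <;> unfold inBlock <;> tauto
  · unfold deg
    rw [sum_split2 q6, sum_split2 q6 (fun z => (flip4 u v w x G u z).toNat)]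
    congr 1
    · rw [e1, e2]
      cases ha : G u w <;> cases hb : G u x <;> simp_all
    · refine Finset.sum_congr rfl fun z hz => ?_
      simp only [Finset.mem_filter, Finset.mem_univ, true_and] at hz
      rw [flip4_off]
      unfold inBlock
      rintro ⟨_, (⟨_, h | h⟩ | ⟨_, h | h⟩)⟩
      · exact hz.1 h
      · exact hz.2 h
      · exact q2 h
      · exact q3 h

theorem flip4_rel2 {u v w x : V} {G : Gr V} (h : alt u v w x G) :
    rel2 u v w x G (flip4 u v w x G) := by
  refine ⟨flip4_rel h, fun _ _ => ?_⟩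
  obtain ⟨hq, h1, h2, h3⟩ := h
  obtain ⟨e1, e2, e3, e4⟩ := flip4_block hq G
  rw [e1, e2]
  cases ha : G u w <;> cases hb : G u x <;> simp_all

/-- switches stay in the `rel u v` class -/
theorem sw_rel (u v w x : V) (G : Gr V) : rel u v G (sw u v w x G) := by
  unfold sw
  by_cases h : alt u v w x G
  · rw [if_pos h]; exact flip4_rel h
  · rw [if_neg h]; exact rel_refl u v G

theorem sw_rel2 (u v w x : V) (G : Gr V) : rel2 u v w x G (sw u v w x G) := by
  unfold sw
  by_cases h : alt u v w x G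
  · rw [if_pos h]; exact flip4_rel2 h
  · rw [if_neg h]; exact rel2_refl u v w x G

theorem sw_deg (u v w x : V) (G : Gr V) (y : V) : deg (sw u v w x G) y = deg G y :=
  (rel_deg (sw_rel u v w x G) y).symm

end graphs

section matrices
variable {T : Type*} [Fintype T] [DecidableEq T]

theorem mrel_equiv (i : Fin 3) : Equivalence (mrel (T := T) i) where
  refl M := ⟨fun _ => rfl, fun _ => rfl, fun _ => rfl⟩
  symm h := ⟨fun y => (h.1 y).symm, fun y => (h.2.1 y).symm, fun j => (h.2.2 j).symm⟩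
  trans h h' := ⟨fun y => (h.1 y).trans (h'.1 y), fun y => (h.2.1 y).trans (h'.2.1 y),
    fun j => (h.2.2 j).trans (h'.2.2 j)⟩

end matrices

end Crest.Agent.R299
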