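import Crest.Agent.R299.Kern

/-!
Row 299 (S0453): total variation bound from the Poincaré inequality.
-/

set_option autoImplicit false
set_option linter.unusedVariables false
open Finset

namespace Crest.Agent.R299

open Crest.SwitchChain
open Crest.Agent.R299.Kern

namespace TV

variable {n : ℕ}

/-- restriction of the kernel to the realizations, acting on functions -/
noncomputable def A (d : Fin n → ℕ) (f : Finset (Edge n) → ℝ) (E : Finset (Edge n)) : ℝ :=
  ∑ E' ∈ realizations d, kernel n E E' * f E'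

/-- inner product on the realizations -/
noncomputable def ipd (d : Fin n → ℕ) (f g : Finset (Edge n) → ℝ) : ℝ :=
  ∑ E ∈ realizations d, f E * g E

theorem ipd_comm (d : Fin n → ℕ) (f g : Finset (Edge n) → ℝ) : ipd d f g = ipd d g f := by
  unfold ipd; exact sum_congr rfl fun E _ => mul_comm _ _

theorem ipd_self_nonneg (d : Fin n → ℕ) (f : Finset (Edge n) → ℝ) : 0 ≤ ipd d f f :=
  sum_nonneg fun E _ => mul_self_nonneg _

theorem A_symm (d : Fin n → ℕ) (f g : Finset (Edge n) → ℝ) : ipd d (A d f) g = ipd d f (A d g) := by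
  unfold ipd A
  simp only [sum_mul, mul_sum]
  rw [sum_comm]
  refine sum_congr rfl fun E _ => sum_congr rfl fun E' _ => ?_
  rw [kernel_symm E' E]
  ring

theorem A_add (d : Fin n → ℕ) (f g : Finset (Edge n) → ℝ) (t : ℝ) (E : Finset (Edge n)) :
    A d (fun x => f x + t * g x) E = A d f E + t * A d g E := by
  unfold A
  rw [mul_sum, ← sum_add_distrib]
  exact sum_congr rfl fun E' _ => by ring

theorem A_nonneg (hn : 4 ≤ n) (d : Fin n → ℕ) (f : Finset (Edge n) → ℝ) : 0 ≤ ipd d f (A d f) := by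
  set q : Finset (Edge n) → Finset (Edge n) → ℝ :=
    fun E E' => (proposalCount E E' : ℝ) / (12 * (n.choose 4 : ℝ)) with hq
  have hq0 : ∀ E E', 0 ≤ q E E' := fun E E' => by rw [hq]; positivity
  have hqs : ∀ E E', q E E' = q E' E := fun E E' => by
    simp only [hq, proposalCount_symm E E']
  have hrow : ∀ E ∈ realizations d, ∑ E' ∈ realizations d, q E E' = 1 / 2 := by
    intro E hE
    have h1 := sum_kernel hn d hE
    unfold kernel at h1
    rw [sum_add_distrib] at h1
    simp only [sum_ite_eq, hE, if_true] at h1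
    have h2 : ∑ E' ∈ realizations d, q E E' =
      ∑ E' ∈ realizations d, (proposalCount E E' : ℝ) / (12 * (n.choose 4 : ℝ)) := rfl
    linarith
  have e1 : ipd d f (A d f) = ∑ E ∈ realizations d, ∑ E' ∈ realizations d,
      q E E' * (f E * f E') + (1 / 2) * ∑ E ∈ realizations d, f E ^ 2 := by
    unfold ipd A
    rw [mul_sum, ← sum_add_distrib]
    refine sum_congr rfl fun E hE => ?_
    have : ∀ E' ∈ realizations d, kernel n E E' * f E' =
        (if E = E' then 1 / 2 * f E' else 0) + q E E' * f E' := by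
      intro E' _
      unfold kernel
      rw [hq]
      split_ifs <;> ring
    rw [sum_congr rfl this, sum_add_distrib]
    simp only [sum_ite_eq, hE, if_true]
    rw [mul_add, mul_sum, add_comm]
    congr 1
    · exact sum_congr rfl fun E' _ => by ring
    · ring
  have e2 : -(1 / 2) * ∑ E ∈ realizations d, f E ^ 2 ≤
      ∑ E ∈ realizations d, ∑ E' ∈ realizations d, q E E' * (f E * f E') := by
    have h1 : ∑ E ∈ realizations d, ∑ E' ∈ realizations d, q E E' * (-(f E ^ 2 + f E' ^ 2) / 2) ≤
        ∑ E ∈ realizations d, ∑ E' ∈ realizations d, q E E' * (f E * f E') := by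
      refine sum_le_sum fun E _ => sum_le_sum fun E' _ => ?_
      refine mul_le_mul_of_nonneg_left ?_ (hq0 E E')
      nlinarith [sq_nonneg (f E + f E')]
    have h2 : ∑ E ∈ realizations d, ∑ E' ∈ realizations d, q E E' * f E ^ 2 =
        (1 / 2) * ∑ E ∈ realizations d, f E ^ 2 := by
      rw [mul_sum]
      refine sum_congr rfl fun E hE => ?_
      rw [← sum_mul, hrow E hE]
    have h3 : ∑ E ∈ realizations d, ∑ E' ∈ realizations d, q E E' * f E' ^ 2 =
        (1 / 2) * ∑ E ∈ realizations d, f E ^ 2 := by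
      rw [← h2, sum_comm]
      exact sum_congr rfl fun E _ => sum_congr rfl fun E' _ => by rw [hqs]
    have h4 : ∑ E ∈ realizations d, ∑ E' ∈ realizations d, q E E' * (-(f E ^ 2 + f E' ^ 2) / 2) =
        -(1 / 2) * (∑ E ∈ realizations d, ∑ E' ∈ realizations d, q E E' * f E ^ 2) -
        (1 / 2) * (∑ E ∈ realizations d, ∑ E' ∈ realizations d, q E E' * f E' ^ 2) := by
      rw [mul_sum, mul_sum, ← sum_sub_distrib]
      refine sum_congr rfl fun E _ => ?_
      rw [mul_sum, mul_sum, ← sum_sub_distrib]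
      exact sum_congr rfl fun E' _ => by ring
    rw [h4, h2, h3] at h1
    linarith
  rw [e1]
  linarith

theorem A_cs (hn : 4 ≤ n) (d : Fin n → ℕ) (f g : Finset (Edge n) → ℝ) :
    ipd d g (A d f) ^ 2 ≤ ipd d g (A d g) * ipd d f (A d f) := by
  have key : ∀ t : ℝ, 0 ≤ ipd d f (A d f) * (t * t) + 2 * ipd d g (A d f) * t +
      ipd d g (A d g) := by
    intro t
    have h := A_nonneg hn d (fun x => g x + t * f x)
    have e1 : ipd d (fun x => g x + t * f x) (A d (fun x => g x + t * f x)) =
        ipd d g (A d g) + t * ipd d g (A d f) + t * ipd d f (A d g) +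
          t * t * ipd d f (A d f) := by
      unfold ipd
      simp only [A_add, mul_sum, ← sum_add_distrib]
      exact sum_congr rfl fun E _ => by ring
    have e2 : ipd d f (A d g) = ipd d g (A d f) := by
      rw [← A_symm, ipd_comm]
    rw [e1, e2] at h
    linarith
  have := discrim_le_zero key
  unfold discrim at this
  nlinarith

theorem sum_A (hn : 4 ≤ n) (d : Fin n → ℕ) (f : Finset (Edge n) → ℝ) :
    ∑ E ∈ realizations d, A d f E = ∑ E ∈ realizations d, f E := by
  unfold A
  rw [sum_comm]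
  refine sum_congr rfl fun E hE => ?_
  rw [← sum_mul]
  have : ∑ E' ∈ realizations d, kernel n E' E = 1 := by
    rw [← sum_kernel hn d hE]
    exact sum_congr rfl fun E' _ => kernel_symm E' E
  rw [this, one_mul]

/-- one step contraction -/
theorem contract (hn : 4 ≤ n) (d : Fin n → ℕ) {γ : ℝ} (hγ1 : γ ≤ 1)
    (hgap : ∀ f : Finset (Edge n) → ℝ, ∑ E ∈ realizations d, f E = 0 →
      ipd d f (A d f) ≤ (1 - γ) * ipd d f f)
    (f : Finset (Edge n) → ℝ) (hf : ∑ E ∈ realizations d, f E = 0) :
    ipd d (A d f) (A d f) ≤ (1 - γ) ^ 2 * ipd d f f := by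
  set g := A d f with hg
  have hg0 : ∑ E ∈ realizations d, g E = 0 := by rw [hg, sum_A hn, hf]
  have h1 := A_cs hn d f g
  have h2 := hgap f hf
  have h3 := hgap g hg0
  have h4 := A_nonneg hn d f
  have h5 := A_nonneg hn d g
  have h6 := ipd_self_nonneg d g
  have h7 := ipd_self_nonneg d f
  have h8 : ipd d g g ^ 2 ≤ ((1 - γ) * ipd d g g) * ((1 - γ) * ipd d f f) :=
    h1.trans (mul_le_mul h3 h2 h4 (mul_nonneg (by linarith) h6))
  rcases h6.eq_or_lt with h9 | h9
  · rw [← h9]; positivity
  · have : ipd d g g * ipd d g g ≤ ipd d g g * ((1 - γ) ^ 2 * ipd d f f) := by nlinarith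
    exact le_of_mul_le_mul_left this h9

/-- iterates of `A` starting at the centred point mass -/
noncomputable def iter (d : Fin n → ℕ) (G : Finset (Edge n)) : ℕ → Finset (Edge n) → ℝ
  | 0 => fun E => (if G = E then 1 else 0) - 1 / ((realizations d).card : ℝ)
  | t + 1 => A d (iter d G t)

theorem pow_zero_off (hn : 4 ≤ n) (d : Fin n → ℕ) {G : Finset (Edge n)} (hG : G ∈ realizations d)
    (t : ℕ) : ∀ E, E ∉ realizations d → (kernel n ^ t) G E = 0 := by
  induction t with
  | zero =>
    intro E hE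
    rw [pow_zero, Matrix.one_apply_ne]
    rintro rfl; exact hE hG
  | succ t ih =>
    intro E hE
    rw [pow_succ, Matrix.mul_apply]
    refine sum_eq_zero fun E' _ => ?_
    by_cases h : E' ∈ realizations d
    · rw [kernel_eq_zero d h hE, mul_zero]
    · rw [ih E' h, zero_mul]

theorem pow_eq (hn : 4 ≤ n) (d : Fin n → ℕ) {G : Finset (Edge n)} (hG : G ∈ realizations d)
    (t : ℕ) : ∀ E ∈ realizations d,
      (kernel n ^ t) G E - 1 / ((realizations d).card : ℝ) = iter d G t E := by
  induction t with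
  | zero =>
    intro E hE
    rw [pow_zero, Matrix.one_apply, iter]
  | succ t ih =>
    intro E hE
    rw [iter, A]
    have h1 : (kernel n ^ (t + 1)) G E =
        ∑ E' ∈ realizations d, kernel n E E' * (kernel n ^ t) G E' := by
      rw [pow_succ, Matrix.mul_apply]
      rw [← sum_subset (subset_univ (realizations d))]
      · exact sum_congr rfl fun E' _ => by rw [kernel_symm E' E]; ring
      · intro E' _ hE'
        rw [pow_zero_off hn d hG t E' hE', zero_mul]
    rw [h1]
    have h2 : (1 : ℝ) / ((realizations d).card : ℝ) =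
        ∑ E' ∈ realizations d, kernel n E E' * (1 / ((realizations d).card : ℝ)) := by
      rw [← sum_mul, sum_kernel hn d hE, one_mul]
    rw [h2, ← sum_sub_distrib]
    exact sum_congr rfl fun E' hE' => by rw [← ih E' hE']; ring

theorem sum_iter (hn : 4 ≤ n) (d : Fin n → ℕ) {G : Finset (Edge n)} (hG : G ∈ realizations d)
    (t : ℕ) : ∑ E ∈ realizations d, iter d G t E = 0 := by
  induction t with
  | zero =>
    have : (0 : ℝ) < ((realizations d).card : ℝ) := by
      exact_mod_cast card_pos.2 ⟨G, hG⟩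
    simp only [iter]
    rw [sum_sub_distrib, sum_ite_eq, if_pos hG, sum_const, nsmul_eq_mul]
    field_simp
    ring
  | succ t ih =>
    rw [iter, sum_A hn, ih]

theorem iter_norm (hn : 4 ≤ n) (d : Fin n → ℕ) {γ : ℝ} (hγ1 : γ ≤ 1)
    (hgap : ∀ f : Finset (Edge n) → ℝ, ∑ E ∈ realizations d, f E = 0 →
      ipd d f (A d f) ≤ (1 - γ) * ipd d f f)
    {G : Finset (Edge n)} (hG : G ∈ realizations d) (t : ℕ) :
    ipd d (iter d G t) (iter d G t) ≤ ((1 - γ) ^ t) ^ 2 := by
  induction t with
  | zero =>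
    have hpos : (0 : ℝ) < ((realizations d).card : ℝ) := by
      exact_mod_cast card_pos.2 ⟨G, hG⟩
    have : ipd d (iter d G 0) (iter d G 0) = 1 - 1 / ((realizations d).card : ℝ) := by
      unfold ipd
      simp only [iter]
      have e : ∀ E ∈ realizations d,
          ((if G = E then (1 : ℝ) else 0) - 1 / ((realizations d).card : ℝ)) *
          ((if G = E then (1 : ℝ) else 0) - 1 / ((realizations d).card : ℝ)) =
          (if G = E then (1 - 2 / ((realizations d).card : ℝ)) else 0) +
            1 / ((realizations d).card : ℝ) ^ 2 := by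
        intro E _
        split_ifs
        · field_simp; ring
        · field_simp; ring
      rw [sum_congr rfl e, sum_add_distrib, sum_ite_eq, if_pos hG, sum_const, nsmul_eq_mul]
      field_simp
      ring
    rw [this]
    simp only [pow_zero, one_pow]
    have : 0 ≤ 1 / ((realizations d).card : ℝ) := by positivity
    linarith
  | succ t ih =>
    have h1 := contract hn d hγ1 hgap (iter d G t) (sum_iter hn d hG t)
    rw [iter]
    refine h1.trans ?_
    calc (1 - γ) ^ 2 * ipd d (iter d G t) (iter d G t) ≤ (1 - γ) ^ 2 * ((1 - γ) ^ t) ^ 2 :=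
          mul_le_mul_of_nonneg_left ih (sq_nonneg _)
      _ = ((1 - γ) ^ (t + 1)) ^ 2 := by ring

theorem card_realizations_le (d : Fin n → ℕ) :
    ((realizations d).card : ℝ) ≤ Real.exp ((n : ℝ) ^ 2) := by
  have h1 : (realizations d).card ≤ 2 ^ (n.choose 2) := by
    refine (card_le_univ _).trans ?_
    rw [Fintype.card_finset, Sym2.card_subtype_not_diag, Fintype.card_fin]
  have h2 : n.choose 2 ≤ n ^ 2 := Nat.choose_le_pow n 2
  have h3 : (realizations d).card ≤ 2 ^ (n ^ 2) :=
    h1.trans (Nat.pow_le_pow_right (by norm_num) h2)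
  have h4 : ((realizations d).card : ℝ) ≤ (2 : ℝ) ^ (n ^ 2) := by exact_mod_cast h3
  refine h4.trans ?_
  have h5 : (2 : ℝ) ≤ Real.exp 1 := by
    have := Real.add_one_le_exp (1 : ℝ)
    linarith
  calc (2 : ℝ) ^ (n ^ 2) ≤ (Real.exp 1) ^ (n ^ 2) := pow_le_pow_left₀ (by norm_num) h5 _
    _ = Real.exp ((n : ℝ) ^ 2) := by
      rw [← Real.exp_nat_mul]
      push_cast
      ring_nf

end TV

open TV in
theorem tv_of_poincare (n : ℕ) (hn : 4 ≤ n) (d : Fin n → ℕ)
    (hP : ∀ f : Finset (Edge n) → ℝ,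
        ((realizations d).card : ℝ) * (∑ G ∈ realizations d, f G ^ 2) -
            (∑ G ∈ realizations d, f G) ^ 2 ≤
          24 * (n : ℝ) ^ 2 * (n.choose 4 : ℝ) * (realizations d).card *
            ∑ G ∈ realizations d,
              f G * (f G - ∑ G' ∈ realizations d, kernel n G G' * f G')) :
    ∃ t : ℕ, t ≤ 2 * n ^ 8 ∧ ∀ G ∈ realizations d,
        tvDist (fun G' => (kernel n ^ t) G G') (unifOn (realizations d)) ≤ 1 / 4 := by
  refine ⟨2 * n ^ 8, le_rfl, fun G hG => ?_⟩
  have hn0 : (0 : ℝ) < n := by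
    have : 0 < n := by omega
    exact_mod_cast this
  have hn4 : (4 : ℝ) ≤ n := by exact_mod_cast hn
  have hC := choose_pos' hn
  have hΩ : (0 : ℝ) < ((realizations d).card : ℝ) := by
    exact_mod_cast card_pos.2 ⟨G, hG⟩
  set D : ℝ := 24 * (n : ℝ) ^ 2 * (n.choose 4 : ℝ) with hD
  have hDpos : 0 < D := by positivity
  have hDle : D ≤ (n : ℝ) ^ 6 := by
    have h1 : (n.choose 4 : ℝ) ≤ (n : ℝ) ^ 4 / (Nat.factorial 4 : ℝ) := Nat.choose_le_pow_div 4 n
    have h2 : (Nat.factorial 4 : ℝ) = 24 := by norm_num [Nat.factorial]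
    rw [h2] at h1
    rw [hD]
    calc 24 * (n : ℝ) ^ 2 * (n.choose 4 : ℝ) ≤ 24 * (n : ℝ) ^ 2 * ((n : ℝ) ^ 4 / 24) :=
          mul_le_mul_of_nonneg_left h1 (by positivity)
      _ = (n : ℝ) ^ 6 := by ring
  have hD1 : 1 ≤ D := by
    have h1 : (1 : ℝ) ≤ (n.choose 4 : ℝ) := by exact_mod_cast Nat.choose_pos hn
    rw [hD]
    nlinarith [mul_le_mul_of_nonneg_left h1 (by positivity : (0:ℝ) ≤ 24 * (n:ℝ)^2), sq_nonneg ((n:ℝ) - 1)]
  set γ : ℝ := 1 / D with hγ
  have hγpos : 0 < γ := by positivity
  have hγ1 : γ ≤ 1 := by rw [hγ, div_le_one hDpos]; exact hD1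
  have hgap : ∀ f : Finset (Edge n) → ℝ, ∑ E ∈ realizations d, f E = 0 →
      ipd d f (A d f) ≤ (1 - γ) * ipd d f f := by
    intro f hf
    have h1 := hP f
    rw [hf] at h1
    have e1 : ∑ G ∈ realizations d, f G ^ 2 = ipd d f f := by
      unfold ipd; exact sum_congr rfl fun E _ => by ring
    have e2 : ∑ G ∈ realizations d,
        f G * (f G - ∑ G' ∈ realizations d, kernel n G G' * f G') =
        ipd d f f - ipd d f (A d f) := by
      unfold ipd A
      rw [← sum_sub_distrib]
      exact sum_congr rfl fun E _ => by ring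
    rw [e1, e2] at h1
    have h2 : ((realizations d).card : ℝ) * ipd d f f ≤
        ((realizations d).card : ℝ) * (D * (ipd d f f - ipd d f (A d f))) := by
      rw [hD]; nlinarith
    have h3 : ipd d f f ≤ D * (ipd d f f - ipd d f (A d f)) := le_of_mul_le_mul_left h2 hΩ
    have h4 : γ * ipd d f f ≤ ipd d f f - ipd d f (A d f) := by
      rw [hγ, div_mul_eq_mul_div, one_mul, div_le_iff₀ hDpos]
      linarith
    linarith
  have hnorm := iter_norm hn d hγ1 hgap hG (2 * n ^ 8)
  -- the total variation distance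
  have htv : tvDist (fun G' => (kernel n ^ (2 * n ^ 8)) G G') (unifOn (realizations d)) =
      (∑ E ∈ realizations d, |iter d G (2 * n ^ 8) E|) / 2 := by
    unfold tvDist
    congr 1
    rw [← sum_subset (subset_univ (realizations d))]
    · refine sum_congr rfl fun E hE => ?_
      rw [← pow_eq hn d hG (2 * n ^ 8) E hE]
      unfold unifOn
      rw [if_pos hE]
    · intro E _ hE
      unfold unifOn
      have h0 := pow_zero_off hn d hG (2 * n ^ 8) E hE
      show |(kernel n ^ (2 * n ^ 8)) G E - _| = 0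
      rw [h0, if_neg hE]
      simp
  rw [htv]
  have hcs : (∑ E ∈ realizations d, |iter d G (2 * n ^ 8) E|) ^ 2 ≤
      ((realizations d).card : ℝ) * ipd d (iter d G (2 * n ^ 8)) (iter d G (2 * n ^ 8)) := by
    have h := sq_sum_le_card_mul_sum_sq (s := realizations d)
      (f := fun E => |iter d G (2 * n ^ 8) E|)
    refine h.trans (le_of_eq ?_)
    congr 1
    unfold ipd
    exact sum_congr rfl fun E _ => by rw [sq_abs]; ring
  have hexp : ((1 - γ) ^ (2 * n ^ 8)) ^ 2 ≤ Real.exp (-(4 * (n : ℝ) ^ 2)) := by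
    have h1 : 1 - γ ≤ Real.exp (-γ) := by
      have := Real.add_one_le_exp (-γ)
      linarith
    have h2 : 0 ≤ 1 - γ := by linarith
    have h3 : ((1 - γ) ^ (2 * n ^ 8)) ^ 2 ≤ ((Real.exp (-γ)) ^ (2 * n ^ 8)) ^ 2 :=
      pow_le_pow_left₀ (pow_nonneg h2 _) (pow_le_pow_left₀ h2 h1 _) 2
    refine h3.trans ?_
    rw [← pow_mul, ← Real.exp_nat_mul]
    apply Real.exp_le_exp.2
    push_cast
    have h4 : 1 / (n : ℝ) ^ 6 ≤ γ := by
      rw [hγ]; exact one_div_le_one_div_of_le hDpos hDle
    have h5 : (n : ℝ) ^ 2 = (n : ℝ) ^ 8 * (1 / (n : ℝ) ^ 6) := by field_simp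
    have h6 : (n : ℝ) ^ 2 ≤ (n : ℝ) ^ 8 * γ := by
      rw [h5]
      exact mul_le_mul_of_nonneg_left h4 (by positivity)
    nlinarith
  have hfin : (∑ E ∈ realizations d, |iter d G (2 * n ^ 8) E|) ^ 2 ≤ 1 / 4 := by
    refine hcs.trans ?_
    calc ((realizations d).card : ℝ) * ipd d (iter d G (2 * n ^ 8)) (iter d G (2 * n ^ 8))
        ≤ Real.exp ((n : ℝ) ^ 2) * Real.exp (-(4 * (n : ℝ) ^ 2)) :=
          mul_le_mul (card_realizations_le d) (hnorm.trans hexp) (ipd_self_nonneg _ _)
            (Real.exp_pos _).le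
      _ = Real.exp (-(3 * (n : ℝ) ^ 2)) := by rw [← Real.exp_add]; ring_nf
      _ ≤ 1 / 4 := by
        rw [Real.exp_neg]
        have h1 : (4 : ℝ) ≤ Real.exp (3 * (n : ℝ) ^ 2) := by
          have := Real.add_one_le_exp (3 * (n : ℝ) ^ 2)
          nlinarith
        rw [inv_eq_one_div]
        exact one_div_le_one_div_of_le (by norm_num) h1
  have hnn : 0 ≤ ∑ E ∈ realizations d, |iter d G (2 * n ^ 8) E| :=
    sum_nonneg fun E _ => abs_nonneg _
  nlinarith

end Crest.Agent.R299
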